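import Mathlib

/-! Abstract counting lemmas used for the polynomial removal bound of the 2×2 diagonal pattern. -/

namespace Vale.Agent.P037

open Finset

section Levels

variable {ι : Type*} [Fintype ι] [DecidableEq ι]

/-- Rounding a function to levels with a gap, after removing a few exceptional points. -/
lemma exists_levels (f : ι → ℕ) (g q : ℕ) (hg : 0 < g) (hq : 0 < q) :
    ∃ (lev : ι → ℕ) (Z : Finset ι), q * Z.card ≤ Fintype.card ι ∧
      (∀ c c', lev c ≤ lev c' → f c ≤ f c' + 2 * g * q) ∧
      (∀ c c', c' ∉ Z → lev c < lev c' → f c + 2 * g ≤ f c') := by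
  classical
  have h2g : 0 < 2 * g := by omega
  set y : ι → ℕ := fun c => f c / (2 * g) with hy
  obtain ⟨u, hu, hZ⟩ : ∃ u ∈ range q,
      q * (univ.filter fun c => y c % q = u).card ≤ Fintype.card ι := by
    by_contra hcon
    push Not at hcon
    have h1 : Fintype.card ι = ∑ u ∈ range q, (univ.filter fun c => y c % q = u).card := by
      rw [← Finset.card_univ]
      exact Finset.card_eq_sum_card_fiberwise (fun c _ => mem_coe.mpr (mem_range.mpr (Nat.mod_lt _ hq)))
    have h2 : ∑ _u ∈ range q, Fintype.card ι
        < ∑ u ∈ range q, q * (univ.filter fun c => y c % q = u).card :=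
      Finset.sum_lt_sum_of_nonempty (by simpa using hq.ne') (fun u hu => hcon u hu)
    rw [← Finset.mul_sum, ← h1] at h2
    simp at h2
  have huq : u < q := mem_range.mp hu
  refine ⟨fun c => (y c + q - u) / q, univ.filter fun c => y c % q = u, hZ, ?_, ?_⟩
  · intro c c' hcc
    have hcc' : (y c + q - u) / q ≤ (y c' + q - u) / q := hcc
    have h1 : y c + q - u < q * ((y c + q - u) / q + 1) := Nat.lt_mul_div_succ _ hq
    have h2 : q * ((y c' + q - u) / q) ≤ y c' + q - u := Nat.mul_div_le _ _
    have h3 : q * ((y c + q - u) / q + 1) ≤ q * ((y c' + q - u) / q + 1) :=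
      Nat.mul_le_mul_left _ (by omega)
    have h4 : y c < y c' + q := by
      have : q * ((y c' + q - u) / q + 1) = q * ((y c' + q - u) / q) + q := by ring
      omega
    have h5 : f c < 2 * g * (y c + 1) := Nat.lt_mul_div_succ _ h2g
    have h6 : 2 * g * y c' ≤ f c' := Nat.mul_div_le _ _
    have h7 : 2 * g * (y c + 1) ≤ 2 * g * (y c' + q) := Nat.mul_le_mul_left _ (by omega)
    have h8 : 2 * g * (y c' + q) = 2 * g * y c' + 2 * g * q := by ring
    omega
  · intro c c' hc' hlt
    have hlt' : (y c + q - u) / q < (y c' + q - u) / q := hlt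
    have hnot : y c' % q ≠ u := by simpa using hc'
    set k := (y c' + q - u) / q with hk
    have h1 : y c + q - u < q * ((y c + q - u) / q + 1) := Nat.lt_mul_div_succ _ hq
    have h2 : q * k ≤ y c' + q - u := Nat.mul_div_le _ _
    have h3 : q * ((y c + q - u) / q + 1) ≤ q * k := Nat.mul_le_mul_left _ (by omega)
    have hne : q * k ≠ y c' + q - u := by
      intro heq
      apply hnot
      have hkpos : 0 < k := by
        rcases Nat.eq_zero_or_pos k with h0 | h0
        · rw [h0] at heq; omega
        · exact h0
      obtain ⟨k', hk'⟩ : ∃ k', k = k' + 1 := ⟨k - 1, by omega⟩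
      rw [hk'] at heq
      have h4 : y c' = q * k' + u := by
        have : q * (k' + 1) = q * k' + q := by ring
        omega
      rw [h4, Nat.mul_add_mod, Nat.mod_eq_of_lt huq]
    have h4 : y c + 2 ≤ y c' := by omega
    have h5 : f c < 2 * g * (y c + 1) := Nat.lt_mul_div_succ _ h2g
    have h6 : 2 * g * y c' ≤ f c' := Nat.mul_div_le _ _
    have h7 : 2 * g * (y c + 2) ≤ 2 * g * y c' := Nat.mul_le_mul_left _ h4
    have h8 : 2 * g * (y c + 2) = 2 * g * (y c + 1) + 2 * g := by ring
    omega

end Levels

section Crossing

variable {ι : Type*} [Fintype ι] [DecidableEq ι]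

/-- A subset that has few inversions against a level function is close to an up-set. -/
lemma exists_threshold (lev : ι → ℕ) (S : ι → Bool) (τ : ℕ) :
    (∃ j, (univ.filter fun c => S c ≠ decide (j ≤ lev c)).card ≤ 4 * τ) ∨
      τ ^ 2 ≤ (univ.filter fun p : ι × ι =>
        S p.1 = true ∧ S p.2 = false ∧ lev p.1 ≤ lev p.2).card := by
  classical
  by_contra hcon
  push Not at hcon
  obtain ⟨he, hinv⟩ := hcon
  set inv := (univ.filter fun p : ι × ι =>
        S p.1 = true ∧ S p.2 = false ∧ lev p.1 ≤ lev p.2) with hinvdef
  let a : ℕ → Finset ι := fun j => univ.filter fun c => S c = true ∧ lev c < j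
  let b : ℕ → Finset ι := fun j => univ.filter fun c => S c = false ∧ j ≤ lev c
  let x : ℕ → Finset ι := fun j => univ.filter fun c => S c = true ∧ lev c = j
  let y : ℕ → Finset ι := fun j => univ.filter fun c => S c = false ∧ lev c = j
  have he' : ∀ j, 4 * τ < (a j).card + (b j).card := by
    intro j
    refine lt_of_lt_of_le (he j) ?_
    rw [← Finset.card_union_of_disjoint]
    · apply Finset.card_le_card
      intro c hc
      simp only [mem_filter, mem_univ, true_and, ne_eq, a, b, mem_union] at hc ⊢
      cases hS : S c <;> simp [hS] at hc ⊢ <;> omega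
    · rw [Finset.disjoint_left]
      intro c hc hc'
      simp only [mem_filter, mem_univ, true_and, a, b] at hc hc'
      simp [hc.1] at hc'
  have hab : ∀ j, (a j).card * (b j).card ≤ inv.card := by
    intro j
    rw [← Finset.card_product]
    apply Finset.card_le_card
    intro p hp
    simp only [mem_product, mem_filter, mem_univ, true_and, a, b, hinvdef] at hp ⊢
    exact ⟨hp.1.1, hp.2.1, by omega⟩
  have hxy : ∀ j, (x j).card * (y j).card ≤ inv.card := by
    intro j
    rw [← Finset.card_product]
    apply Finset.card_le_card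
    intro p hp
    simp only [mem_product, mem_filter, mem_univ, true_and, x, y, hinvdef] at hp ⊢
    exact ⟨hp.1.1, hp.2.1, by omega⟩
  have ha_succ : ∀ j, (a (j + 1)).card = (a j).card + (x j).card := by
    intro j
    rw [← Finset.card_union_of_disjoint]
    · congr 1
      ext c
      simp only [mem_filter, mem_univ, true_and, a, x, mem_union]
      constructor
      · rintro ⟨h1, h2⟩
        by_cases h3 : lev c < j
        · exact Or.inl ⟨h1, h3⟩
        · exact Or.inr ⟨h1, by omega⟩
      · rintro (⟨h1, h2⟩ | ⟨h1, h2⟩)
        · exact ⟨h1, by omega⟩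
        · exact ⟨h1, by omega⟩
    · rw [Finset.disjoint_left]
      intro c hc hc'
      simp only [mem_filter, mem_univ, true_and, a, x] at hc hc'
      omega
  have hb_succ : ∀ j, (b j).card = (b (j + 1)).card + (y j).card := by
    intro j
    rw [← Finset.card_union_of_disjoint]
    · congr 1
      ext c
      simp only [mem_filter, mem_univ, true_and, b, y, mem_union]
      constructor
      · rintro ⟨h1, h2⟩
        by_cases h3 : lev c = j
        · exact Or.inr ⟨h1, h3⟩
        · exact Or.inl ⟨h1, by omega⟩
      · rintro (⟨h1, h2⟩ | ⟨h1, h2⟩)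
        · exact ⟨h1, by omega⟩
        · exact ⟨h1, by omega⟩
    · rw [Finset.disjoint_left]
      intro c hc hc'
      simp only [mem_filter, mem_univ, true_and, b, y] at hc hc'
      omega
  have ha0 : (a 0).card = 0 := by
    simp [a]
  -- a large index has `b` empty
  obtain ⟨J, hJ⟩ : ∃ J, (b J).card = 0 := by
    refine ⟨(univ.sup lev) + 1, ?_⟩
    rw [Finset.card_eq_zero, Finset.filter_eq_empty_iff]
    intro c _ h
    have : lev c ≤ univ.sup lev := Finset.le_sup (mem_univ c)
    omega
  have hex : ∃ j, (b j).card < (a j).card := by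
    refine ⟨J, ?_⟩
    have := he' J
    omega
  have hfind := Nat.find_spec hex
  have hmin := fun k => Nat.find_min (m := k) hex
  set j0 := Nat.find hex with hj0
  have hj0pos : j0 ≠ 0 := by
    intro h0
    rw [h0, ha0] at hfind
    omega
  obtain ⟨j, hj⟩ : ∃ j, j0 = j + 1 := ⟨j0 - 1, by omega⟩
  rw [hj] at hfind
  have hle : (a j).card ≤ (b j).card := by
    have := hmin j (by omega)
    omega
  have e1 := he' j
  have e2 := he' (j + 1)
  have p1 := hab j
  have p2 := hab (j + 1)
  have p3 := hxy j
  have s1 := ha_succ j
  have s2 := hb_succ j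
  generalize (a j).card = A at *
  generalize (b j).card = B at *
  generalize (a (j + 1)).card = A' at *
  generalize (b (j + 1)).card = B' at *
  generalize (x j).card = X at *
  generalize (y j).card = Y at *
  generalize inv.card = I at *
  have hI : I < τ * τ := by rw [← pow_two]; exact hinv
  have hb : 2 * τ < B := by omega
  have ha' : 2 * τ < A' := by omega
  by_cases hA : τ ≤ A
  · have : τ * τ ≤ A * B := Nat.mul_le_mul hA (by omega)
    omega
  · by_cases hB : τ ≤ B'
    · have : τ * τ ≤ A' * B' := Nat.mul_le_mul (by omega) hB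
      omega
    · have : τ * τ ≤ X * Y := Nat.mul_le_mul (by omega) (by omega)
      omega

end Crossing

section MinSum

/-- Sum of minima along an ordered sequence of pairs. -/
lemma min_sum_bound (X Y : ℕ → ℕ) (a w : ℕ) (ha : 0 < a)
    (hw : ∀ t, min (X t) (Y t) ≤ w) (L : ℕ) :
    a * ∑ t ∈ range L, min (X t) (Y t)
      ≤ a * (a + w) + ∑ j ∈ range L, (∑ i ∈ range j, X i) * Y j := by
  suffices h : a * ∑ t ∈ range L, min (X t) (Y t)
      ≤ a * (min (∑ i ∈ range L, X i) a + (if a ≤ ∑ i ∈ range L, X i then w else 0))
        + ∑ j ∈ range L, (∑ i ∈ range j, X i) * Y j by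
    refine h.trans ?_
    apply Nat.add_le_add_right
    apply Nat.mul_le_mul_left
    split_ifs with h1
    · have := min_le_right (∑ i ∈ range L, X i) a
      omega
    · have := min_le_right (∑ i ∈ range L, X i) a
      omega
  induction L with
  | zero => simp
  | succ L ih =>
    rw [Finset.sum_range_succ, Finset.sum_range_succ (fun j => (∑ i ∈ range j, X i) * Y j),
      Finset.sum_range_succ X, mul_add]
    set S := ∑ i ∈ range L, X i with hS
    set T := ∑ j ∈ range L, (∑ i ∈ range j, X i) * Y j with hT
    set M := ∑ t ∈ range L, min (X t) (Y t) with hM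
    have hmin := hw L
    by_cases h1 : a ≤ S
    · have h2 : a ≤ S + X L := by omega
      rw [if_pos h1] at ih
      rw [if_pos h2, min_eq_right h2]
      rw [min_eq_right h1] at ih
      have h3 : a * min (X L) (Y L) ≤ S * Y L :=
        Nat.mul_le_mul h1 (min_le_right _ _)
      calc a * M + a * min (X L) (Y L) ≤ a * (a + w) + T + S * Y L := by omega
        _ = _ := by ring
    · rw [if_neg h1, min_eq_left (a := S) (b := a) (by omega)] at ih
      by_cases h2 : a ≤ S + X L
      · rw [if_pos h2, min_eq_right h2]
        have h3 : a * min (X L) (Y L) ≤ a * w := Nat.mul_le_mul_left _ hmin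
        have h4 : a * (S + 0) + a * w ≤ a * (a + w) := by
          have : S ≤ a := by omega
          have : a * S ≤ a * a := Nat.mul_le_mul_left _ this
          nlinarith
        have h5 : 0 ≤ S * Y L := Nat.zero_le _
        calc a * M + a * min (X L) (Y L) ≤ a * (S + 0) + T + a * w := by omega
          _ ≤ a * (a + w) + T := by omega
          _ ≤ a * (a + w) + (T + S * Y L) := by omega
      · rw [if_neg h2, min_eq_left (a := S + X L) (b := a) (by omega)]
        have h3 : a * min (X L) (Y L) ≤ a * X L := Nat.mul_le_mul_left _ (min_le_left _ _)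
        calc a * M + a * min (X L) (Y L) ≤ a * (S + 0) + T + a * X L := by omega
          _ ≤ a * (S + X L + 0) + (T + S * Y L) := by
            have : a * (S + X L + 0) = a * (S + 0) + a * X L := by ring
            omega

end MinSum

section Pred

/-- Few elements of a finite linearly ordered set have few predecessors in it. -/
lemma card_small_pred {α : Type*} [LinearOrder α] [DecidableEq α] (P : Finset α) (h : ℕ) :
    (P.filter fun c => (P.filter (· < c)).card < h).card ≤ h := by
  classical
  have := Finset.card_le_card_of_injOn (s := P.filter fun c => (P.filter (· < c)).card < h)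
    (t := range h) (fun c => (P.filter (· < c)).card) ?_ ?_
  · simpa using this
  · intro c hc
    simp only [coe_filter, Set.mem_ofPred_eq] at hc
    simpa using hc.2
  · intro c hc c' hc' heq
    simp only [coe_filter, Set.mem_ofPred_eq] at hc hc'
    by_contra hne
    have key : ∀ {u v : α}, u ∈ P → u < v → (P.filter (· < u)).card < (P.filter (· < v)).card := by
      intro u v hu huv
      apply Finset.card_lt_card
      rw [Finset.ssubset_iff_of_subset]
      · exact ⟨u, by simp [hu, huv], by simp⟩
      · intro z hz
        simp only [mem_filter] at hz ⊢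
        exact ⟨hz.1, hz.2.trans huv⟩
    rcases lt_or_gt_of_ne hne with hlt | hlt
    · have := key hc.1 hlt
      simp only at heq
      omega
    · have := key hc'.1 hlt
      simp only at heq
      omega

end Pred

end Vale.Agent.P037
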