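import Mathlib

/-! Definitions used in the statements of the hand-ins for the ordered matrix removal problem. -/

namespace Vale.Agent.P037

open Finset

/-- `(ρ, κ)` is an ordered copy of the `k × k` matrix `H` in the `n × n` matrix `A`:
both index maps increase strictly, and `A (ρ i) (κ j) = H i j` for all `i, j`. -/
def IsOrderedCopy {k n : ℕ} (H : Fin k → Fin k → Bool) (A : Fin n → Fin n → Bool)
    (ρ κ : Fin k → Fin n) : Prop :=
  StrictMono ρ ∧ StrictMono κ ∧ ∀ i j, A (ρ i) (κ j) = H i j

/-- `N_H(A)`: the number of ordered copies of `H` in `A`. -/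
noncomputable def numOrderedCopies {k n : ℕ} (H : Fin k → Fin k → Bool)
    (A : Fin n → Fin n → Bool) : ℕ :=
  Set.ncard {p : (Fin k → Fin n) × (Fin k → Fin n) | IsOrderedCopy H A p.1 p.2}

/-- `A` is `H`-free: it has no ordered copy of `H`. -/
def IsPatternFree {k n : ℕ} (H : Fin k → Fin k → Bool) (A : Fin n → Fin n → Bool) : Prop :=
  ∀ ρ κ, ¬ IsOrderedCopy H A ρ κ

/-- The number of entries in which `A` and `B` differ. -/
def hammingDist {n : ℕ} (A B : Fin n → Fin n → Bool) : ℕ :=
  (univ.filter fun p : Fin n × Fin n => A p.1 p.2 ≠ B p.1 p.2).card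

/-- `A` is `ε`-far from `H`-free: every `H`-free matrix differs from `A` in at least
`ε n²` entries. -/
def IsFarFrom {k n : ℕ} (H : Fin k → Fin k → Bool) (A : Fin n → Fin n → Bool) (ε : ℝ) : Prop :=
  ∀ B : Fin n → Fin n → Bool, IsPatternFree H B → ε * (n : ℝ) ^ 2 ≤ hammingDist A B

end Vale.Agent.P037
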