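import Vale.Agent.P037.Statement

/-! Symmetries of the removal statement: row reversal, column reversal, complement, transpose. -/

namespace Vale.Agent.P037

open Finset

/-- The removal statement for a pattern `H`, with constants `c` and `C`. -/
def Removal {k : ℕ} (H : Fin k → Fin k → Bool) (c : ℝ) (C : ℕ) : Prop :=
  ∀ n : ℕ, 1 ≤ n → ∀ ε : ℝ, 0 < ε → ε < 1 → ∀ A : Fin n → Fin n → Bool,
    IsFarFrom H A ε → c * ε ^ C * (n : ℝ) ^ (2 * k) ≤ (numOrderedCopies H A : ℝ)

/-- Transfer of the removal statement along a symmetry. -/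
lemma Removal.transfer {k : ℕ} {H H' : Fin k → Fin k → Bool} {c : ℝ} {C : ℕ}
    (h : Removal H c C)
    (φ : ∀ {n : ℕ}, (Fin n → Fin n → Bool) → (Fin n → Fin n → Bool))
    (hφφ : ∀ {n : ℕ} (A : Fin n → Fin n → Bool), φ (φ A) = A)
    (hham : ∀ {n : ℕ} (A B : Fin n → Fin n → Bool), hammingDist (φ A) (φ B) = hammingDist A B)
    (g : ∀ {n : ℕ}, (Fin k → Fin n) × (Fin k → Fin n) → (Fin k → Fin n) × (Fin k → Fin n))
    (hg : ∀ {n : ℕ} (p : (Fin k → Fin n) × (Fin k → Fin n)), g (g p) = p)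
    (hcopy : ∀ {n : ℕ} (A : Fin n → Fin n → Bool) (p : (Fin k → Fin n) × (Fin k → Fin n)),
      IsOrderedCopy H (φ A) p.1 p.2 → IsOrderedCopy H' A (g p).1 (g p).2)
    (hcopy' : ∀ {n : ℕ} (A : Fin n → Fin n → Bool) (p : (Fin k → Fin n) × (Fin k → Fin n)),
      IsOrderedCopy H' A p.1 p.2 → IsOrderedCopy H (φ A) (g p).1 (g p).2) :
    Removal H' c C := by
  intro n hn ε hε hε1 A hfar
  have hfar' : IsFarFrom H (φ A) ε := by
    intro B hB
    have hfree : IsPatternFree H' (φ B) := by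
      intro ρ κ hc
      have := hcopy' (φ B) (ρ, κ) hc
      rw [hφφ] at this
      exact hB _ _ this
    have h1 := hfar (φ B) hfree
    rw [← hham A (φ B), hφφ] at h1
    exact h1
  refine (h n hn ε hε hε1 (φ A) hfar').trans ?_
  have hcount : numOrderedCopies H (φ A) ≤ numOrderedCopies H' A := by
    unfold numOrderedCopies
    apply Set.ncard_le_ncard_of_injOn (fun p => g p)
    · intro p hp
      exact hcopy A p hp
    · intro p _ p' _ heq
      have := congrArg g heq
      simpa [hg] using this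
  exact_mod_cast hcount

lemma Removal.rowRev {k : ℕ} {H : Fin k → Fin k → Bool} {c : ℝ} {C : ℕ} (h : Removal H c C) :
    Removal (fun i j => H (Fin.rev i) j) c C := by
  refine h.transfer (fun A r c => A (Fin.rev r) c) ?_ ?_
    (fun p => (fun i => Fin.rev (p.1 (Fin.rev i)), p.2)) ?_ ?_ ?_
  · intro n A
    simp
  · intro n A B
    unfold hammingDist
    apply Finset.card_bij (fun p _ => (Fin.rev p.1, p.2))
    · intro p hp
      simpa using hp
    · intro p _ p' _ heq
      have h1 := congrArg Prod.fst heq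
      have h2 := congrArg Prod.snd heq
      simp at h1 h2
      exact Prod.ext h1 h2
    · intro p hp
      refine ⟨(Fin.rev p.1, p.2), ?_, by simp⟩
      simpa using hp
  · intro n p
    ext i <;> simp
  · rintro n A ⟨ρ, κ⟩ ⟨h1, h2, h3⟩
    refine ⟨fun i i' hii => ?_, h2, fun i j => ?_⟩
    · exact Fin.rev_lt_rev.mpr (h1 (Fin.rev_lt_rev.mpr hii))
    · simpa using h3 (Fin.rev i) j
  · rintro n A ⟨ρ, κ⟩ ⟨h1, h2, h3⟩
    refine ⟨fun i i' hii => ?_, h2, fun i j => ?_⟩
    · exact Fin.rev_lt_rev.mpr (h1 (Fin.rev_lt_rev.mpr hii))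
    · simpa using h3 (Fin.rev i) j

lemma Removal.colRev {k : ℕ} {H : Fin k → Fin k → Bool} {c : ℝ} {C : ℕ} (h : Removal H c C) :
    Removal (fun i j => H i (Fin.rev j)) c C := by
  refine h.transfer (fun A r c => A r (Fin.rev c)) ?_ ?_
    (fun p => (p.1, fun i => Fin.rev (p.2 (Fin.rev i)))) ?_ ?_ ?_
  · intro n A
    simp
  · intro n A B
    unfold hammingDist
    apply Finset.card_bij (fun p _ => (p.1, Fin.rev p.2))
    · intro p hp
      simpa using hp
    · intro p _ p' _ heq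
      have h1 := congrArg Prod.fst heq
      have h2 := congrArg Prod.snd heq
      simp at h1 h2
      exact Prod.ext h1 h2
    · intro p hp
      refine ⟨(p.1, Fin.rev p.2), ?_, by simp⟩
      simpa using hp
  · intro n p
    ext i <;> simp
  · rintro n A ⟨ρ, κ⟩ ⟨h1, h2, h3⟩
    refine ⟨h1, fun i i' hii => ?_, fun i j => ?_⟩
    · exact Fin.rev_lt_rev.mpr (h2 (Fin.rev_lt_rev.mpr hii))
    · simpa using h3 i (Fin.rev j)
  · rintro n A ⟨ρ, κ⟩ ⟨h1, h2, h3⟩
    refine ⟨h1, fun i i' hii => ?_, fun i j => ?_⟩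
    · exact Fin.rev_lt_rev.mpr (h2 (Fin.rev_lt_rev.mpr hii))
    · simpa using h3 i (Fin.rev j)

lemma Removal.compl {k : ℕ} {H : Fin k → Fin k → Bool} {c : ℝ} {C : ℕ} (h : Removal H c C) :
    Removal (fun i j => !(H i j)) c C := by
  refine h.transfer (fun A r c => !(A r c)) ?_ ?_ (fun p => p) ?_ ?_ ?_
  · intro n A
    simp
  · intro n A B
    unfold hammingDist
    congr 1
    ext p
    simp
  · intro n p
    rfl
  · rintro n A ⟨ρ, κ⟩ ⟨h1, h2, h3⟩
    refine ⟨h1, h2, fun i j => ?_⟩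
    have := h3 i j
    simp only at this ⊢
    rw [← this]
    simp
  · rintro n A ⟨ρ, κ⟩ ⟨h1, h2, h3⟩
    refine ⟨h1, h2, fun i j => ?_⟩
    have := h3 i j
    simp only at this ⊢
    rw [this]
    simp

lemma Removal.transpose {k : ℕ} {H : Fin k → Fin k → Bool} {c : ℝ} {C : ℕ} (h : Removal H c C) :
    Removal (fun i j => H j i) c C := by
  refine h.transfer (fun A r c => A c r) ?_ ?_ (fun p => (p.2, p.1)) ?_ ?_ ?_
  · intro n A
    rfl
  · intro n A B
    unfold hammingDist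
    apply Finset.card_bij (fun p _ => (p.2, p.1))
    · intro p hp
      simpa using hp
    · intro p _ p' _ heq
      have h1 := congrArg Prod.fst heq
      have h2 := congrArg Prod.snd heq
      simp at h1 h2
      exact Prod.ext h2 h1
    · intro p hp
      refine ⟨(p.2, p.1), ?_, by simp⟩
      simpa using hp
  · intro n p
    rfl
  · rintro n A ⟨ρ, κ⟩ ⟨h1, h2, h3⟩
    exact ⟨h2, h1, fun i j => h3 j i⟩
  · rintro n A ⟨ρ, κ⟩ ⟨h1, h2, h3⟩
    exact ⟨h2, h1, fun i j => h3 j i⟩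

lemma Removal.mono_const {k : ℕ} {H : Fin k → Fin k → Bool} {c c' : ℝ} {C C' : ℕ}
    (h : Removal H c C) (hc : c' ≤ c) (hc0 : 0 ≤ c') (hCC : C ≤ C') : Removal H c' C' := by
  intro n hn ε hε hε1 A hfar
  refine le_trans ?_ (h n hn ε hε hε1 A hfar)
  have h1 : ε ^ C' ≤ ε ^ C := pow_le_pow_of_le_one hε.le hε1.le hCC
  have h2 : 0 ≤ (n : ℝ) ^ (2 * k) := by positivity
  have h3 : 0 ≤ ε ^ C := by positivity
  have h4 : c' * ε ^ C' ≤ c * ε ^ C := mul_le_mul hc h1 (by positivity) (hc0.trans hc)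
  exact mul_le_mul_of_nonneg_right h4 h2

end Vale.Agent.P037
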