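import Vale.Agent.P037.Abstract
import Vale.Agent.P037.Statement
import Vale.Agent.P037.Symmetry

/-! The two patterns with two equal rows: `[[1,1],[1,1]]` and `[[1,0],[1,0]]`. -/

namespace Vale.Agent.P037.Easy

open Finset

variable {n : ℕ}

/-- Pairs in increasing order inside a set. -/
def ascPairs (F : Finset (Fin n)) : Finset (Fin n × Fin n) :=
  (F ×ˢ F).filter fun p => p.1 < p.2

lemma card_sq_le (F : Finset (Fin n)) : F.card ^ 2 ≤ F.card + 2 * (ascPairs F).card := by
  classical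
  have hsub : F ×ˢ F ⊆ (F.image fun a => (a, a)) ∪ ascPairs F ∪
      ((ascPairs F).image fun p => (p.2, p.1)) := by
    rintro ⟨a, b⟩ hp
    simp only [mem_product] at hp
    simp only [mem_union, mem_image, ascPairs, mem_filter, mem_product, Prod.mk.injEq, Prod.exists]
    rcases lt_trichotomy a b with h | h | h
    · exact Or.inl (Or.inr ⟨⟨hp.1, hp.2⟩, h⟩)
    · subst h
      exact Or.inl (Or.inl ⟨a, hp.1, rfl, rfl⟩)
    · exact Or.inr ⟨b, a, ⟨⟨hp.2, hp.1⟩, h⟩, rfl, rfl⟩
  have h1 := Finset.card_le_card hsub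
  rw [Finset.card_product] at h1
  have h2 := Finset.card_union_le ((F.image fun a => (a, a)) ∪ ascPairs F)
    ((ascPairs F).image fun p => (p.2, p.1))
  have h3 := Finset.card_union_le (F.image fun a => (a, a)) (ascPairs F)
  have h4 : (F.image fun a => (a, a)).card ≤ F.card := Finset.card_image_le
  have h5 : ((ascPairs F).image fun p => (p.2, p.1)).card ≤ (ascPairs F).card := Finset.card_image_le
  rw [pow_two]
  omega

/-- Cauchy–Schwarz over the pairs of columns. -/
lemma count_core (F : Fin n → Fin n → Finset (Fin n)) :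
    (∑ p : Fin n × Fin n, if p.1 < p.2 then (F p.1 p.2).card else 0) ^ 2 ≤
      n ^ 2 * ((∑ p : Fin n × Fin n, if p.1 < p.2 then (F p.1 p.2).card else 0) +
        2 * ∑ p : Fin n × Fin n, if p.1 < p.2 then (ascPairs (F p.1 p.2)).card else 0) := by
  have h1 := sq_sum_le_card_mul_sum_sq (s := (univ : Finset (Fin n × Fin n)))
    (f := fun p => if p.1 < p.2 then (F p.1 p.2).card else 0)
  have h2 : (univ : Finset (Fin n × Fin n)).card = n ^ 2 := by
    simp [Finset.card_univ, pow_two]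
  rw [h2] at h1
  refine h1.trans (Nat.mul_le_mul_left _ ?_)
  rw [Finset.mul_sum, ← Finset.sum_add_distrib]
  refine Finset.sum_le_sum fun p _ => ?_
  by_cases hp : p.1 < p.2
  · simp only [hp, if_true]
    exact card_sq_le _
  · simp [hp]

/-- A quadruple gives an ordered copy. -/
lemma ordered_of_quad {H : Fin 2 → Fin 2 → Bool} {A : Fin n → Fin n → Bool} {a b c d : Fin n}
    (hab : a < b) (hcd : c < d) (h1 : A a c = H 0 0) (h2 : A a d = H 0 1) (h3 : A b c = H 1 0)
    (h4 : A b d = H 1 1) : IsOrderedCopy H A ![a, b] ![c, d] := by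
  have hmono : ∀ {x y : Fin n}, x < y → StrictMono ![x, y] := by
    intro x y h i j hij
    fin_cases i <;> fin_cases j <;> first | exact h | (exact absurd hij (by decide))
  refine ⟨hmono hab, hmono hcd, ?_⟩
  intro i j
  fin_cases i <;> fin_cases j <;> simpa

/-- Column pairs and row pairs of copies of a pattern with two equal rows. -/
lemma asc_sum_le_ordered {H : Fin 2 → Fin 2 → Bool} (hH0 : H 1 0 = H 0 0) (hH1 : H 1 1 = H 0 1)
    (A : Fin n → Fin n → Bool) :
    (∑ p : Fin n × Fin n, if p.1 < p.2 then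
      (ascPairs (univ.filter fun r => A r p.1 = H 0 0 ∧ A r p.2 = H 0 1)).card else 0)
      ≤ numOrderedCopies H A := by
  classical
  let T : Finset (Σ _ : Fin n × Fin n, Fin n × Fin n) :=
    (univ.filter fun p : Fin n × Fin n => p.1 < p.2).sigma fun p =>
      ascPairs (univ.filter fun r => A r p.1 = H 0 0 ∧ A r p.2 = H 0 1)
  have hsum : (∑ p : Fin n × Fin n, if p.1 < p.2 then
      (ascPairs (univ.filter fun r => A r p.1 = H 0 0 ∧ A r p.2 = H 0 1)).card else 0) = T.card := by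
    rw [Finset.card_sigma, Finset.sum_filter]
  rw [hsum]
  let f : (Σ _ : Fin n × Fin n, Fin n × Fin n) → (Fin 2 → Fin n) × (Fin 2 → Fin n) :=
    fun s => (![s.2.1, s.2.2], ![s.1.1, s.1.2])
  have hinj : Set.InjOn f T := by
    rintro ⟨⟨c, d⟩, ⟨a, b⟩⟩ _ ⟨⟨c', d'⟩, ⟨a', b'⟩⟩ _ heq
    have h1 := congrFun (congrArg Prod.fst heq) 0
    have h2 := congrFun (congrArg Prod.fst heq) 1
    have h3 := congrFun (congrArg Prod.snd heq) 0
    have h4 := congrFun (congrArg Prod.snd heq) 1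
    simp [f] at h1 h2 h3 h4
    subst h1 h2 h3 h4
    rfl
  rw [← Finset.card_image_of_injOn hinj, ← Set.ncard_coe_finset]
  unfold numOrderedCopies
  apply Set.ncard_le_ncard _ (Set.toFinite _)
  intro q hq
  simp only [coe_image, Set.mem_image, mem_coe] at hq
  obtain ⟨⟨⟨c, d⟩, ⟨a, b⟩⟩, hs, rfl⟩ := hq
  simp only [T, mem_sigma, mem_filter, mem_univ, true_and, ascPairs, mem_product] at hs
  obtain ⟨hcd, ⟨⟨h1, h2⟩, h3, h4⟩, hab⟩ := hs
  exact ordered_of_quad hab hcd h1 h2 (h3.trans hH0.symm) (h4.trans hH1.symm)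

/-- One copy exists in a far matrix. -/
lemma one_le_of_far {k : ℕ} {H : Fin k → Fin k → Bool} {A : Fin n → Fin n → Bool} {ε : ℝ}
    (hn : 1 ≤ n) (hε : 0 < ε) (hfar : IsFarFrom H A ε) : 1 ≤ numOrderedCopies H A := by
  by_contra hcon
  have h0 : numOrderedCopies H A = 0 := by omega
  unfold numOrderedCopies at h0
  have hempty := (Set.ncard_eq_zero (Set.toFinite _)).mp h0
  have hfree : IsPatternFree H A := by
    intro ρ κ hc
    have : (ρ, κ) ∈ {p : (Fin k → Fin n) × (Fin k → Fin n) | IsOrderedCopy H A p.1 p.2} := hc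
    rw [hempty] at this
    exact this
  have h1 := hfar A hfree
  have h2 : hammingDist A A = 0 := by
    unfold hammingDist
    simp
  rw [h2] at h1
  have hnR : (1 : ℝ) ≤ n := by exact_mod_cast hn
  have hpos : 0 < ε * (n : ℝ) ^ 2 := by positivity
  simp at h1
  linarith

section Arithmetic

lemma final_ones {ε ν e W Nq : ℝ} (hε : 0 < ε) (hε1 : ε < 1) (hν : 1 ≤ ν) (hcase : 8 ≤ ε ^ 2 * ν)
    (he1 : ε * ν ^ 2 ≤ e) (hW0 : 0 ≤ W) (hrows : e ^ 2 ≤ ν * (e + 2 * W))
    (hcore : W ^ 2 ≤ ν ^ 2 * (W + 2 * Nq)) : ε ^ 4 * ν ^ 4 / 64 ≤ Nq := by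
  have hν0 : 0 < ν := by linarith
  have hnn : ν ^ 2 > 0 := by positivity
  have hεν : 8 ≤ ε * ν := by
    have : ε ^ 2 * ν ≤ ε * ν := by
      apply mul_le_mul_of_nonneg_right _ hν0.le
      nlinarith
    linarith
  have he2 : 8 * ν ≤ e := by
    have : 8 * ν ≤ ε * ν * ν := mul_le_mul_of_nonneg_right hεν hν0.le
    nlinarith
  have hW1 : ε ^ 2 * ν ^ 3 / 4 ≤ W := by
    have h1 : e ^ 2 / 2 ≤ 2 * ν * W := by nlinarith
    have h2 : (ε * ν ^ 2) ^ 2 ≤ e ^ 2 := pow_le_pow_left₀ (by positivity) he1 2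
    have h3 : (ε * ν ^ 2) ^ 2 / 2 ≤ 2 * ν * W := by linarith
    have h4 : ν * (ε ^ 2 * ν ^ 3 / 4) * 2 = (ε * ν ^ 2) ^ 2 / 2 := by ring
    have h5 : ν * (ε ^ 2 * ν ^ 3 / 4) ≤ ν * W := by nlinarith
    exact le_of_mul_le_mul_left h5 hν0
  have hW2 : 2 * ν ^ 2 ≤ W := by
    have : 2 * ν ^ 2 ≤ ε ^ 2 * ν ^ 3 / 4 := by
      have h1 : ε ^ 2 * ν ^ 3 / 4 = (ε ^ 2 * ν) * ν ^ 2 / 4 := by ring
      rw [h1]
      nlinarith
    linarith
  have hN1 : W ^ 2 / 2 ≤ ν ^ 2 * (2 * Nq) := by
    have h1 : ν ^ 2 * W ≤ W ^ 2 / 2 := by nlinarith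
    nlinarith
  have hW3 : (ε ^ 2 * ν ^ 3 / 4) ^ 2 ≤ W ^ 2 := pow_le_pow_left₀ (by positivity) hW1 2
  have h1 : ν ^ 2 * (ε ^ 4 * ν ^ 4 / 64) * 4 = (ε ^ 2 * ν ^ 3 / 4) ^ 2 := by ring
  have h2 : ν ^ 2 * (ε ^ 4 * ν ^ 4 / 64) ≤ ν ^ 2 * Nq := by nlinarith
  exact le_of_mul_le_mul_left h2 hnn

lemma final_desc {ε ν U τ W Nq : ℝ} (hε : 0 < ε) (hε1 : ε < 1) (hν : 1 ≤ ν)
    (hcase : 1024 ≤ ε ^ 3 * ν) (hτ3 : ε * ν / 16 ≤ τ) (hτ1 : τ ≤ ε * ν / 8)
    (hfar1 : ε * ν ^ 2 ≤ ν * (4 * τ) + U * ν) (hU0 : 0 ≤ U) (hWR : U * τ ^ 2 ≤ W)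
    (hcore : W ^ 2 ≤ ν ^ 2 * (W + 2 * Nq)) : ε ^ 6 * ν ^ 4 / 2 ^ 20 ≤ Nq := by
  have hν0 : 0 < ν := by linarith
  have hnn : ν ^ 2 > 0 := by positivity
  have hU : ε * ν / 2 ≤ U := by
    have h1 : ν * (ε * ν / 2) ≤ ν * U := by nlinarith
    exact le_of_mul_le_mul_left h1 hν0
  have hτsq : (ε * ν / 16) ^ 2 ≤ τ ^ 2 := pow_le_pow_left₀ (by positivity) hτ3 2
  have hW1 : ε ^ 3 * ν ^ 3 / 512 ≤ W := by
    have h1 : (ε * ν / 2) * (ε * ν / 16) ^ 2 ≤ U * τ ^ 2 :=
      mul_le_mul hU hτsq (by positivity) hU0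
    have h2 : (ε * ν / 2) * (ε * ν / 16) ^ 2 = ε ^ 3 * ν ^ 3 / 512 := by ring
    linarith
  have hW2 : 2 * ν ^ 2 ≤ W := by
    have h1 : ε ^ 3 * ν ^ 3 / 512 = (ε ^ 3 * ν) * ν ^ 2 / 512 := by ring
    have h2 : 2 * ν ^ 2 ≤ ε ^ 3 * ν ^ 3 / 512 := by
      rw [h1]
      nlinarith
    linarith
  have hN1 : W ^ 2 / 2 ≤ ν ^ 2 * (2 * Nq) := by
    have h1 : ν ^ 2 * W ≤ W ^ 2 / 2 := by nlinarith
    nlinarith
  have hW3 : (ε ^ 3 * ν ^ 3 / 512) ^ 2 ≤ W ^ 2 := pow_le_pow_left₀ (by positivity) hW1 2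
  have h1 : ν ^ 2 * (ε ^ 6 * ν ^ 4 / 2 ^ 20) * 4 = (ε ^ 3 * ν ^ 3 / 512) ^ 2 := by ring
  have h2 : ν ^ 2 * (ε ^ 6 * ν ^ 4 / 2 ^ 20) ≤ ν ^ 2 * Nq := by nlinarith
  exact le_of_mul_le_mul_left h2 hnn

end Arithmetic

section AllOnes

/-- The all ones pattern. -/
def onesPattern : Fin 2 → Fin 2 → Bool := ![![true, true], ![true, true]]

lemma free_zero : IsPatternFree onesPattern (fun _ _ : Fin n => false) := by
  rintro ρ κ ⟨_, _, h⟩
  have := h 0 0
  simp [onesPattern] at this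

theorem removal_ones : Removal onesPattern (1 / 4096) 8 := by
  intro n hn ε hε hε1 A hfar
  classical
  have hone := one_le_of_far hn hε hfar
  have hoder : (1 : ℝ) ≤ (numOrderedCopies onesPattern A : ℝ) := by exact_mod_cast hone
  have hnR : (1 : ℝ) ≤ n := by exact_mod_cast hn
  have hν0 : (0 : ℝ) < n := by linarith
  simp only [show 2 * 2 = 4 from rfl]
  by_cases hcase : ε ^ 2 * (n : ℝ) < 8
  · -- small `n`
    have h1 : (ε ^ 2 * (n : ℝ)) ^ 4 ≤ 8 ^ 4 := pow_le_pow_left₀ (by positivity) hcase.le 4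
    have h2 : 1 / 4096 * ε ^ 8 * (n : ℝ) ^ 4 = (ε ^ 2 * (n : ℝ)) ^ 4 / 4096 := by ring
    rw [h2]
    refine le_trans ?_ hoder
    rw [div_le_one (by norm_num)]
    exact h1.trans (by norm_num)
  · -- large `n`
    push Not at hcase
    -- the number of ones
    set S : Fin n → Finset (Fin n) := fun a => univ.filter fun c => A a c = true with hS
    set e : ℕ := ∑ a, (S a).card with he
    have hham : hammingDist A (fun _ _ : Fin n => false) = e := by
      unfold hammingDist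
      rw [Finset.card_filter, Fintype.sum_prod_type, he]
      refine Finset.sum_congr rfl fun a _ => ?_
      rw [hS]
      simp only
      rw [Finset.card_filter]
      refine Finset.sum_congr rfl fun c _ => ?_
      cases A a c <;> simp
    have hfar0 := hfar _ (free_zero (n := n))
    rw [hham] at hfar0
    -- the column pairs
    let F : Fin n → Fin n → Finset (Fin n) := fun c d =>
      univ.filter fun r => A r c = onesPattern 0 0 ∧ A r d = onesPattern 0 1
    set W : ℕ := ∑ p : Fin n × Fin n, if p.1 < p.2 then (F p.1 p.2).card else 0 with hW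
    set Nq : ℕ := ∑ p : Fin n × Fin n, if p.1 < p.2 then (ascPairs (F p.1 p.2)).card else 0 with hNq
    have hcore : W ^ 2 ≤ n ^ 2 * (W + 2 * Nq) := count_core F
    have hNq_le : Nq ≤ numOrderedCopies onesPattern A :=
      asc_sum_le_ordered (by simp [onesPattern]) (by simp [onesPattern]) A
    have hW_rows : W = ∑ a, (ascPairs (S a)).card := by
      rw [hW]
      have h1 : ∀ p : Fin n × Fin n, (if p.1 < p.2 then (F p.1 p.2).card else 0)
          = ∑ a, if (p ∈ ascPairs (S a)) then 1 else 0 := by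
        intro p
        rw [← Finset.card_filter]
        by_cases hp : p.1 < p.2
        · rw [if_pos hp]
          congr 1
          ext a
          simp [F, ascPairs, hS, onesPattern, hp]
        · rw [if_neg hp]
          symm
          rw [Finset.card_eq_zero, Finset.filter_eq_empty_iff]
          intro a _ h
          simp [ascPairs] at h
          exact hp h.2
      simp only [h1]
      rw [Finset.sum_comm]
      refine Finset.sum_congr rfl fun a _ => ?_
      rw [← Finset.card_filter]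
      congr 1
      ext p
      simp
    have hrows : e ^ 2 ≤ n * (e + 2 * W) := by
      have h1 := sq_sum_le_card_mul_sum_sq (s := (univ : Finset (Fin n)))
        (f := fun a => (S a).card)
      simp only [card_univ, Fintype.card_fin] at h1
      refine h1.trans (Nat.mul_le_mul_left _ ?_)
      rw [he, hW_rows, Finset.mul_sum, ← Finset.sum_add_distrib]
      exact Finset.sum_le_sum fun a _ => card_sq_le (S a)
    -- real arithmetic
    clear_value W Nq e
    have hrowsR : (e : ℝ) ^ 2 ≤ n * (e + 2 * W) := by exact_mod_cast hrows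
    have hcoreR : (W : ℝ) ^ 2 ≤ (n : ℝ) ^ 2 * (W + 2 * Nq) := by exact_mod_cast hcore
    have hNqR : (Nq : ℝ) ≤ numOrderedCopies onesPattern A := by exact_mod_cast hNq_le
    have hN2 := final_ones hε hε1 hnR hcase hfar0 (Nat.cast_nonneg W) hrowsR hcoreR
    have hfin : 1 / 4096 * ε ^ 8 * (n : ℝ) ^ 4 ≤ ε ^ 4 * (n : ℝ) ^ 4 / 64 := by
      have h1 : 1 / 4096 * ε ^ 8 * (n : ℝ) ^ 4 = (ε ^ 4 / 64 * (ε ^ 4 / 64)) * (n : ℝ) ^ 4 := by ring
      have h2 : ε ^ 4 * (n : ℝ) ^ 4 / 64 = (ε ^ 4 * (1 / 64)) * (n : ℝ) ^ 4 := by ring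
      rw [h1, h2]
      apply mul_le_mul_of_nonneg_right _ (by positivity)
      have hε4 : ε ^ 4 ≤ 1 := pow_le_one₀ hε.le hε1.le
      have h3 : 0 ≤ ε ^ 4 := by positivity
      nlinarith
    linarith

end AllOnes

section Descents

/-- The pattern `[[1,0],[1,0]]`. -/
def descPattern : Fin 2 → Fin 2 → Bool := ![![true, false], ![true, false]]

theorem removal_desc : Removal descPattern (1 / 2 ^ 40) 12 := by
  intro n hn ε hε hε1 A hfar
  classical
  have hone := one_le_of_far hn hε hfar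
  have hoder : (1 : ℝ) ≤ (numOrderedCopies descPattern A : ℝ) := by exact_mod_cast hone
  have hnR : (1 : ℝ) ≤ n := by exact_mod_cast hn
  have hν0 : (0 : ℝ) < n := by linarith
  simp only [show 2 * 2 = 4 from rfl]
  by_cases hcase : ε ^ 3 * (n : ℝ) < 1024
  · -- small `n`
    have h1 : (ε ^ 3 * (n : ℝ)) ^ 4 ≤ 1024 ^ 4 := pow_le_pow_left₀ (by positivity) hcase.le 4
    have h2 : 1 / 2 ^ 40 * ε ^ 12 * (n : ℝ) ^ 4 = (ε ^ 3 * (n : ℝ)) ^ 4 / 2 ^ 40 := by ring
    rw [h2]
    refine le_trans ?_ hoder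
    rw [div_le_one (by norm_num)]
    exact h1.trans (by norm_num)
  · -- large `n`
    push Not at hcase
    have hεν3 : 1024 ≤ ε * (n : ℝ) := by
      have h1 : ε ^ 3 ≤ ε := by
        have : ε ^ 3 = ε * ε ^ 2 := by ring
        rw [this]
        have h2 : ε ^ 2 ≤ 1 := pow_le_one₀ hε.le hε1.le
        nlinarith
      have : ε ^ 3 * (n : ℝ) ≤ ε * (n : ℝ) := mul_le_mul_of_nonneg_right h1 hν0.le
      linarith
    set τ : ℕ := ⌊ε * (n : ℝ) / 8⌋₊ with hτ
    have hτ1 : (τ : ℝ) ≤ ε * (n : ℝ) / 8 := Nat.floor_le (by positivity)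
    have hτ2 : ε * (n : ℝ) / 8 < (τ : ℝ) + 1 := Nat.lt_floor_add_one _
    have hτ3 : ε * (n : ℝ) / 16 ≤ τ := by linarith
    -- thresholds
    let e : Fin n → ℕ → Finset (Fin n) := fun r j =>
      univ.filter fun c => A r c ≠ decide (j ≤ c.val)
    let inv : Fin n → Finset (Fin n × Fin n) := fun r =>
      univ.filter fun p => A r p.1 = true ∧ A r p.2 = false ∧ p.1.val ≤ p.2.val
    have hrow : ∀ r, ∃ j, (e r j).card ≤ 4 * τ ∨ τ ^ 2 ≤ (inv r).card := by
      intro r
      rcases exists_threshold (fun c : Fin n => c.val) (A r) τ with ⟨j, hj⟩ | hI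
      · exact ⟨j, Or.inl hj⟩
      · exact ⟨0, Or.inr hI⟩
    choose j hj using hrow
    let B : Fin n → Fin n → Bool := fun r c => decide (j r ≤ c.val)
    have hfree : IsPatternFree descPattern B := by
      rintro ρ κ ⟨_, h2, h3⟩
      have h00 := h3 0 0
      have h01 := h3 0 1
      simp [descPattern, B] at h00 h01
      have h4 : κ 0 < κ 1 := h2 (by decide)
      have h5 : (κ 0).val < (κ 1).val := h4
      omega
    have hfar0 := hfar B hfree
    -- bad rows
    let U : Finset (Fin n) := univ.filter fun r => ¬ (e r (j r)).card ≤ 4 * τ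
    have hham : hammingDist A B ≤ n * (4 * τ) + U.card * n := by
      unfold hammingDist
      rw [Finset.card_filter, Fintype.sum_prod_type]
      have h1 : ∀ r : Fin n, (∑ c : Fin n, if A r c ≠ B r c then 1 else 0)
          ≤ 4 * τ + if r ∈ U then n else 0 := by
        intro r
        have hc : (∑ c : Fin n, if A r c ≠ B r c then 1 else 0) = (e r (j r)).card := by
          rw [Finset.card_filter]
        rw [hc]
        by_cases hr : r ∈ U
        · rw [if_pos hr]
          have : (e r (j r)).card ≤ n := by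
            simpa using Finset.card_le_univ (e r (j r))
          omega
        · rw [if_neg hr]
          have : (e r (j r)).card ≤ 4 * τ := by
            simp only [U, mem_filter, mem_univ, true_and, not_not] at hr
            exact hr
          omega
      refine (Finset.sum_le_sum fun r _ => h1 r).trans ?_
      rw [Finset.sum_add_distrib, Finset.sum_ite_mem]
      simp [Finset.card_univ]
    -- the column pairs
    let F : Fin n → Fin n → Finset (Fin n) := fun c d =>
      univ.filter fun r => A r c = descPattern 0 0 ∧ A r d = descPattern 0 1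
    set W : ℕ := ∑ p : Fin n × Fin n, if p.1 < p.2 then (F p.1 p.2).card else 0 with hW
    set Nq : ℕ := ∑ p : Fin n × Fin n, if p.1 < p.2 then (ascPairs (F p.1 p.2)).card else 0 with hNq
    have hcore : W ^ 2 ≤ n ^ 2 * (W + 2 * Nq) := count_core F
    have hNq_le : Nq ≤ numOrderedCopies descPattern A :=
      asc_sum_le_ordered (by simp [descPattern]) (by simp [descPattern]) A
    have hW_rows : W = ∑ r, (inv r).card := by
      rw [hW]
      have h1 : ∀ p : Fin n × Fin n, (if p.1 < p.2 then (F p.1 p.2).card else 0)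
          = ∑ r, if (p ∈ inv r) then 1 else 0 := by
        intro p
        rw [← Finset.card_filter]
        by_cases hp : p.1 < p.2
        · rw [if_pos hp]
          congr 1
          ext r
          simp [F, inv, descPattern, hp.le]
        · rw [if_neg hp]
          symm
          rw [Finset.card_eq_zero, Finset.filter_eq_empty_iff]
          intro r _ h
          simp only [inv, mem_filter, mem_univ, true_and] at h
          have hne : p.1 ≠ p.2 := by
            intro heq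
            rw [heq] at h
            simp [h.2.1] at h
          exact hp (lt_of_le_of_ne h.2.2 hne)
      simp only [h1]
      rw [Finset.sum_comm]
      refine Finset.sum_congr rfl fun r _ => ?_
      rw [← Finset.card_filter]
      congr 1
      ext p
      simp
    have hWU : U.card * τ ^ 2 ≤ W := by
      rw [hW_rows, ← smul_eq_mul]
      refine le_trans (Finset.card_nsmul_le_sum U _ _ ?_)
        (Finset.sum_le_sum_of_subset (subset_univ _))
      intro r hr
      have hr' : ¬ (e r (j r)).card ≤ 4 * τ := by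
        simpa [U] using hr
      rcases hj r with h | h
      · exact absurd h hr'
      · exact h
    -- real arithmetic
    have hfar1 : ε * (n : ℝ) ^ 2 ≤ (n : ℝ) * (4 * τ) + U.card * n := by
      have h1 : (hammingDist A B : ℝ) ≤ (n : ℝ) * (4 * τ) + U.card * n := by exact_mod_cast hham
      exact hfar0.trans h1
    have hWU' : U.card * τ ^ 2 ≤ W := hWU
    clear_value W Nq
    have hWR : (U.card : ℝ) * (τ : ℝ) ^ 2 ≤ W := by exact_mod_cast hWU'
    have hcoreR : (W : ℝ) ^ 2 ≤ (n : ℝ) ^ 2 * (W + 2 * Nq) := by exact_mod_cast hcore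
    have hNqR : (Nq : ℝ) ≤ numOrderedCopies descPattern A := by exact_mod_cast hNq_le
    have hN2 := final_desc hε hε1 hnR hcase hτ3 hτ1 hfar1 (Nat.cast_nonneg _) hWR hcoreR
    have hfin : 1 / 2 ^ 40 * ε ^ 12 * (n : ℝ) ^ 4 ≤ ε ^ 6 * (n : ℝ) ^ 4 / 2 ^ 20 := by
      have h1 : 1 / 2 ^ 40 * ε ^ 12 * (n : ℝ) ^ 4
          = (ε ^ 6 / 2 ^ 20 * (ε ^ 6 / 2 ^ 20)) * (n : ℝ) ^ 4 := by ring
      have h2 : ε ^ 6 * (n : ℝ) ^ 4 / 2 ^ 20 = (ε ^ 6 * (1 / 2 ^ 20)) * (n : ℝ) ^ 4 := by ring
      rw [h1, h2]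
      apply mul_le_mul_of_nonneg_right _ (by positivity)
      have hε6 : ε ^ 6 ≤ 1 := pow_le_one₀ hε.le hε1.le
      have h3 : 0 ≤ ε ^ 6 := by positivity
      have h4 : ε ^ 6 / 2 ^ 20 * (ε ^ 6 / 2 ^ 20) = (ε ^ 6 * (1 / 2 ^ 20)) * (ε ^ 6 / 2 ^ 20) := by
        ring
      rw [h4]
      have h5 : ε ^ 6 / 2 ^ 20 ≤ 1 := by
        have : ε ^ 6 / 2 ^ 20 ≤ 1 / 1 := by
          apply div_le_div₀ (by norm_num) (by linarith) (by norm_num) (by norm_num)
        simpa using this
      have h6 : 0 ≤ ε ^ 6 * (1 / 2 ^ 20) := by positivity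
      nlinarith
    linarith

end Descents

end Vale.Agent.P037.Easy
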