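import Vale.Agent.P037.Diagonal
import Vale.Agent.P037.GammaFinal
import Vale.Agent.P037.Easy

/-! Polynomial removal for every 2×2 binary pattern. -/

namespace Vale.Agent.P037

/-- The common constant. -/
noncomputable def c₀ : ℝ := 1 / ((2 ^ 114) ^ 4 * 3 ^ 84)

lemma c₀_pos : 0 < c₀ := by
  unfold c₀
  positivity

theorem removal_diag : Removal diagPattern c₀ 84 := by
  intro n hn ε hε hε1 A hfar
  exact main_both diagPattern (Or.inl rfl) hn ε hε hε1 A hfar

theorem removal_gamma' : Removal Gamma.gammaPattern c₀ 84 := by
  refine Gamma.removal_gamma.mono_const ?_ c₀_pos.le (by norm_num)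
  unfold c₀
  norm_num

theorem removal_ones' : Removal Easy.onesPattern c₀ 84 := by
  refine Easy.removal_ones.mono_const ?_ c₀_pos.le (by norm_num)
  unfold c₀
  norm_num

theorem removal_desc' : Removal Easy.descPattern c₀ 84 := by
  refine Easy.removal_desc.mono_const ?_ c₀_pos.le (by norm_num)
  unfold c₀
  norm_num

/-- Every 2×2 pattern. -/
theorem removal_all (H : Fin 2 → Fin 2 → Bool) : Removal H c₀ 84 := by
  have hH : H = ![![H 0 0, H 0 1], ![H 1 0, H 1 1]] := by
    funext i j
    fin_cases i <;> fin_cases j <;> rfl
  rw [hH]
  generalize H 0 0 = a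
  generalize H 0 1 = b
  generalize H 1 0 = c
  generalize H 1 1 = d
  -- the base patterns and their images
  have mk : ∀ {H₁ H₂ : Fin 2 → Fin 2 → Bool}, Removal H₁ c₀ 84 → H₁ = H₂ → Removal H₂ c₀ 84 :=
    fun h e => e ▸ h
  have D := removal_diag
  have G := removal_gamma'
  have O := removal_ones'
  have P := removal_desc'
  have D₁ : Removal ![![false, true], ![true, false]] c₀ 84 :=
    mk D.rowRev (by funext i j; revert i j; decide)
  have G₁ : Removal ![![true, false], ![true, true]] c₀ 84 :=
    mk G.rowRev (by funext i j; revert i j; decide)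
  have G₂ : Removal ![![true, true], ![false, true]] c₀ 84 :=
    mk G.colRev (by funext i j; revert i j; decide)
  have G₃ : Removal ![![false, true], ![true, true]] c₀ 84 :=
    mk G₂.rowRev (by funext i j; revert i j; decide)
  have G₄ : Removal ![![false, false], ![false, true]] c₀ 84 :=
    mk G.compl (by funext i j; revert i j; decide)
  have G₅ : Removal ![![false, true], ![false, false]] c₀ 84 :=
    mk G₁.compl (by funext i j; revert i j; decide)
  have G₆ : Removal ![![false, false], ![true, false]] c₀ 84 :=
    mk G₂.compl (by funext i j; revert i j; decide)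
  have G₇ : Removal ![![true, false], ![false, false]] c₀ 84 :=
    mk G₃.compl (by funext i j; revert i j; decide)
  have O₁ : Removal ![![false, false], ![false, false]] c₀ 84 :=
    mk O.compl (by funext i j; revert i j; decide)
  have P₁ : Removal ![![false, true], ![false, true]] c₀ 84 :=
    mk P.colRev (by funext i j; revert i j; decide)
  have P₂ : Removal ![![true, true], ![false, false]] c₀ 84 :=
    mk P.transpose (by funext i j; revert i j; decide)
  have P₃ : Removal ![![false, false], ![true, true]] c₀ 84 :=
    mk P₁.transpose (by funext i j; revert i j; decide)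
  cases a <;> cases b <;> cases c <;> cases d <;>
    first
    | exact D
    | exact D₁
    | exact G
    | exact G₁
    | exact G₂
    | exact G₃
    | exact G₄
    | exact G₅
    | exact G₆
    | exact G₇
    | exact O
    | exact O₁
    | exact P
    | exact P₁
    | exact P₂
    | exact P₃

end Vale.Agent.P037
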