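import Vale.Agent.P037.Blow

/-! Polynomial removal for alternating `m × 2` patterns: the construction. -/

namespace Vale.Agent.P037.Block

open Finset

variable {n m : ℕ}

section Words

variable (A : Fin n → Fin n → Bool) (b : Fin m → Bool)

/-- Column `x` has the letter `b` on the rows `ρ`. -/
def UU (ρ : Fin m → Fin n) (x : Fin n) : Prop := ∀ i, A (ρ i) x = b i

/-- Column `x` has the complementary letter on the rows `ρ`. -/
def VV (ρ : Fin m → Fin n) (x : Fin n) : Prop := ∀ i, A (ρ i) x = !b i

open Classical in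
/-- Number of columns of the first letter before `x`. -/
noncomputable def predC (ρ : Fin m → Fin n) (x : Fin n) : ℕ :=
  (univ.filter fun e => e < x ∧ UU A b ρ e).card

open Classical in
/-- Row tuples for which `c` is among the first few columns of the first letter. -/
noncomputable def aSet (h : ℕ) (c : Fin n) : Finset (Fin m → Fin n) :=
  univ.filter fun ρ => StrictMono ρ ∧ UU A b ρ c ∧ predC A b ρ c < h

open Classical in
/-- Row tuples for which `c` has the second letter and many columns of the first letter before it. -/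
noncomputable def bSet (h : ℕ) (c : Fin n) : Finset (Fin m → Fin n) :=
  univ.filter fun ρ => StrictMono ρ ∧ VV A b ρ c ∧ h ≤ predC A b ρ c

open Classical in
/-- Row tuples forming a copy with the columns `c, d`. -/
noncomputable def forC (c d : Fin n) : ℕ :=
  (univ.filter fun ρ : Fin m → Fin n => StrictMono ρ ∧ UU A b ρ c ∧ VV A b ρ d).card

/-- The number of copies. -/
noncomputable def numP : ℕ := ∑ c, ∑ d, if c < d then forC A b c d else 0

lemma sum_a (h : ℕ) : ∑ c, (aSet A b h c).card ≤ n ^ m * h := by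
  classical
  unfold aSet
  simp only [Finset.card_filter]
  rw [Finset.sum_comm]
  have key : ∀ ρ : Fin m → Fin n, (∑ c, if StrictMono ρ ∧ UU A b ρ c ∧ predC A b ρ c < h
      then 1 else 0) ≤ h := by
    intro ρ
    rw [← Finset.card_filter]
    set P := univ.filter fun e => UU A b ρ e with hP
    refine le_trans (Finset.card_le_card ?_) (card_small_pred P h)
    intro c hc
    simp only [mem_filter, mem_univ, true_and] at hc ⊢
    refine ⟨by simp [hP, hc.2.1], ?_⟩
    have : (P.filter (· < c)) = univ.filter fun e => e < c ∧ UU A b ρ e := by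
      ext e
      simp only [hP, mem_filter, mem_univ, true_and]
      tauto
    rw [this]
    exact hc.2.2
  refine (Finset.sum_le_sum fun ρ _ => key ρ).trans ?_
  simp [Finset.card_univ]

lemma sum_b (h : ℕ) : h * ∑ c, (bSet A b h c).card ≤ numP A b := by
  classical
  unfold bSet numP
  simp only [Finset.card_filter]
  rw [Finset.mul_sum]
  have key : ∀ c : Fin n, h * ∑ ρ : Fin m → Fin n, (if StrictMono ρ ∧ VV A b ρ c ∧ h ≤ predC A b ρ c
      then 1 else 0) ≤ ∑ e, if e < c then forC A b e c else 0 := by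
    intro c
    have h1 : ∀ e : Fin n, (if e < c then forC A b e c else 0)
        = ∑ ρ : Fin m → Fin n, if StrictMono ρ ∧ e < c ∧ UU A b ρ e ∧ VV A b ρ c then 1 else 0 := by
      intro e
      by_cases hec : e < c
      · simp only [if_pos hec, true_and, forC, Finset.card_filter]
        refine Finset.sum_congr rfl fun ρ _ => ?_
        simp only [hec, true_and]
      · simp [hec]
    simp only [h1]
    rw [Finset.sum_comm, Finset.mul_sum]
    refine Finset.sum_le_sum fun ρ _ => ?_
    by_cases hρ : StrictMono ρ ∧ VV A b ρ c ∧ h ≤ predC A b ρ c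
    · rw [if_pos hρ, mul_one]
      refine le_trans hρ.2.2 ?_
      unfold predC
      rw [Finset.card_filter]
      refine Finset.sum_le_sum fun e _ => ?_
      by_cases he : e < c ∧ UU A b ρ e
      · rw [if_pos he, if_pos ⟨hρ.1, he.1, he.2, hρ.2.1⟩]
      · rw [if_neg he]
        exact Nat.zero_le _
    · rw [if_neg hρ, mul_zero]
      exact Nat.zero_le _
  refine (Finset.sum_le_sum fun c _ => key c).trans ?_
  rw [Finset.sum_comm]

/-- A product of sets of rows is covered by the two exceptional sets. -/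
lemma heavy_prod (h : ℕ) {c d : Fin n} (hcd : c < d) (S : Fin m → Finset (Fin n))
    (hS : ∀ i, ∀ r ∈ S i, A r c = b i ∧ A r d = !b i)
    (hord : ∀ i i', i < i' → ∀ r ∈ S i, ∀ r' ∈ S i', r < r') :
    ∏ i, (S i).card ≤ (aSet A b h c).card + (bSet A b h d).card := by
  classical
  rw [← Fintype.card_piFinset]
  refine le_trans (Finset.card_le_card ?_) (Finset.card_union_le _ _)
  intro f hf
  rw [Fintype.mem_piFinset] at hf
  have hmono : StrictMono f := fun i i' hii => hord i i' hii _ (hf i) _ (hf i')
  have hU : UU A b f c := fun i => (hS i _ (hf i)).1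
  have hV : VV A b f d := fun i => (hS i _ (hf i)).2
  simp only [mem_union, aSet, bSet, mem_filter, mem_univ, true_and]
  by_cases hsmall : predC A b f c < h
  · exact Or.inl ⟨hmono, hU, hsmall⟩
  · refine Or.inr ⟨hmono, hV, ?_⟩
    refine le_trans (not_lt.mp hsmall) (Finset.card_le_card ?_)
    intro e he
    simp only [mem_filter, mem_univ, true_and] at he ⊢
    exact ⟨he.1.trans hcd, he.2⟩

/-- A product of sets of rows gives copies. -/
lemma prod_le_forC {c d : Fin n} (S : Fin m → Finset (Fin n))
    (hS : ∀ i, ∀ r ∈ S i, A r c = b i ∧ A r d = !b i)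
    (hord : ∀ i i', i < i' → ∀ r ∈ S i, ∀ r' ∈ S i', r < r') :
    ∏ i, (S i).card ≤ forC A b c d := by
  classical
  rw [← Fintype.card_piFinset]
  apply Finset.card_le_card
  intro f hf
  rw [Fintype.mem_piFinset] at hf
  simp only [mem_filter, mem_univ, true_and]
  exact ⟨fun i i' hii => hord i i' hii _ (hf i) _ (hf i'), fun i => (hS i _ (hf i)).1,
    fun i => (hS i _ (hf i)).2⟩

end Words

/-- Cutting a sequence into consecutive pieces of large sum. -/
lemma cuts (s : ℕ → ℕ) (a w : ℕ) (hs : ∀ t, s t ≤ w) : ∀ (M T0 L : ℕ), T0 ≤ L →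
    M * (a + w) ≤ ∑ t ∈ Finset.Ico T0 L, s t →
    ∃ T : ℕ → ℕ, T 0 = T0 ∧ (∀ i < M, T i ≤ T (i + 1)) ∧
      (∀ i < M, a ≤ ∑ t ∈ Finset.Ico (T i) (T (i + 1)), s t) := by
  intro M
  induction M with
  | zero =>
    intro T0 L _ _
    exact ⟨fun _ => T0, rfl, fun i hi => absurd hi (Nat.not_lt_zero _),
      fun i hi => absurd hi (Nat.not_lt_zero _)⟩
  | succ M ih =>
    intro T0 L hT0L hsum
    have htot : a ≤ ∑ t ∈ Finset.Ico T0 L, s t := by
      have : (M + 1) * (a + w) = M * (a + w) + (a + w) := by ring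
      omega
    -- the first prefix with sum at least a
    have hex : ∃ T1, T0 ≤ T1 ∧ T1 ≤ L ∧ a ≤ ∑ t ∈ Finset.Ico T0 T1, s t :=
      ⟨L, hT0L, le_rfl, htot⟩
    classical
    obtain ⟨T1, ⟨h1, h2, h3⟩, hmin⟩ : ∃ T1, (T0 ≤ T1 ∧ T1 ≤ L ∧ a ≤ ∑ t ∈ Finset.Ico T0 T1, s t) ∧
        ∀ T2 < T1, ¬ (T0 ≤ T2 ∧ T2 ≤ L ∧ a ≤ ∑ t ∈ Finset.Ico T0 T2, s t) :=
      ⟨Nat.find hex, Nat.find_spec hex, fun T2 h => Nat.find_min hex h⟩
    have hle : ∑ t ∈ Finset.Ico T0 T1, s t ≤ a + w := by
      by_cases hT : T1 = T0
      · rw [hT]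
        simp
      · obtain ⟨T2, hT2⟩ : ∃ T2, T1 = T2 + 1 := ⟨T1 - 1, by omega⟩
        have hT2ge : T0 ≤ T2 := by omega
        have hlt : ∑ t ∈ Finset.Ico T0 T2, s t < a := by
          by_contra hcon
          exact hmin T2 (by omega) ⟨hT2ge, by omega, not_lt.mp hcon⟩
        rw [hT2, Finset.sum_Ico_succ_top hT2ge]
        have := hs T2
        omega
    have hrest : M * (a + w) ≤ ∑ t ∈ Finset.Ico T1 L, s t := by
      have e := Finset.sum_Ico_consecutive s h1 h2
      have e2 : (M + 1) * (a + w) = M * (a + w) + (a + w) := by ring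
      omega
    obtain ⟨T, hT0, hmono, hsums⟩ := ih T1 L h2 hrest
    refine ⟨fun i => if i = 0 then T0 else T (i - 1), by simp, ?_, ?_⟩
    · intro i hi
      rcases i with _ | i
      · simp only [if_true, Nat.add_eq_zero_iff, one_ne_zero, and_false, if_false, zero_add,
          Nat.sub_self, hT0]
        exact h1
      · simp only [Nat.add_eq_zero_iff, one_ne_zero, and_false, if_false,
          Nat.add_sub_cancel]
        exact hmono i (by omega)
    · intro i hi
      rcases i with _ | i
      · simp only [if_true, Nat.add_eq_zero_iff, one_ne_zero, and_false, if_false, zero_add,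
          Nat.sub_self, hT0]
        exact h3
      · simp only [Nat.add_eq_zero_iff, one_ne_zero, and_false, if_false,
          Nat.add_sub_cancel]
        exact hsums i (by omega)

section Construction

variable {A : Fin n → Fin n → Bool} {win : Fin n → ℕ} {L w : ℕ}

lemma sum_window_le (T1 T2 : ℕ) (Q : Fin n → Prop) [DecidablePred Q] :
    ∑ t ∈ Finset.Ico T1 T2, (univ.filter fun r => win r = t ∧ Q r).card
      ≤ (univ.filter fun r => T1 ≤ win r ∧ win r < T2 ∧ Q r).card := by
  rw [Finset.card_eq_sum_card_fiberwise (f := win) (t := Finset.Ico T1 T2)]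
  · refine Finset.sum_le_sum fun t ht => ?_
    apply Finset.card_le_card
    intro r hr
    simp only [mem_filter, mem_univ, true_and, Finset.mem_Ico] at hr ht ⊢
    exact ⟨⟨by omega, by omega, hr.2⟩, hr.1⟩
  · intro r hr
    simp only [coe_filter, mem_univ, true_and, Set.mem_ofPred_eq] at hr
    simp only [Finset.coe_Ico, Set.mem_Ico]
    exact ⟨hr.1, hr.2.1⟩

/-- Many windows of both letters give many copies. -/
lemma pair_alt (hmono : ∀ r r', win r < win r' → r < r')
    (hsize : ∀ t, (univ.filter fun r => win r = t).card ≤ w)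
    (b : Fin m → Bool) (c d : Fin n) (a : ℕ)
    (hS : m * (a + w) ≤ ∑ t ∈ range L, min (X A win t c d) (X A win t d c)) :
    a ^ m ≤ forC A b c d := by
  classical
  have hs : ∀ t, min (X A win t c d) (X A win t d c) ≤ w := fun t =>
    (min_le_left _ _).trans (X_le_of_window A win t c d (hsize t))
  rw [Finset.range_eq_Ico] at hS
  obtain ⟨T, hT0, hTm, hTs⟩ := cuts _ a w hs m 0 L (Nat.zero_le _) hS
  have hTmono : ∀ j j', j ≤ j' → j' ≤ m → T j ≤ T j' := by
    intro j j' hj
    induction j', hj using Nat.le_induction with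
    | base => intro _; exact le_rfl
    | succ j' _ ih =>
      intro hle
      exact (ih (by omega)).trans (hTm j' (by omega))
  set S : Fin m → Finset (Fin n) := fun i =>
    univ.filter fun r => T i ≤ win r ∧ win r < T (i + 1) ∧ (A r c = b i ∧ A r d = !b i) with hSdef
  have hcard : ∀ i, a ≤ (S i).card := by
    intro i
    refine (hTs i i.isLt).trans ?_
    refine le_trans ?_ (sum_window_le (win := win) (T i) (T (i + 1))
      (fun r => A r c = b i ∧ A r d = !b i))
    refine Finset.sum_le_sum fun t _ => ?_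
    cases hb : b i
    · refine (min_le_right _ _).trans (le_of_eq ?_)
      unfold X
      congr 1
      ext r
      simp only [mem_filter, mem_univ, true_and, Bool.not_false]
      tauto
    · refine (min_le_left _ _).trans (le_of_eq ?_)
      unfold X
      congr 1
  have hprod := prod_le_forC A b S
    (fun i r hr => (mem_filter.mp hr).2.2.2)
    (fun i i' hii r hr r' hr' => by
      have h1 := (mem_filter.mp hr).2.2.1
      have h2 := (mem_filter.mp hr').2.1
      have h3 : T (i + 1) ≤ T i' := hTmono _ _ hii i'.isLt.le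
      exact hmono r r' (by omega))
  refine le_trans ?_ hprod
  calc a ^ m = ∏ _i : Fin m, a := by simp
    _ ≤ ∏ i, (S i).card := Finset.prod_le_prod' fun i _ => hcard i

lemma sum_min_le_n (c d : Fin n) :
    ∑ t ∈ range L, min (X A win t c d) (X A win t d c) ≤ n := by
  refine (Finset.sum_le_sum fun t _ => min_le_left _ _).trans ?_
  rw [sum_X_range]
  exact (Finset.card_le_univ _).trans (by simp)

lemma pair_sum (hmono : ∀ r r', win r < win r' → r < r')
    (hsize : ∀ t, (univ.filter fun r => win r = t).card ≤ w)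
    (b : Fin m → Bool) (c d : Fin n) (a : ℕ) :
    a ^ m * ∑ t ∈ range L, min (X A win t c d) (X A win t d c)
      ≤ a ^ m * (m * (a + w)) + n * forC A b c d := by
  by_cases hS : m * (a + w) ≤ ∑ t ∈ range L, min (X A win t c d) (X A win t d c)
  · have h1 := pair_alt (A := A) hmono hsize b c d a hS
    have h2 := sum_min_le_n (A := A) (win := win) (L := L) c d
    calc a ^ m * ∑ t ∈ range L, min (X A win t c d) (X A win t d c)
        ≤ forC A b c d * n := Nat.mul_le_mul h1 h2
      _ = n * forC A b c d := by ring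
      _ ≤ _ := Nat.le_add_left _ _
  · exact (Nat.mul_le_mul_left _ (not_le.mp hS).le).trans (Nat.le_add_right _ _)

lemma total_sum (hmono : ∀ r r', win r < win r' → r < r')
    (hsize : ∀ t, (univ.filter fun r => win r = t).card ≤ w)
    (b : Fin m → Bool) (a : ℕ) :
    a ^ m * ∑ p : Fin n × Fin n, ∑ t ∈ range L, min (X A win t p.1 p.2) (X A win t p.2 p.1)
      ≤ n ^ 2 * (a ^ m * (m * (a + w))) + 2 * n * numP A b := by
  classical
  have hper : ∀ p : Fin n × Fin n,
      a ^ m * ∑ t ∈ range L, min (X A win t p.1 p.2) (X A win t p.2 p.1)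
        ≤ a ^ m * (m * (a + w)) + (n * (if p.1 < p.2 then forC A b p.1 p.2 else 0)
          + n * (if p.2 < p.1 then forC A b p.2 p.1 else 0)) := by
    rintro ⟨c, d⟩
    simp only
    rcases lt_trichotomy c d with h | h | h
    · rw [if_pos h, if_neg (not_lt.mpr h.le), mul_zero, add_zero]
      exact pair_sum hmono hsize b c d a
    · subst h
      have : ∑ t ∈ range L, min (X A win t c c) (X A win t c c) = 0 := by
        refine Finset.sum_eq_zero fun t _ => ?_
        simp only [min_self]
        unfold X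
        rw [Finset.card_eq_zero, Finset.filter_eq_empty_iff]
        rintro r _ ⟨_, h1, h2⟩
        simp [h1] at h2
      rw [this, mul_zero]
      exact Nat.zero_le _
    · rw [if_neg (not_lt.mpr h.le), if_pos h, mul_zero, zero_add]
      have e : ∑ t ∈ range L, min (X A win t c d) (X A win t d c)
          = ∑ t ∈ range L, min (X A win t d c) (X A win t c d) :=
        Finset.sum_congr rfl fun t _ => min_comm _ _
      rw [e]
      exact pair_sum hmono hsize b d c a
  rw [Finset.mul_sum]
  refine (Finset.sum_le_sum fun p _ => hper p).trans ?_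
  have h1 : ∑ p : Fin n × Fin n, (if p.1 < p.2 then forC A b p.1 p.2 else 0) = numP A b := by
    rw [Fintype.sum_prod_type]
    rfl
  have h2 : ∑ p : Fin n × Fin n, (if p.2 < p.1 then forC A b p.2 p.1 else 0) = numP A b := by
    rw [Fintype.sum_prod_type, Finset.sum_comm]
    rfl
  have h3 : ∑ p : Fin n × Fin n, (a ^ m * (m * (a + w)) + (n * (if p.1 < p.2 then forC A b p.1 p.2 else 0)
      + n * (if p.2 < p.1 then forC A b p.2 p.1 else 0)))
      = n ^ 2 * (a ^ m * (m * (a + w))) + (n * numP A b + n * numP A b) := by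
    have gen : ∀ (C : ℕ) (f g : Fin n × Fin n → ℕ), ∑ p, (C + (n * f p + n * g p))
        = n ^ 2 * C + (n * ∑ p, f p + n * ∑ p, g p) := by
      intro C f g
      rw [Finset.mul_sum, Finset.mul_sum, Finset.sum_add_distrib, Finset.sum_add_distrib]
      simp [Finset.card_univ, pow_two]
    rw [gen, h1, h2]
  rw [h3]
  apply le_of_eq
  ring

/-- A matrix produced from level functions is free of the alternating pattern. -/
lemma free_alt (hmono : ∀ r r', win r < win r' → r < r') (hm : 0 < m)
    (b : Fin (m + 1) → Bool) (hb : ∀ i : Fin m, b i.castSucc ≠ b i.succ)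
    (lev : ℕ → Fin n → ℕ) (Z : Finset (Fin n)) (j : Fin n → ℕ) (g h : ℕ)
    (hgap : ∀ r c d, d ∉ Z → lev (win r) c < lev (win r) d →
      cnt A win (win r) c + 2 * g ≤ cnt A win (win r) d)
    (hα : ∀ c, c ∉ Z → 2 * (aSet A b h c).card < (2 * g) ^ (m + 1))
    (hβ : ∀ c, c ∉ Z → 2 * (bSet A b h c).card < (2 * g) ^ (m + 1))
    (B : Fin n → Fin n → Bool)
    (hB : ∀ r c, B r c = true ↔ (c ∉ Z ∧ j r ≤ lev (win r) c))
    (ρ : Fin (m + 1) → Fin n) (c d : Fin n) (hρ : StrictMono ρ) (hcd : c < d)
    (hcopy : ∀ i, B (ρ i) c = b i ∧ B (ρ i) d = !b i) : False := by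
  classical
  -- both letters occur
  have hcZ : c ∉ Z ∧ d ∉ Z := by
    have h01 := hb ⟨0, hm⟩
    have h0 := hcopy (Fin.castSucc ⟨0, hm⟩)
    have h1 := hcopy (Fin.succ ⟨0, hm⟩)
    cases hb0 : b (Fin.castSucc ⟨0, hm⟩)
    · have hb1 : b (Fin.succ ⟨0, hm⟩) = true := by
        cases hb1' : b (Fin.succ ⟨0, hm⟩)
        · exact absurd (hb0.trans hb1'.symm) h01
        · rfl
      rw [hb1] at h1
      rw [hb0] at h0
      exact ⟨((hB _ _).1 h1.1).1, ((hB _ _).1 (by simpa using h0.2)).1⟩
    · have hb1 : b (Fin.succ ⟨0, hm⟩) = false := by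
        cases hb1' : b (Fin.succ ⟨0, hm⟩)
        · rfl
        · exact absurd (hb0.trans hb1'.symm) h01
      rw [hb1] at h1
      rw [hb0] at h0
      exact ⟨((hB _ _).1 h0.1).1, ((hB _ _).1 (by simpa using h1.2)).1⟩
  obtain ⟨hc, hd⟩ := hcZ
  -- levels
  have hlev : ∀ i, (b i = true → lev (win (ρ i)) d < lev (win (ρ i)) c) ∧
      (b i = false → lev (win (ρ i)) c < lev (win (ρ i)) d) := by
    intro i
    obtain ⟨h1, h2⟩ := hcopy i
    constructor
    · intro hbi
      rw [hbi] at h1 h2
      have h3 := ((hB _ _).1 h1).2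
      have h4 : ¬ (d ∉ Z ∧ j (ρ i) ≤ lev (win (ρ i)) d) := fun hh => by
        have := (hB (ρ i) d).2 hh
        simp [h2] at this
      by_contra hcon
      exact h4 ⟨hd, h3.trans (not_lt.mp hcon)⟩
    · intro hbi
      rw [hbi] at h1 h2
      have h3 := ((hB _ _).1 (by simpa using h2)).2
      have h4 : ¬ (c ∉ Z ∧ j (ρ i) ≤ lev (win (ρ i)) c) := fun hh => by
        have := (hB (ρ i) c).2 hh
        simp [h1] at this
      by_contra hcon
      exact h4 ⟨hc, h3.trans (not_lt.mp hcon)⟩
  -- the windows increase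
  have hwin : StrictMono fun i => win (ρ i) := by
    rw [Fin.strictMono_iff_lt_succ]
    intro i
    have hlt : ρ i.castSucc < ρ i.succ := hρ (Fin.castSucc_lt_succ)
    have hle : win (ρ i.castSucc) ≤ win (ρ i.succ) := by
      by_contra hcon
      exact absurd (hmono _ _ (not_le.mp hcon)) (not_lt.mpr hlt.le)
    refine lt_of_le_of_ne hle fun heq => ?_
    have h1 := hlev i.castSucc
    have h2 := hlev i.succ
    have hne := hb i
    cases hb0 : b i.castSucc
    · have hb1 : b i.succ = true := by
        cases hb1' : b i.succ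
        · exact absurd (hb0.trans hb1'.symm) hne
        · rfl
      have h3 := h1.2 hb0
      have h4 := h2.1 hb1
      rw [heq] at h3
      omega
    · have hb1 : b i.succ = false := by
        cases hb1' : b i.succ
        · rfl
        · exact absurd (hb0.trans hb1'.symm) hne
      have h3 := h1.1 hb0
      have h4 := h2.2 hb1
      rw [heq] at h3
      omega
  -- the product
  set S : Fin (m + 1) → Finset (Fin n) := fun i =>
    univ.filter fun r => win r = win (ρ i) ∧ A r c = b i ∧ A r d = !b i with hSdef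
  have hcard : ∀ i, 2 * g ≤ (S i).card := by
    intro i
    cases hbi : b i
    · have h1 := (hlev i).2 hbi
      have h2 := hgap (ρ i) c d hd h1
      have h3 := cnt_add_X A win (win (ρ i)) c d
      have h4 : (S i).card = X A win (win (ρ i)) d c := by
        unfold X
        congr 1
        ext r
        simp only [hSdef, mem_filter, mem_univ, true_and, hbi, Bool.not_false]
        tauto
      omega
    · have h1 := (hlev i).1 hbi
      have h2 := hgap (ρ i) d c hc h1
      have h3 := cnt_add_X A win (win (ρ i)) c d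
      have h4 : (S i).card = X A win (win (ρ i)) c d := by
        unfold X
        congr 1
        ext r
        simp only [hSdef, mem_filter, mem_univ, true_and, hbi, Bool.not_true]
      omega
  have hheavy := heavy_prod A b h hcd S (fun i r hr => (mem_filter.mp hr).2.2)
    (fun i i' hii r hr r' hr' => by
      have h1 := (mem_filter.mp hr).2.1
      have h2 := (mem_filter.mp hr').2.1
      apply hmono
      rw [h1, h2]
      exact hwin hii)
  have hpow : (2 * g) ^ (m + 1) ≤ ∏ i, (S i).card := by
    calc (2 * g) ^ (m + 1) = ∏ _i : Fin (m + 1), (2 * g) := by simp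
      _ ≤ ∏ i, (S i).card := Finset.prod_le_prod' fun i _ => hcard i
  have h1 := hα c hc
  have h2 := hβ d hd
  omega

/-- Main construction for the alternating pattern. -/
theorem core_alt (hL : ∀ r, win r < L) (hmono : ∀ r r', win r < win r' → r < r')
    (hsize : ∀ t, (univ.filter fun r => win r = t).card ≤ w) (hm : 0 < m)
    (b : Fin (m + 1) → Bool) (hb : ∀ i : Fin m, b i.castSucc ≠ b i.succ)
    (g q τ h a : ℕ) (hg : 0 < g) (hq : 0 < q) :
    ∃ (B : Fin n → Fin n → Bool) (z₁ z₂ z₃ I : ℕ),
      (∀ (ρ : Fin (m + 1) → Fin n) (c d : Fin n), StrictMono ρ → c < d →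
        (∀ i, B (ρ i) c = b i ∧ B (ρ i) d = !b i) → False) ∧
      q * z₁ ≤ L * n ∧
      (2 * g) ^ (m + 1) * z₂ ≤ 2 * (n ^ (m + 1) * h) ∧
      h * ((2 * g) ^ (m + 1) * z₃) ≤ 2 * numP A b ∧
      a ^ (m + 1) * I ≤ n ^ 2 * (a ^ (m + 1) * ((m + 1) * (a + w))) + 2 * n * numP A b
        + a ^ (m + 1) * (n ^ 2 * (L * (2 * g * q))) ∧
      τ ^ 2 * hammingDist A B ≤ τ ^ 2 * (n * (z₁ + z₂ + z₃)) + n * (τ ^ 2 * (4 * τ)) + n * I := by
  classical
  have hlevels := fun t : ℕ => exists_levels (fun c : Fin n => cnt A win t c) g q hg hq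
  choose lev Zt hZt hlev hgap using hlevels
  set Z₁ : Finset (Fin n) := (range L).biUnion Zt with hZ₁
  set Z₂ : Finset (Fin n) := univ.filter fun c => (2 * g) ^ (m + 1) ≤ 2 * (aSet A b h c).card with hZ₂
  set Z₃ : Finset (Fin n) := univ.filter fun c => (2 * g) ^ (m + 1) ≤ 2 * (bSet A b h c).card with hZ₃
  set Z : Finset (Fin n) := Z₁ ∪ Z₂ ∪ Z₃ with hZ
  have hrow : ∀ r : Fin n, ∃ j : ℕ,
      (univ.filter fun c => A r c ≠ decide (j ≤ lev (win r) c)).card ≤ 4 * τ ∨
        τ ^ 2 ≤ inv A (lev (win r)) r := by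
    intro r
    rcases exists_threshold (lev (win r)) (A r) τ with ⟨j, hj⟩ | hinv
    · exact ⟨j, Or.inl hj⟩
    · exact ⟨0, Or.inr hinv⟩
  choose j hj using hrow
  set B : Fin n → Fin n → Bool := fun r c => decide (c ∉ Z ∧ j r ≤ lev (win r) c) with hBdef
  have hB : ∀ r c, B r c = true ↔ (c ∉ Z ∧ j r ≤ lev (win r) c) := by
    intro r c
    simp [hBdef]
  refine ⟨B, Z₁.card, Z₂.card, Z₃.card, ∑ r, inv A (lev (win r)) r, ?_, ?_, ?_, ?_, ?_, ?_⟩
  · intro ρ c d hρ hcd hcopy
    refine free_alt (A := A) hmono hm b hb lev Z j g h ?_ ?_ ?_ B hB ρ c d hρ hcd hcopy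
    · intro r c d hd hlt
      refine hgap (win r) c d ?_ hlt
      intro hmem
      apply hd
      simp only [hZ, hZ₁, mem_union, mem_biUnion, mem_range]
      exact Or.inl (Or.inl ⟨win r, hL r, hmem⟩)
    · intro c hc
      by_contra hcon
      apply hc
      simp only [hZ, hZ₂, mem_union, mem_filter, mem_univ, true_and]
      exact Or.inl (Or.inr (not_lt.mp hcon))
    · intro c hc
      by_contra hcon
      apply hc
      simp only [hZ, hZ₃, mem_union, mem_filter, mem_univ, true_and]
      exact Or.inr (not_lt.mp hcon)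
  · calc q * Z₁.card ≤ q * ∑ t ∈ range L, (Zt t).card :=
          Nat.mul_le_mul_left _ Finset.card_biUnion_le
      _ = ∑ t ∈ range L, q * (Zt t).card := Finset.mul_sum _ _ _
      _ ≤ ∑ _t ∈ range L, n := Finset.sum_le_sum fun t _ => by
          have := hZt t
          simpa using this
      _ = L * n := by simp
  · calc (2 * g) ^ (m + 1) * Z₂.card = Z₂.card • (2 * g) ^ (m + 1) := by rw [smul_eq_mul, mul_comm]
      _ ≤ ∑ c ∈ Z₂, 2 * (aSet A b h c).card :=
          Finset.card_nsmul_le_sum _ _ _ (fun c hc => by simpa [hZ₂] using hc)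
      _ = 2 * ∑ c ∈ Z₂, (aSet A b h c).card := by rw [Finset.mul_sum]
      _ ≤ 2 * ∑ c, (aSet A b h c).card :=
          Nat.mul_le_mul_left _ (Finset.sum_le_sum_of_subset (subset_univ _))
      _ ≤ 2 * (n ^ (m + 1) * h) := Nat.mul_le_mul_left _ (sum_a A b h)
  · have h1 : (2 * g) ^ (m + 1) * Z₃.card ≤ 2 * ∑ c, (bSet A b h c).card := by
      calc (2 * g) ^ (m + 1) * Z₃.card = Z₃.card • (2 * g) ^ (m + 1) := by rw [smul_eq_mul, mul_comm]
        _ ≤ ∑ c ∈ Z₃, 2 * (bSet A b h c).card :=
            Finset.card_nsmul_le_sum _ _ _ (fun c hc => by simpa [hZ₃] using hc)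
        _ = 2 * ∑ c ∈ Z₃, (bSet A b h c).card := by rw [Finset.mul_sum]
        _ ≤ 2 * ∑ c, (bSet A b h c).card :=
            Nat.mul_le_mul_left _ (Finset.sum_le_sum_of_subset (subset_univ _))
    calc h * ((2 * g) ^ (m + 1) * Z₃.card) ≤ h * (2 * ∑ c, (bSet A b h c).card) :=
          Nat.mul_le_mul_left _ h1
      _ = 2 * (h * ∑ c, (bSet A b h c).card) := by ring
      _ ≤ 2 * numP A b := Nat.mul_le_mul_left _ (sum_b A b h)
  · have h1 := sum_inv_le (A := A) hL lev (2 * g * q) hlev
    have h2 := total_sum (A := A) (L := L) hmono hsize b a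
    have h3 : ∑ p : Fin n × Fin n, ∑ t ∈ range L,
          (min (X A win t p.1 p.2) (X A win t p.2 p.1) + 2 * g * q)
        = ∑ p : Fin n × Fin n, ∑ t ∈ range L, min (X A win t p.1 p.2) (X A win t p.2 p.1)
          + n ^ 2 * (L * (2 * g * q)) := by
      simp only [Finset.sum_add_distrib]
      simp [Finset.card_univ, pow_two]
    rw [h3] at h1
    have h4 : ((m + 1 : ℕ) : ℕ) = m + 1 := rfl
    calc a ^ (m + 1) * ∑ r, inv A (lev (win r)) r
        ≤ a ^ (m + 1) * (∑ p : Fin n × Fin n, ∑ t ∈ range L, min (X A win t p.1 p.2) (X A win t p.2 p.1)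
          + n ^ 2 * (L * (2 * g * q))) := Nat.mul_le_mul_left _ h1
      _ = a ^ (m + 1) * (∑ p : Fin n × Fin n, ∑ t ∈ range L, min (X A win t p.1 p.2) (X A win t p.2 p.1))
          + a ^ (m + 1) * (n ^ 2 * (L * (2 * g * q))) := by ring
      _ ≤ _ := Nat.add_le_add_right h2 _
  · have hHam : hammingDist A B
        ≤ ∑ r, (Z.card + (univ.filter fun c => A r c ≠ decide (j r ≤ lev (win r) c)).card) := by
      unfold hammingDist
      rw [Finset.card_filter, Fintype.sum_prod_type]
      refine Finset.sum_le_sum fun r _ => ?_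
      simp only
      rw [← Finset.card_filter]
      refine le_trans (Finset.card_le_card ?_) (Finset.card_union_le _ _)
      intro c hc
      simp only [mem_filter, mem_univ, true_and, mem_union] at hc ⊢
      by_cases hcZ : c ∈ Z
      · exact Or.inl hcZ
      · refine Or.inr ?_
        have : B r c = decide (j r ≤ lev (win r) c) := by
          simp [hBdef, hcZ]
        rw [← this]
        exact hc
    have hrowcost : ∀ r : Fin n,
        τ ^ 2 * (univ.filter fun c => A r c ≠ decide (j r ≤ lev (win r) c)).card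
          ≤ τ ^ 2 * (4 * τ) + n * inv A (lev (win r)) r := by
      intro r
      rcases hj r with h1 | h1
      · have := Nat.mul_le_mul_left (τ ^ 2) h1
        omega
      · have h2 : (univ.filter fun c => A r c ≠ decide (j r ≤ lev (win r) c)).card ≤ n := by
          simpa using Finset.card_le_univ (univ.filter fun c => A r c ≠ decide (j r ≤ lev (win r) c))
        have h3 : τ ^ 2 * (univ.filter fun c => A r c ≠ decide (j r ≤ lev (win r) c)).card
            ≤ inv A (lev (win r)) r * n := Nat.mul_le_mul h1 h2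
        rw [mul_comm n]
        omega
    have hZcard : Z.card ≤ Z₁.card + Z₂.card + Z₃.card := by
      refine (Finset.card_union_le _ _).trans ?_
      exact Nat.add_le_add_right (Finset.card_union_le _ _) _
    calc τ ^ 2 * hammingDist A B
        ≤ τ ^ 2 * ∑ r, (Z.card + (univ.filter fun c => A r c ≠ decide (j r ≤ lev (win r) c)).card) :=
          Nat.mul_le_mul_left _ hHam
      _ = ∑ r, (τ ^ 2 * Z.card
            + τ ^ 2 * (univ.filter fun c => A r c ≠ decide (j r ≤ lev (win r) c)).card) := by
          rw [Finset.mul_sum]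
          exact Finset.sum_congr rfl fun r _ => by ring
      _ ≤ ∑ r : Fin n, (τ ^ 2 * (Z₁.card + Z₂.card + Z₃.card)
            + (τ ^ 2 * (4 * τ) + n * inv A (lev (win r)) r)) :=
          Finset.sum_le_sum fun r _ =>
            Nat.add_le_add (Nat.mul_le_mul_left _ hZcard) (hrowcost r)
      _ = τ ^ 2 * (n * (Z₁.card + Z₂.card + Z₃.card)) + n * (τ ^ 2 * (4 * τ))
            + n * ∑ r, inv A (lev (win r)) r := by
          simp only [Finset.sum_add_distrib, Finset.mul_sum]
          simp [Finset.card_univ]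
          ring

end Construction

end Vale.Agent.P037.Block
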