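import Vale.Agent.P037.Alt

/-! Parameters for the alternating patterns. -/

namespace Vale.Agent.P037.Block

open Finset

variable {n m : ℕ}

/-- Windows of roughly equal size. -/
lemma exists_windows (L : ℕ) (hLpos : 0 < L) (hLn : L ≤ n) :
    ∃ (w : ℕ) (win : Fin n → ℕ), 0 < w ∧ L * w ≤ 2 * n ∧ (∀ r, win r < L) ∧
      (∀ r r', win r < win r' → r < r') ∧ (∀ t, (univ.filter fun r => win r = t).card ≤ w) := by
  set w : ℕ := n / L + 1 with hw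
  have hwpos : 0 < w := Nat.succ_pos _
  have hLw : n < L * w := Nat.lt_mul_div_succ _ hLpos
  have hLw2 : L * w ≤ 2 * n := by
    have h1 : L * (n / L) ≤ n := Nat.mul_div_le _ _
    have h2 : L * w = L * (n / L) + L := by rw [hw]; ring
    omega
  set win : Fin n → ℕ := fun r => r.val / w with hwin
  refine ⟨w, win, hwpos, hLw2, ?_, ?_, ?_⟩
  · intro r
    apply Nat.div_lt_of_lt_mul
    have := r.isLt
    rw [mul_comm]
    omega
  · intro r r' hlt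
    by_contra hcon
    have h1 : r'.val ≤ r.val := by
      simpa using not_lt.mp hcon
    have h2 : win r' ≤ win r := Nat.div_le_div_right h1
    omega
  · intro t
    have := Finset.card_le_card_of_injOn (s := univ.filter fun r => win r = t)
      (t := range w) (fun r : Fin n => r.val % w) ?_ ?_
    · simpa using this
    · intro r _
      simpa using Nat.mod_lt _ hwpos
    · intro r hr r' hr' heq
      simp only [coe_filter, mem_univ, true_and, Set.mem_ofPred_eq] at hr hr'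
      apply Fin.ext
      have h1 := Nat.div_add_mod r.val w
      have h2 := Nat.div_add_mod r'.val w
      simp only at heq
      have h3 : r.val / w = r'.val / w := by
        have e1 : win r = r.val / w := rfl
        have e2 : win r' = r'.val / w := rfl
        omega
      rw [h3, heq] at h1
      omega

section Arith

variable {K P u M z I N w : ℕ}

lemma arith_z1 (hK : 128 ≤ K) (hKpos : 0 < K) (h1 : K ^ 9 * z ≤ K ^ 7 * n) : 16 * K * z ≤ n := by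
  have e : K ^ 9 * z = K ^ 7 * (K ^ 2 * z) := by ring
  rw [e] at h1
  have h1' := Nat.le_of_mul_le_mul_left h1 (by positivity)
  have : 16 * K * z ≤ K ^ 2 * z := by
    apply Nat.mul_le_mul_right
    calc 16 * K ≤ K * K := Nat.mul_le_mul_right _ (by omega)
      _ = K ^ 2 := by ring
  omega

lemma pow_M_le (hnX2 : n ≤ 2 * (K ^ 23 * P * u)) (M : ℕ) :
    n ^ M ≤ 2 ^ M * (K ^ 23) ^ M * P ^ M * u ^ M := by
  calc n ^ M ≤ (2 * (K ^ 23 * P * u)) ^ M := Nat.pow_le_pow_left hnX2 M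
    _ = _ := by ring

lemma arith_z2 (hK : 128 ≤ K) (hPpos : 0 < P) (hupos : 0 < u)
    (hnX : K ^ 23 * P * u ≤ n) (hnM : n ^ M ≤ 2 ^ M * (K ^ 23) ^ M * P ^ M * u ^ M)
    (hKM : (K ^ 23) ^ M * K ^ 3 = K ^ 23 * P)
    (h2 : (2 * (P * u)) ^ M * z ≤ 2 * (n ^ M * (K * u))) : 16 * K * z ≤ n := by
  have e1 : (2 * (P * u)) ^ M * z = (2 ^ M * P ^ M * u ^ M) * z := by ring
  have e2 : 2 * (n ^ M * (K * u)) ≤ (2 ^ M * P ^ M * u ^ M) * (2 * ((K ^ 23) ^ M * (K * u))) := by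
    calc 2 * (n ^ M * (K * u)) ≤ 2 * ((2 ^ M * (K ^ 23) ^ M * P ^ M * u ^ M) * (K * u)) :=
          Nat.mul_le_mul_left _ (Nat.mul_le_mul_right _ hnM)
      _ = _ := by ring
  have hpos : 0 < 2 ^ M * P ^ M * u ^ M := by positivity
  have h2' : z ≤ 2 * ((K ^ 23) ^ M * (K * u)) := by
    apply Nat.le_of_mul_le_mul_left _ hpos
    rw [← e1]
    exact h2.trans e2
  calc 16 * K * z ≤ 16 * K * (2 * ((K ^ 23) ^ M * (K * u))) := Nat.mul_le_mul_left _ h2'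
    _ = 32 * (K ^ 2 * (K ^ 23) ^ M * u) := by ring
    _ ≤ K * (K ^ 2 * (K ^ 23) ^ M * u) := Nat.mul_le_mul_right _ (by omega)
    _ = ((K ^ 23) ^ M * K ^ 3) * u := by ring
    _ = K ^ 23 * P * u := by rw [hKM]
    _ ≤ n := hnX

lemma arith_z3 (hK : 128 ≤ K) (hPpos : 0 < P) (hupos : 0 < u)
    (hnX2 : n ≤ 2 * (K ^ 23 * P * u))
    (hN' : N * (K ^ 23 * P * (K ^ 23) ^ M * K ^ 2) ≤ n ^ (M + 2))
    (h3 : K * u * ((2 * (P * u)) ^ M * z) ≤ 2 * N) : 16 * K * z ≤ n := by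
  have hKpos : 0 < K := by omega
  have hn1 := pow_M_le hnX2 (M + 1)
  have hpos : 0 < 2 ^ M * P ^ (M + 1) * u ^ (M + 1) * (K ^ 23) ^ (M + 1) := by positivity
  have key : K ^ 3 * z ≤ 4 * n := by
    apply Nat.le_of_mul_le_mul_left _ hpos
    calc 2 ^ M * P ^ (M + 1) * u ^ (M + 1) * (K ^ 23) ^ (M + 1) * (K ^ 3 * z)
        = (K * u * ((2 * (P * u)) ^ M * z)) * (K ^ 23 * P * (K ^ 23) ^ M * K ^ 2) := by
          ring
      _ ≤ (2 * N) * (K ^ 23 * P * (K ^ 23) ^ M * K ^ 2) := Nat.mul_le_mul_right _ h3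
      _ = 2 * (N * (K ^ 23 * P * (K ^ 23) ^ M * K ^ 2)) := by ring
      _ ≤ 2 * n ^ (M + 2) := Nat.mul_le_mul_left _ hN'
      _ = 2 * (n * n ^ (M + 1)) := by ring
      _ ≤ 2 * (n * (2 ^ (M + 1) * (K ^ 23) ^ (M + 1) * P ^ (M + 1) * u ^ (M + 1))) :=
          Nat.mul_le_mul_left _ (Nat.mul_le_mul_left _ hn1)
      _ = 2 ^ M * P ^ (M + 1) * u ^ (M + 1) * (K ^ 23) ^ (M + 1) * (4 * n) := by ring
  have hK3 : 64 * K ≤ K ^ 3 := by
    calc 64 * K ≤ (K * K) * K := Nat.mul_le_mul_right _ (by nlinarith)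
      _ = K ^ 3 := by ring
  have e : 4 * (16 * K * z) ≤ 4 * n := by
    calc 4 * (16 * K * z) = (64 * K) * z := by ring
      _ ≤ K ^ 3 * z := Nat.mul_le_mul_right _ hK3
      _ ≤ 4 * n := key
  exact Nat.le_of_mul_le_mul_left e (by norm_num)

lemma arith_pow (hK : 128 ≤ K) (hPpos : 0 < P) (hMpos : 0 < M) :
    2 ^ (M + 1) * K ^ 6 ≤ K ^ 23 * P * K ^ 2 * (K ^ 16) ^ M := by
  have hKpos : 0 < K := by omega
  have e3 : 2 ^ (M + 1) ≤ K ^ (M + 1) := Nat.pow_le_pow_left (by omega) _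
  have e4 : (K ^ 16) ^ M = K ^ (M + 1) * K ^ (15 * M - 1) := by
    rw [← pow_mul, ← pow_add]
    congr 1
    omega
  calc 2 ^ (M + 1) * K ^ 6 ≤ K ^ (M + 1) * K ^ 6 := Nat.mul_le_mul_right _ e3
    _ ≤ K ^ (M + 1) * (K ^ 23 * K ^ 2) := by
        apply Nat.mul_le_mul_left
        rw [← pow_add]
        exact Nat.pow_le_pow_right hKpos (by norm_num)
    _ = (K ^ 23 * K ^ 2 * 1) * K ^ (M + 1) * 1 := by ring
    _ ≤ (K ^ 23 * K ^ 2 * (P * K ^ (15 * M - 1))) * K ^ (M + 1) * 1 := by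
        apply Nat.mul_le_mul_right
        apply Nat.mul_le_mul_right
        apply Nat.mul_le_mul_left
        exact Nat.mul_pos hPpos (by positivity)
    _ = K ^ 23 * P * K ^ 2 * (K ^ (M + 1) * K ^ (15 * M - 1)) := by ring
    _ = _ := by rw [e4]

lemma arith_C (hK : 128 ≤ K) (hPpos : 0 < P) (hMpos : 0 < M)
    (hnM : n ^ M ≤ 2 ^ M * (K ^ 23) ^ M * P ^ M * u ^ M)
    (hN' : N * (K ^ 23 * P * (K ^ 23) ^ M * K ^ 2) ≤ n ^ (M + 2)) :
    K ^ 6 * (2 * n * N) ≤ (K ^ 16 * P * u) ^ M * n ^ 3 := by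
  have hKpos : 0 < K := by omega
  have e0 : n ^ (M + 2) ≤ n ^ 2 * (2 ^ M * (K ^ 23) ^ M * P ^ M * u ^ M) := by
    calc n ^ (M + 2) = n ^ 2 * n ^ M := by ring
      _ ≤ _ := Nat.mul_le_mul_left _ hnM
  have e1 : N * (K ^ 23 * P * (K ^ 23) ^ M * K ^ 2)
      ≤ n ^ 2 * (2 ^ M * (K ^ 23) ^ M * P ^ M * u ^ M) := hN'.trans e0
  have hpos : 0 < K ^ 23 * P * (K ^ 23) ^ M * K ^ 2 := by positivity
  have e2 := arith_pow hK hPpos hMpos
  have hgoal : (K ^ 23 * P * (K ^ 23) ^ M * K ^ 2) * (K ^ 6 * (2 * N))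
      ≤ (K ^ 23 * P * (K ^ 23) ^ M * K ^ 2) * ((K ^ 16 * P * u) ^ M * n ^ 2) := by
    calc (K ^ 23 * P * (K ^ 23) ^ M * K ^ 2) * (K ^ 6 * (2 * N))
        = (2 * K ^ 6) * (N * (K ^ 23 * P * (K ^ 23) ^ M * K ^ 2)) := by ring
      _ ≤ (2 * K ^ 6) * (n ^ 2 * (2 ^ M * (K ^ 23) ^ M * P ^ M * u ^ M)) :=
          Nat.mul_le_mul_left _ e1
      _ = (2 ^ (M + 1) * K ^ 6) * (n ^ 2 * (K ^ 23) ^ M * P ^ M * u ^ M) := by ring
      _ ≤ (K ^ 23 * P * K ^ 2 * (K ^ 16) ^ M) * (n ^ 2 * (K ^ 23) ^ M * P ^ M * u ^ M) :=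
          Nat.mul_le_mul_right _ e2
      _ = (K ^ 23 * P * (K ^ 23) ^ M * K ^ 2) * ((K ^ 16 * P * u) ^ M * n ^ 2) := by ring
  have hgoal' := Nat.le_of_mul_le_mul_left hgoal hpos
  calc K ^ 6 * (2 * n * N) = n * (K ^ 6 * (2 * N)) := by ring
    _ ≤ n * ((K ^ 16 * P * u) ^ M * n ^ 2) := Nat.mul_le_mul_left _ hgoal'
    _ = (K ^ 16 * P * u) ^ M * n ^ 3 := by ring

lemma arith_I (hK : 128 ≤ K) (hKm : 4 * M ≤ K) (hPpos : 0 < P) (hupos : 0 < u) (hMpos : 0 < M)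
    (hnX : K ^ 23 * P * u ≤ n) (hnM : n ^ M ≤ 2 ^ M * (K ^ 23) ^ M * P ^ M * u ^ M)
    (hN' : N * (K ^ 23 * P * (K ^ 23) ^ M * K ^ 2) ≤ n ^ (M + 2))
    (hLw : K ^ 7 * w ≤ 2 * n)
    (h4 : (K ^ 16 * P * u) ^ M * I ≤ n ^ 2 * ((K ^ 16 * P * u) ^ M * (M * (K ^ 16 * P * u + w)))
        + 2 * n * N + (K ^ 16 * P * u) ^ M * (n ^ 2 * (K ^ 7 * (2 * (P * u) * K ^ 9)))) :
    K ^ 6 * I ≤ 4 * n ^ 3 := by
  have hKpos : 0 < K := by omega
  generalize ha : K ^ 16 * P * u = a at h4 ⊢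
  have hapos : 0 < a := by rw [← ha]; positivity
  have hA : K ^ 6 * (n ^ 2 * (a ^ M * (M * a))) ≤ a ^ M * n ^ 3 := by
    have e1 : K ^ 6 * M * a ≤ n := by
      have : K ^ 6 * M * a * 4 ≤ K ^ 23 * P * u := by
        calc K ^ 6 * M * a * 4 = (4 * M) * (K ^ 22 * P * u) := by rw [← ha]; ring
          _ ≤ K * (K ^ 22 * P * u) := Nat.mul_le_mul_right _ hKm
          _ = K ^ 23 * P * u := by ring
      omega
    calc K ^ 6 * (n ^ 2 * (a ^ M * (M * a))) = (n ^ 2 * a ^ M) * (K ^ 6 * M * a) := by ring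
      _ ≤ (n ^ 2 * a ^ M) * n := Nat.mul_le_mul_left _ e1
      _ = a ^ M * n ^ 3 := by ring
  have hB : K ^ 6 * (n ^ 2 * (a ^ M * (M * w))) ≤ a ^ M * n ^ 3 := by
    have e1 : K ^ 6 * M * w ≤ n := by
      have : K ^ 6 * M * w * 4 ≤ 2 * n := by
        calc K ^ 6 * M * w * 4 = (4 * M) * (K ^ 6 * w) := by ring
          _ ≤ K * (K ^ 6 * w) := Nat.mul_le_mul_right _ hKm
          _ = K ^ 7 * w := by ring
          _ ≤ 2 * n := hLw
      omega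
    calc K ^ 6 * (n ^ 2 * (a ^ M * (M * w))) = (n ^ 2 * a ^ M) * (K ^ 6 * M * w) := by ring
      _ ≤ (n ^ 2 * a ^ M) * n := Nat.mul_le_mul_left _ e1
      _ = a ^ M * n ^ 3 := by ring
  have hC : K ^ 6 * (2 * n * N) ≤ a ^ M * n ^ 3 := by
    rw [← ha]
    exact arith_C hK hPpos hMpos hnM hN'
  have hD : K ^ 6 * (a ^ M * (n ^ 2 * (K ^ 7 * (2 * (P * u) * K ^ 9)))) ≤ a ^ M * n ^ 3 := by
    have e1 : K ^ 6 * (K ^ 7 * (2 * (P * u) * K ^ 9)) ≤ n := by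
      calc K ^ 6 * (K ^ 7 * (2 * (P * u) * K ^ 9)) = 2 * (K ^ 22 * P * u) := by ring
        _ ≤ K * (K ^ 22 * P * u) := Nat.mul_le_mul_right _ (by omega)
        _ = K ^ 23 * P * u := by ring
        _ ≤ n := hnX
    calc K ^ 6 * (a ^ M * (n ^ 2 * (K ^ 7 * (2 * (P * u) * K ^ 9))))
        = (a ^ M * n ^ 2) * (K ^ 6 * (K ^ 7 * (2 * (P * u) * K ^ 9))) := by ring
      _ ≤ (a ^ M * n ^ 2) * n := Nat.mul_le_mul_left _ e1
      _ = a ^ M * n ^ 3 := by ring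
  have hapow : 0 < a ^ M := by positivity
  apply Nat.le_of_mul_le_mul_left _ hapow
  calc a ^ M * (K ^ 6 * I) = K ^ 6 * (a ^ M * I) := by ring
    _ ≤ K ^ 6 * (n ^ 2 * (a ^ M * (M * (a + w))) + 2 * n * N
          + a ^ M * (n ^ 2 * (K ^ 7 * (2 * (P * u) * K ^ 9)))) := Nat.mul_le_mul_left _ h4
    _ = K ^ 6 * (n ^ 2 * (a ^ M * (M * a))) + K ^ 6 * (n ^ 2 * (a ^ M * (M * w)))
          + K ^ 6 * (2 * n * N) + K ^ 6 * (a ^ M * (n ^ 2 * (K ^ 7 * (2 * (P * u) * K ^ 9)))) := by ring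
    _ ≤ a ^ M * n ^ 3 + a ^ M * n ^ 3 + a ^ M * n ^ 3 + a ^ M * n ^ 3 :=
        Nat.add_le_add (Nat.add_le_add (Nat.add_le_add hA hB) hC) hD
    _ = a ^ M * (4 * n ^ 3) := by ring

lemma arith_final {τ H z₁ z₂ z₃ : ℕ} (hK : 128 ≤ K) (hτpos : 0 < τ)
    (hnτ : n ≤ 2 * K ^ 2 * τ) (hnτ2 : K ^ 2 * τ ≤ n) (hI : K ^ 6 * I ≤ 4 * n ^ 3)
    (hz1 : 16 * K * z₁ ≤ n) (hz2 : 16 * K * z₂ ≤ n) (hz3 : 16 * K * z₃ ≤ n)
    (h5 : τ ^ 2 * H ≤ τ ^ 2 * (n * (z₁ + z₂ + z₃)) + n * (τ ^ 2 * (4 * τ)) + n * I) :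
    K * H ≤ n ^ 2 := by
  have hKpos : 0 < K := by omega
  have hI2 : 8 * K * I ≤ τ ^ 2 * n := by
    have hK4 : 0 < K ^ 4 := by positivity
    have e1 : K ^ 2 * I ≤ 16 * (τ ^ 2 * n) := by
      apply Nat.le_of_mul_le_mul_left _ hK4
      calc K ^ 4 * (K ^ 2 * I) = K ^ 6 * I := by ring
        _ ≤ 4 * n ^ 3 := hI
        _ = 4 * n * n ^ 2 := by ring
        _ ≤ 4 * n * (2 * K ^ 2 * τ) ^ 2 :=
            Nat.mul_le_mul_left _ (Nat.pow_le_pow_left hnτ 2)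
        _ = K ^ 4 * (16 * (τ ^ 2 * n)) := by ring
    have e2 : 128 * (K * I) ≤ K ^ 2 * I := by
      calc 128 * (K * I) = (128 * K) * I := by ring
        _ ≤ (K * K) * I := Nat.mul_le_mul_right _ (Nat.mul_le_mul_right _ hK)
        _ = K ^ 2 * I := by ring
    have e3 : 16 * (8 * K * I) ≤ 16 * (τ ^ 2 * n) := by
      calc 16 * (8 * K * I) = 128 * (K * I) := by ring
        _ ≤ K ^ 2 * I := e2
        _ ≤ _ := e1
    exact Nat.le_of_mul_le_mul_left e3 (by norm_num)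
  have h4K : 16 * (4 * K * τ) ≤ n := by
    calc 16 * (4 * K * τ) = (64 * K) * τ := by ring
      _ ≤ (K * K) * τ := Nat.mul_le_mul_right _ (Nat.mul_le_mul_right _ (by omega))
      _ = K ^ 2 * τ := by ring
      _ ≤ n := hnτ2
  have hpos : 0 < 16 * τ ^ 2 := by positivity
  apply Nat.le_of_mul_le_mul_left _ hpos
  calc 16 * τ ^ 2 * (K * H) = 16 * K * (τ ^ 2 * H) := by ring
    _ ≤ 16 * K * (τ ^ 2 * (n * (z₁ + z₂ + z₃)) + n * (τ ^ 2 * (4 * τ)) + n * I) :=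
        Nat.mul_le_mul_left _ h5
    _ = (τ ^ 2 * n) * (16 * K * z₁) + (τ ^ 2 * n) * (16 * K * z₂) + (τ ^ 2 * n) * (16 * K * z₃)
        + (τ ^ 2 * n) * (16 * (4 * K * τ)) + 2 * (n * (8 * K * I)) := by ring
    _ ≤ (τ ^ 2 * n) * n + (τ ^ 2 * n) * n + (τ ^ 2 * n) * n + (τ ^ 2 * n) * n
        + 2 * (n * (τ ^ 2 * n)) :=
        Nat.add_le_add (Nat.add_le_add (Nat.add_le_add (Nat.add_le_add
          (Nat.mul_le_mul_left _ hz1) (Nat.mul_le_mul_left _ hz2))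
          (Nat.mul_le_mul_left _ hz3)) (Nat.mul_le_mul_left _ h4K))
          (Nat.mul_le_mul_left _ (Nat.mul_le_mul_left _ hI2))
    _ = 6 * τ ^ 2 * n ^ 2 := by ring
    _ ≤ 16 * τ ^ 2 * n ^ 2 := Nat.mul_le_mul_right _ (Nat.mul_le_mul_right _ (by norm_num))

end Arith

/-- Few copies imply closeness to a pattern-free matrix. -/
theorem close_alt (K : ℕ) (hK : 128 ≤ K) (hKm : 4 * (m + 1) ≤ K) (hm : 0 < m)
    (b : Fin (m + 1) → Bool) (hb : ∀ i : Fin m, b i.castSucc ≠ b i.succ)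
    (hn : K ^ 23 * K ^ (23 * m + 3) ≤ n) (A : Fin n → Fin n → Bool)
    (hN : numP A b * K ^ (46 * (m + 1) + 5) ≤ n ^ (m + 1 + 2)) :
    ∃ B : Fin n → Fin n → Bool,
      (∀ (ρ : Fin (m + 1) → Fin n) (c d : Fin n), StrictMono ρ → c < d →
        (∀ i, B (ρ i) c = b i ∧ B (ρ i) d = !b i) → False) ∧
      K * hammingDist A B ≤ n ^ 2 := by
  have hKpos : 0 < K := by omega
  obtain ⟨P, hP⟩ : ∃ P, P = K ^ (23 * m + 3) := ⟨_, rfl⟩
  rw [← hP] at hn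
  have hPpos : 0 < P := by rw [hP]; positivity
  have hXpos : 0 < K ^ 23 * P := by positivity
  obtain ⟨u, hu⟩ : ∃ u, u = n / (K ^ 23 * P) := ⟨_, rfl⟩
  have hupos : 0 < u := by rw [hu]; exact Nat.div_pos hn hXpos
  have huX : K ^ 23 * P * u ≤ n := by rw [hu]; exact Nat.mul_div_le _ _
  have huX2 : n < K ^ 23 * P * (u + 1) := by rw [hu]; exact Nat.lt_mul_div_succ _ hXpos
  have hnX2 : n ≤ 2 * (K ^ 23 * P * u) := by
    have : K ^ 23 * P * (u + 1) ≤ 2 * (K ^ 23 * P * u) := by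
      have h1 : K ^ 23 * P * (u + 1) = K ^ 23 * P * u + K ^ 23 * P := by ring
      have h2 : K ^ 23 * P ≤ K ^ 23 * P * u := Nat.le_mul_of_pos_right _ hupos
      omega
    omega
  have hLn : K ^ 7 ≤ n := by
    refine le_trans ?_ hn
    have h1 : 1 ≤ K ^ 16 := Nat.one_le_pow _ _ hKpos
    calc K ^ 7 = K ^ 7 * 1 := by rw [mul_one]
      _ ≤ K ^ 7 * (K ^ 16 * P) := Nat.mul_le_mul_left _ (Nat.mul_le_mul h1 hPpos)
      _ = K ^ 23 * P := by ring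
  obtain ⟨w, win, hwpos, hLw, hL, hmono, hsize⟩ := exists_windows (K ^ 7) (by positivity) hLn
  obtain ⟨B, z₁, z₂, z₃, I, hfree, h1, h2, h3, h4, h5⟩ :=
    core_alt (A := A) hL hmono hsize hm b hb (P * u) (K ^ 9) (K ^ 21 * P * u) (K * u) (K ^ 16 * P * u)
      (by positivity) (by positivity)
  refine ⟨B, hfree, ?_⟩
  have hnM := pow_M_le hnX2 (m + 1)
  have hKM : (K ^ 23) ^ (m + 1) * K ^ 3 = K ^ 23 * P := by
    rw [hP, ← pow_mul, ← pow_add, ← pow_add]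
    congr 1
    ring
  have hKD : K ^ (46 * (m + 1) + 5) = K ^ 23 * P * (K ^ 23) ^ (m + 1) * K ^ 2 := by
    rw [← hKM]
    rw [← pow_mul, ← pow_add, ← pow_add, ← pow_add]
    congr 1
    ring
  have hN' : numP A b * (K ^ 23 * P * (K ^ 23) ^ (m + 1) * K ^ 2) ≤ n ^ (m + 1 + 2) := by
    rw [← hKD]
    exact hN
  have hz1 := arith_z1 hK hKpos h1
  have hz2 := arith_z2 hK hPpos hupos huX hnM hKM h2
  have hz3 := arith_z3 hK hPpos hupos hnX2 hN' h3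
  have hI := arith_I hK hKm hPpos hupos (by omega) huX hnM hN' hLw h4
  have hnτ : n ≤ 2 * K ^ 2 * (K ^ 21 * P * u) := by
    calc n ≤ 2 * (K ^ 23 * P * u) := hnX2
      _ = 2 * K ^ 2 * (K ^ 21 * P * u) := by ring
  have hnτ2 : K ^ 2 * (K ^ 21 * P * u) ≤ n := by
    calc K ^ 2 * (K ^ 21 * P * u) = K ^ 23 * P * u := by ring
      _ ≤ n := huX
  exact arith_final hK (by positivity) hnτ hnτ2 hI hz1 hz2 hz3 h5

end Vale.Agent.P037.Block
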