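import Vale.Agent.P037.AltParams

/-! Polynomial removal for blow-ups of `2 × 2` patterns and of alternating `m × 2` patterns. -/

namespace Vale.Agent.P037.Block

open Finset

variable {n m k : ℕ}

/-- The alternating `m × 2` pattern attached to a word `b`: row `i` is `(b i, not (b i))`. -/
def altP {M : ℕ} (b : Fin M → Bool) : Fin M → Fin 2 → Bool :=
  fun i j => if j = 0 then b i else !b i

lemma numP_le (A : Fin n → Fin n → Bool) (b : Fin (m + 1) → Bool) :
    numP A b ≤ rCount (altP b) A := by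
  classical
  rw [rCount_eq (Nat.succ_pos m)]
  have e : ∀ f : (Fin 2 → Fin n) → ℕ, ∑ κ, f κ = ∑ c, ∑ d, f ![c, d] := by
    intro f
    rw [← Fintype.sum_prod_type']
    exact (Fintype.sum_equiv (finTwoArrowEquiv (Fin n)) _ _ (fun κ => by
      congr 1
      funext i
      fin_cases i <;> rfl))
  rw [e]
  unfold numP
  refine Finset.sum_le_sum fun c _ => Finset.sum_le_sum fun d _ => ?_
  by_cases hcd : c < d
  · rw [if_pos hcd]
    unfold forC
    apply Finset.card_le_card
    intro ρ hρ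
    simp only [mem_filter, mem_univ, true_and] at hρ ⊢
    refine ⟨hρ.1, fun i => ?_⟩
    have hstrict : StrictMono ![c, d] := strictMono_vec2 hcd
    simp only [Uof, if_pos hstrict, mem_filter, mem_univ, true_and]
    intro j
    fin_cases j
    · simpa [altP] using hρ.2.1 i
    · simpa [altP] using hρ.2.2 i
  · rw [if_neg hcd]
    exact Nat.zero_le _

/-- Polynomial removal for the alternating patterns. -/
theorem poly_alt (hm : 0 < m) (b : Fin (m + 1) → Bool) (hb : ∀ i : Fin m, b i.castSucc ≠ b i.succ) :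
    Poly (altP b) := by
  obtain ⟨A₀, hA₀⟩ : ∃ A₀ : ℝ, A₀ = 2 * (64 + 2 * ((m : ℝ) + 1)) := ⟨_, rfl⟩
  have hA₀pos : 0 < A₀ := by
    rw [hA₀]
    positivity
  have hA₀ge : 128 ≤ A₀ := by
    have : (0 : ℝ) ≤ m := Nat.cast_nonneg _
    rw [hA₀]
    nlinarith
  obtain ⟨D, hD⟩ : ∃ D : ℕ, D = 46 * (m + 1) + 5 := ⟨_, rfl⟩
  obtain ⟨E, hE⟩ : ∃ E : ℕ, E = 23 + (23 * m + 3) := ⟨_, rfl⟩
  obtain ⟨C, hC⟩ : ∃ C : ℕ, C = D + E * (m + 3) := ⟨_, rfl⟩
  refine ⟨1 / (2 * A₀) ^ C, C, by positivity, fun n hn ε hε hε1 A hfar => ?_⟩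
  have hnR : (1 : ℝ) ≤ n := by exact_mod_cast hn
  obtain ⟨K, hK⟩ : ∃ K : ℕ, K = ⌈A₀ / ε⌉₊ := ⟨_, rfl⟩
  have hKge : A₀ / ε ≤ K := by
    rw [hK]
    exact Nat.le_ceil _
  have hA₀ε : A₀ ≤ A₀ / ε := by
    rw [le_div_iff₀ hε]
    nlinarith
  have hKR : (128 : ℝ) ≤ K := by linarith
  have hK128 : 128 ≤ K := by exact_mod_cast hKR
  have hKm : 4 * (m + 1) ≤ K := by
    have h1 : (4 * ((m : ℝ) + 1)) ≤ K := by
      have : (4 * ((m : ℝ) + 1)) ≤ A₀ := by
        rw [hA₀]
        nlinarith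
      linarith
    exact_mod_cast h1
  have hKε : 2 ≤ (K : ℝ) * ε := by
    have h1 : A₀ ≤ K * ε := by
      rwa [div_le_iff₀ hε] at hKge
    linarith
  have hKub : (K : ℝ) ≤ 2 * A₀ / ε := by
    have h1 : (K : ℝ) < A₀ / ε + 1 := by
      rw [hK]
      exact Nat.ceil_lt_add_one (by positivity)
    have h2 : 1 ≤ A₀ / ε := by linarith
    have h3 : 2 * A₀ / ε = 2 * (A₀ / ε) := by ring
    rw [h3]
    linarith
  have hKpos : (0 : ℝ) < K := by linarith
  obtain ⟨x, hx⟩ : ∃ x : ℝ, x = ε / (2 * A₀) := ⟨_, rfl⟩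
  have hxpos : 0 < x := by
    rw [hx]
    positivity
  have hx1 : x ≤ 1 := by
    rw [hx, div_le_one (by positivity)]
    nlinarith
  have hKx : (K : ℝ) * x ≤ 1 := by
    have : (K : ℝ) * x ≤ (2 * A₀ / ε) * x := mul_le_mul_of_nonneg_right hKub hxpos.le
    have e : (2 * A₀ / ε) * x = 1 := by
      rw [hx]
      field_simp
    linarith
  have hgoal : 1 / (2 * A₀) ^ C * ε ^ C = x ^ C := by
    rw [hx, div_pow]
    ring
  rw [hgoal]
  -- at least one copy
  have hone : (1 : ℝ) ≤ rCount (altP b) A := by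
    by_contra hcon
    have h0 : rCount (altP b) A = 0 := by
      have : rCount (altP b) A < 1 := by
        have := not_le.mp hcon
        exact_mod_cast this
      omega
    have hfree : RFree (altP b) A := by
      intro ρ κ hcopy
      classical
      unfold rCount at h0
      rw [Finset.card_eq_zero, Finset.filter_eq_empty_iff] at h0
      exact h0 (mem_univ (ρ, κ)) hcopy
    have h1 := hfar A hfree
    have h2 : hammingDist A A = 0 := by
      unfold hammingDist
      simp
    rw [h2] at h1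
    have : 0 < ε * (n : ℝ) ^ 2 := by positivity
    simp at h1
    linarith
  have hexp : m + 1 + 2 = m + 3 := by omega
  by_cases hsmall : K ^ 23 * K ^ (23 * m + 3) ≤ n
  · by_cases hfew : numP A b * K ^ D ≤ n ^ (m + 1 + 2)
    · exfalso
      rw [hD] at hfew
      obtain ⟨B, hfree, hHam⟩ := close_alt K hK128 hKm hm b hb hsmall A hfew
      have hB : RFree (altP b) B := by
        intro ρ κ hcopy
        refine hfree ρ (κ 0) (κ 1) hcopy.1 (hcopy.2.1 (by decide)) fun i => ?_
        have h0 := hcopy.2.2 i 0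
        have h1 := hcopy.2.2 i 1
        exact ⟨by simpa [altP] using h0, by simpa [altP] using h1⟩
      have h1 := hfar B hB
      have h2 : (K : ℝ) * hammingDist A B ≤ (n : ℝ) ^ 2 := by exact_mod_cast hHam
      have h3 : (K : ℝ) * (ε * (n : ℝ) ^ 2) ≤ (n : ℝ) ^ 2 :=
        (mul_le_mul_of_nonneg_left h1 hKpos.le).trans h2
      have h4 : 0 < (n : ℝ) ^ 2 := by positivity
      nlinarith
    · have hlt : (n : ℝ) ^ (m + 1 + 2) ≤ (rCount (altP b) A : ℝ) * (K : ℝ) ^ D := by
        have h1 := not_le.mp hfew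
        have h2 : n ^ (m + 1 + 2) ≤ rCount (altP b) A * K ^ D :=
          h1.le.trans (Nat.mul_le_mul_right _ (numP_le A b))
        exact_mod_cast h2
      calc x ^ C * (n : ℝ) ^ (m + 1 + 2)
          ≤ x ^ D * (n : ℝ) ^ (m + 1 + 2) := by
            apply mul_le_mul_of_nonneg_right _ (by positivity)
            exact pow_le_pow_of_le_one hxpos.le hx1 (by omega)
        _ ≤ x ^ D * ((rCount (altP b) A : ℝ) * (K : ℝ) ^ D) :=
            mul_le_mul_of_nonneg_left hlt (by positivity)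
        _ = ((K : ℝ) * x) ^ D * rCount (altP b) A := by
            rw [mul_pow]
            ring
        _ ≤ 1 * rCount (altP b) A := by
            apply mul_le_mul_of_nonneg_right _ (Nat.cast_nonneg _)
            exact pow_le_one₀ (by positivity) hKx
        _ = _ := one_mul _
  · have hlt : n ≤ K ^ E := by
      have h1 := not_le.mp hsmall
      rw [hE, pow_add]
      exact h1.le
    have hltR : (n : ℝ) ≤ (K : ℝ) ^ E := by exact_mod_cast hlt
    refine le_trans ?_ hone
    rw [hexp]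
    calc x ^ C * (n : ℝ) ^ (m + 3)
        ≤ x ^ (E * (m + 3)) * (n : ℝ) ^ (m + 3) := by
          apply mul_le_mul_of_nonneg_right _ (by positivity)
          exact pow_le_pow_of_le_one hxpos.le hx1 (by omega)
      _ ≤ x ^ (E * (m + 3)) * ((K : ℝ) ^ E) ^ (m + 3) := by
          apply mul_le_mul_of_nonneg_left _ (by positivity)
          exact pow_le_pow_left₀ (by positivity) hltR _
      _ = ((K : ℝ) * x) ^ (E * (m + 3)) := by
          rw [← pow_mul, mul_pow]
          ring
      _ ≤ 1 := pow_le_one₀ (by positivity) hKx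

/-- The counts agree with the statement's count. -/
lemma numOrderedCopies_eq (H : Fin k → Fin k → Bool) (A : Fin n → Fin n → Bool) :
    numOrderedCopies H A = rCount H A := by
  classical
  unfold numOrderedCopies rCount
  have : {p : (Fin k → Fin n) × (Fin k → Fin n) | IsOrderedCopy H A p.1 p.2}
      = ↑(univ.filter fun p : (Fin k → Fin n) × (Fin k → Fin n) => IsRCopy H A p.1 p.2) := by
    ext p
    rw [Finset.mem_coe, Finset.mem_filter, Set.mem_ofPred_eq]
    exact ⟨fun h => ⟨mem_univ _, h⟩, fun h => h.2⟩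
  rw [this, Set.ncard_coe_finset]

lemma rfar_of_far {H : Fin k → Fin k → Bool} {A : Fin n → Fin n → Bool} {ε : ℝ}
    (h : IsFarFrom H A ε) : RFar H A ε := fun B hB => h B hB

lemma far_of_rfar {H : Fin k → Fin k → Bool} {A : Fin n → Fin n → Bool} {ε : ℝ}
    (h : RFar H A ε) : IsFarFrom H A ε := fun B hB => h B hB

/-- Polynomial removal for all `2 × 2` patterns, in the rectangular language. -/
theorem poly_two (H : Fin 2 → Fin 2 → Bool) : Poly H := by
  refine ⟨c₀, 84, c₀_pos, fun n hn ε hε hε1 A hfar => ?_⟩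
  have := removal_all H n hn ε hε hε1 A (far_of_rfar hfar)
  rw [numOrderedCopies_eq] at this
  exact this

/-- The class of patterns covered: repetitions of rows and columns of a `2 × 2` pattern, of an
alternating `m × 2` pattern or of the transpose of an alternating `m × 2` pattern. -/
def IsBlockPattern {k : ℕ} (H : Fin k → Fin k → Bool) : Prop :=
  (∃ (G : Fin 2 → Fin 2 → Bool) (φ ψ : Fin k → Fin 2), Monotone φ ∧ Function.Surjective φ ∧
      Monotone ψ ∧ Function.Surjective ψ ∧ ∀ i j, H i j = G (φ i) (ψ j)) ∨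
  (∃ (m : ℕ) (b : Fin (m + 1) → Bool) (φ : Fin k → Fin (m + 1)) (ψ : Fin k → Fin 2), 0 < m ∧
      (∀ i : Fin m, b i.castSucc ≠ b i.succ) ∧ Monotone φ ∧ Function.Surjective φ ∧
      Monotone ψ ∧ Function.Surjective ψ ∧ ∀ i j, H i j = altP b (φ i) (ψ j)) ∨
  (∃ (m : ℕ) (b : Fin (m + 1) → Bool) (φ : Fin k → Fin 2) (ψ : Fin k → Fin (m + 1)), 0 < m ∧
      (∀ i : Fin m, b i.castSucc ≠ b i.succ) ∧ Monotone φ ∧ Function.Surjective φ ∧
      Monotone ψ ∧ Function.Surjective ψ ∧ ∀ i j, H i j = altP b (ψ j) (φ i))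

lemma pos_of_surj {k a : ℕ} (φ : Fin k → Fin (a + 1)) (h : Function.Surjective φ) : 0 < k := by
  obtain ⟨i, _⟩ := h 0
  exact lt_of_le_of_lt (Nat.zero_le _) i.isLt

/-- The main theorem. -/
theorem block_removal (H : Fin k → Fin k → Bool) (hH : IsBlockPattern H) :
    ∃ (c : ℝ) (C : ℕ), 0 < c ∧ ∀ n : ℕ, 1 ≤ n → ∀ ε : ℝ, 0 < ε → ε < 1 →
      ∀ A : Fin n → Fin n → Bool, IsFarFrom H A ε →
        c * ε ^ C * (n : ℝ) ^ (2 * k) ≤ numOrderedCopies H A := by
  have hPoly : Poly H := by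
    rcases hH with ⟨G, φ, ψ, h1, h2, h3, h4, hH⟩ | ⟨m, b, φ, ψ, hm, hb, h1, h2, h3, h4, hH⟩ |
      ⟨m, b, φ, ψ, hm, hb, h1, h2, h3, h4, hH⟩
    · have e : H = fun i j => G (φ i) (ψ j) := by
        funext i j
        exact hH i j
      rw [e]
      exact (poly_two G).blow (pos_of_surj φ h2) φ ψ h1 h2 h3 h4
    · have e : H = fun i j => altP b (φ i) (ψ j) := by
        funext i j
        exact hH i j
      rw [e]
      exact (poly_alt hm b hb).blow (pos_of_surj φ h2) φ ψ h1 h2 h3 h4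
    · have e : H = fun i j => (fun j i => altP b i j) (φ i) (ψ j) := by
        funext i j
        exact hH i j
      rw [e]
      exact (poly_alt hm b hb).transpose.blow (pos_of_surj φ h2) φ ψ h1 h2 h3 h4
  obtain ⟨c, C, hc, hmain⟩ := hPoly
  refine ⟨c, C, hc, fun n hn ε hε hε1 A hfar => ?_⟩
  have := hmain n hn ε hε hε1 A (rfar_of_far hfar)
  rw [numOrderedCopies_eq, two_mul]
  exact this

end Vale.Agent.P037.Block
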