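import Vale.Agent.P037.AllTwoByTwo

/-! Rectangular patterns and the blow-up lemma: repeating rows and columns of a pattern keeps
polynomial removal. -/

namespace Vale.Agent.P037.Block

open Finset

variable {n a b k : ℕ}

/-- Copy of a rectangular pattern. -/
def IsRCopy (G : Fin a → Fin b → Bool) (A : Fin n → Fin n → Bool)
    (ρ : Fin a → Fin n) (κ : Fin b → Fin n) : Prop :=
  StrictMono ρ ∧ StrictMono κ ∧ ∀ i j, A (ρ i) (κ j) = G i j

open Classical in
/-- Number of copies of a rectangular pattern. -/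
noncomputable def rCount (G : Fin a → Fin b → Bool) (A : Fin n → Fin n → Bool) : ℕ :=
  (univ.filter fun p : (Fin a → Fin n) × (Fin b → Fin n) => IsRCopy G A p.1 p.2).card

/-- Freeness of a rectangular pattern. -/
def RFree (G : Fin a → Fin b → Bool) (B : Fin n → Fin n → Bool) : Prop :=
  ∀ ρ κ, ¬ IsRCopy G B ρ κ

/-- Farness from freeness. -/
def RFar (G : Fin a → Fin b → Bool) (A : Fin n → Fin n → Bool) (ε : ℝ) : Prop :=
  ∀ B : Fin n → Fin n → Bool, RFree G B → ε * (n : ℝ) ^ 2 ≤ hammingDist A B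

/-- Polynomial removal for a rectangular pattern. -/
def Poly (G : Fin a → Fin b → Bool) : Prop :=
  ∃ (c : ℝ) (C : ℕ), 0 < c ∧ ∀ n : ℕ, 1 ≤ n → ∀ ε : ℝ, 0 < ε → ε < 1 →
    ∀ A : Fin n → Fin n → Bool, RFar G A ε → c * ε ^ C * (n : ℝ) ^ (a + b) ≤ rCount G A

lemma exists_cut (W : Finset (Fin n)) (q : ℕ) (hq : q ≤ W.card) :
    ∃ t : ℕ, (W.filter fun x => x.val < t).card = q := by
  classical
  have hex : ∃ t, q ≤ (W.filter fun x => x.val < t).card := by
    refine ⟨n, ?_⟩
    have : W.filter (fun x => x.val < n) = W := by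
      apply Finset.filter_true_of_mem
      intro x _
      exact x.isLt
    rw [this]
    exact hq
  have hsp := Nat.find_spec hex
  rcases hfind : Nat.find hex with _ | s
  · rw [hfind] at hsp
    refine ⟨0, le_antisymm ?_ hsp⟩
    simp
  · rw [hfind] at hsp
    have hmin : ¬ q ≤ (W.filter fun x => x.val < s).card :=
      Nat.find_min hex (by omega)
    refine ⟨s + 1, le_antisymm ?_ hsp⟩
    have hle : (W.filter fun x => x.val < s + 1).card ≤ (W.filter fun x => x.val < s).card + 1 := by
      have hsub : (W.filter fun x => x.val < s + 1)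
          ⊆ (W.filter fun x => x.val < s) ∪ (W.filter fun x => x.val = s) := by
        intro x hx
        simp only [mem_filter, mem_union] at hx ⊢
        rcases Nat.lt_succ_iff_lt_or_eq.mp hx.2 with h | h
        · exact Or.inl ⟨hx.1, h⟩
        · exact Or.inr ⟨hx.1, h⟩
      refine (Finset.card_le_card hsub).trans ((Finset.card_union_le _ _).trans ?_)
      apply Nat.add_le_add_left
      rw [Finset.card_le_one]
      intro x hx y hy
      simp only [mem_filter] at hx hy
      exact Fin.ext (hx.2.trans hy.2.symm)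
    omega

/-- Either the word contains consecutive blocks, or few positions are hit by every occurrence. -/
lemma blocks_or_hit (q : ℕ) : ∀ (k : ℕ) (V : Fin k → Finset (Fin n)) (p : ℕ),
    (∃ R : Fin k → Finset (Fin n), (∀ j, R j ⊆ V j) ∧ (∀ j, q ≤ (R j).card) ∧
        (∀ j, ∀ x ∈ R j, p ≤ x.val) ∧ ∀ j j', j < j' → ∀ x ∈ R j, ∀ y ∈ R j', x < y) ∨
    (∃ D : Fin k → Finset (Fin n), (∀ j, (D j).card ≤ q) ∧
        ∀ x : Fin k → Fin n, Monotone x → (∀ j, x j ∈ V j) → (∀ j, p ≤ (x j).val) →
          ∃ j, x j ∈ D j) := by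
  classical
  intro k
  induction k with
  | zero =>
    intro V p
    left
    exact ⟨fun j => j.elim0, fun j => j.elim0, fun j => j.elim0, fun j => j.elim0,
      fun j => j.elim0⟩
  | succ k ih =>
    intro V p
    set W := (V 0).filter fun x => p ≤ x.val with hW
    by_cases hc : W.card < q
    · right
      refine ⟨fun j => if j = 0 then W else ∅, ?_, ?_⟩
      · intro j
        by_cases hj : j = 0
        · simp [hj, hc.le]
        · simp [hj]
      · intro x _ hx hp
        refine ⟨0, ?_⟩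
        simp only [if_true]
        exact mem_filter.mpr ⟨hx 0, hp 0⟩
    · obtain ⟨t, ht⟩ := exists_cut W q (not_lt.mp hc)
      set R0 := W.filter fun x => x.val < t with hR0
      rcases ih (fun j => V j.succ) (max p t) with ⟨R, h1, h2, h3, h4⟩ | ⟨D, h1, h2⟩
      · left
        refine ⟨Fin.cons R0 R, ?_, ?_, ?_, ?_⟩
        · intro j
          refine Fin.cases ?_ (fun j => ?_) j
          · simp only [Fin.cons_zero]
            exact (Finset.filter_subset _ _).trans (Finset.filter_subset _ _)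
          · simpa using h1 j
        · intro j
          refine Fin.cases ?_ (fun j => ?_) j
          · simp only [Fin.cons_zero]
            exact ht.ge
          · simpa using h2 j
        · intro j
          refine Fin.cases ?_ (fun j => ?_) j
          · intro x hx
            simp only [Fin.cons_zero, hR0, hW, mem_filter] at hx
            exact hx.1.2
          · intro x hx
            simp only [Fin.cons_succ] at hx
            exact (le_max_left _ _).trans (h3 j x hx)
        · intro j j'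
          refine Fin.cases ?_ (fun j => ?_) j
          · refine Fin.cases ?_ (fun j' => ?_) j'
            · intro h
              exact absurd h (lt_irrefl _)
            · intro _ x hx y hy
              simp only [Fin.cons_zero, hR0, hW, mem_filter] at hx
              simp only [Fin.cons_succ] at hy
              have h5 := h3 j' y hy
              have h6 : t ≤ y.val := (le_max_right _ _).trans h5
              exact Fin.lt_def.mpr (lt_of_lt_of_le hx.2 h6)
          · refine Fin.cases ?_ (fun j' => ?_) j'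
            · intro h
              exact absurd h (Fin.not_lt_zero _)
            · intro h x hx y hy
              simp only [Fin.cons_succ] at hx hy
              exact h4 j j' (Fin.succ_lt_succ_iff.mp h) x hx y hy
      · right
        refine ⟨Fin.cons R0 D, ?_, ?_⟩
        · intro j
          refine Fin.cases ?_ (fun j => ?_) j
          · simp only [Fin.cons_zero]
            exact ht.le
          · simpa using h1 j
        · intro x hmono hx hp
          by_cases h0 : x 0 ∈ R0
          · exact ⟨0, by simpa using h0⟩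
          · have h00 : max p t ≤ (x 0).val := by
              apply max_le (hp 0)
              by_contra hlt
              exact h0 (mem_filter.mpr ⟨mem_filter.mpr ⟨hx 0, hp 0⟩, not_le.mp hlt⟩)
            obtain ⟨j, hj⟩ := h2 (fun j => x j.succ)
              (fun i i' hii => hmono (Fin.succ_le_succ_iff.mpr hii))
              (fun j => hx j.succ)
              (fun j => h00.trans (hmono (Fin.zero_le _)))
            exact ⟨j.succ, by simpa using hj⟩

/-- Functions with a prescribed coordinate in a small set. -/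
lemma card_coord (i : Fin a) (D : Finset (Fin n)) :
    (Fintype.piFinset (Function.update (fun _ : Fin a => (univ : Finset (Fin n))) i D)).card
      = D.card * n ^ (a - 1) := by
  classical
  rw [Fintype.card_piFinset, ← Finset.mul_prod_erase univ _ (mem_univ i)]
  simp only [Function.update_self]
  congr 1
  rw [Finset.prod_congr rfl (g := fun _ => n)]
  · simp [Finset.card_erase_of_mem]
  · intro j hj
    have : j ≠ i := (Finset.mem_erase.mp hj).1
    simp [Function.update_of_ne this]

/-- Pointwise blow-up count. -/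
lemma count_point (q : ℕ) (φ : Fin k → Fin a) (hφ : Monotone φ) (U : Fin a → Finset (Fin n)) :
    q ^ k * (univ.filter fun ρ : Fin a → Fin n => StrictMono ρ ∧ ∀ i, ρ i ∈ U i).card
      ≤ q ^ k * (k * (q * n ^ (a - 1)))
        + n ^ a * (univ.filter fun ρ : Fin k → Fin n => StrictMono ρ ∧ ∀ j, ρ j ∈ U (φ j)).card := by
  classical
  rcases blocks_or_hit q k (fun j => U (φ j)) 0 with ⟨R, h1, h2, _, h4⟩ | ⟨D, h1, h2⟩
  · have hG : q ^ k ≤ (univ.filter fun ρ : Fin k → Fin n =>
        StrictMono ρ ∧ ∀ j, ρ j ∈ U (φ j)).card := by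
      have hsub : Fintype.piFinset R ⊆ (univ.filter fun ρ : Fin k → Fin n =>
          StrictMono ρ ∧ ∀ j, ρ j ∈ U (φ j)) := by
        intro f hf
        rw [Fintype.mem_piFinset] at hf
        simp only [mem_filter, mem_univ, true_and]
        refine ⟨fun j j' hjj => h4 j j' hjj _ (hf j) _ (hf j'), fun j => h1 j (hf j)⟩
      refine le_trans ?_ (Finset.card_le_card hsub)
      rw [Fintype.card_piFinset]
      calc q ^ k = ∏ _j : Fin k, q := by simp
        _ ≤ ∏ j, (R j).card := Finset.prod_le_prod' fun j _ => h2 j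
    have hF : (univ.filter fun ρ : Fin a → Fin n => StrictMono ρ ∧ ∀ i, ρ i ∈ U i).card ≤ n ^ a := by
      refine (Finset.card_le_univ _).trans ?_
      simp
    calc q ^ k * (univ.filter fun ρ : Fin a → Fin n => StrictMono ρ ∧ ∀ i, ρ i ∈ U i).card
        ≤ q ^ k * n ^ a := Nat.mul_le_mul_left _ hF
      _ = n ^ a * q ^ k := by ring
      _ ≤ n ^ a * _ := Nat.mul_le_mul_left _ hG
      _ ≤ _ := Nat.le_add_left _ _
  · have hF : (univ.filter fun ρ : Fin a → Fin n => StrictMono ρ ∧ ∀ i, ρ i ∈ U i).card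
        ≤ k * (q * n ^ (a - 1)) := by
      have hsub : (univ.filter fun ρ : Fin a → Fin n => StrictMono ρ ∧ ∀ i, ρ i ∈ U i)
          ⊆ univ.biUnion fun j : Fin k =>
            Fintype.piFinset (Function.update (fun _ : Fin a => (univ : Finset (Fin n))) (φ j) (D j)) := by
        intro ρ hρ
        simp only [mem_filter, mem_univ, true_and] at hρ
        obtain ⟨j, hj⟩ := h2 (fun j => ρ (φ j)) (hρ.1.monotone.comp hφ) (fun j => hρ.2 _)
          (fun _ => Nat.zero_le _)
        simp only [mem_biUnion, mem_univ, true_and]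
        refine ⟨j, ?_⟩
        rw [Fintype.mem_piFinset]
        intro i
        by_cases hi : i = φ j
        · subst hi
          simpa using hj
        · simp [Function.update_of_ne hi]
      refine (Finset.card_le_card hsub).trans (Finset.card_biUnion_le.trans ?_)
      calc ∑ j : Fin k, _ ≤ ∑ _j : Fin k, q * n ^ (a - 1) := Finset.sum_le_sum fun j _ => by
            rw [card_coord]
            exact Nat.mul_le_mul_right _ (h1 j)
        _ = k * (q * n ^ (a - 1)) := by simp
    exact (Nat.mul_le_mul_left _ hF).trans (Nat.le_add_right _ _)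

open Classical in
/-- The rows allowed at index `i` for a column tuple. -/
noncomputable def Uof (G : Fin a → Fin b → Bool) (A : Fin n → Fin n → Bool) (κ : Fin b → Fin n)
    (i : Fin a) : Finset (Fin n) :=
  if StrictMono κ then univ.filter fun r => ∀ j, A r (κ j) = G i j else ∅

lemma rCount_eq (ha : 0 < a) (G : Fin a → Fin b → Bool) (A : Fin n → Fin n → Bool) :
    rCount G A = ∑ κ : Fin b → Fin n,
      (univ.filter fun ρ : Fin a → Fin n => StrictMono ρ ∧ ∀ i, ρ i ∈ Uof G A κ i).card := by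
  classical
  unfold rCount
  rw [Finset.card_filter, Fintype.sum_prod_type_right]
  refine Finset.sum_congr rfl fun κ _ => ?_
  rw [Finset.card_filter]
  refine Finset.sum_congr rfl fun ρ _ => ?_
  have hiff : IsRCopy G A ρ κ ↔ (StrictMono ρ ∧ ∀ i, ρ i ∈ Uof G A κ i) := by
    constructor
    · rintro ⟨h1, h2, h3⟩
      refine ⟨h1, fun i => ?_⟩
      simp only [Uof, if_pos h2, mem_filter, mem_univ, true_and]
      exact fun j => h3 i j
    · rintro ⟨h1, h2⟩
      by_cases hκ : StrictMono κ
      · refine ⟨h1, hκ, fun i j => ?_⟩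
        have := h2 i
        simp only [Uof, if_pos hκ, mem_filter, mem_univ, true_and] at this
        exact this j
      · have := h2 ⟨0, ha⟩
        simp [Uof, if_neg hκ] at this
  by_cases hP : IsRCopy G A ρ κ
  · rw [if_pos hP, if_pos (hiff.1 hP)]
  · rw [if_neg hP, if_neg (fun h => hP (hiff.2 h))]

/-- The blow-up inequality for rows. -/
lemma rows_blow (hk : 0 < k) (ha : 0 < a) (G : Fin a → Fin b → Bool) (φ : Fin k → Fin a)
    (hφ : Monotone φ) (A : Fin n → Fin n → Bool) (q : ℕ) :
    q ^ k * rCount G A ≤ n ^ b * (q ^ k * (k * (q * n ^ (a - 1))))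
      + n ^ a * rCount (fun i j => G (φ i) j) A := by
  classical
  rw [rCount_eq ha G A, rCount_eq hk (fun i j => G (φ i) j) A, Finset.mul_sum, Finset.mul_sum]
  have hU : ∀ (κ : Fin b → Fin n) (j : Fin k),
      Uof (fun i j => G (φ i) j) A κ j = Uof G A κ (φ j) := by
    intro κ j
    rfl
  calc ∑ κ : Fin b → Fin n, q ^ k *
        (univ.filter fun ρ : Fin a → Fin n => StrictMono ρ ∧ ∀ i, ρ i ∈ Uof G A κ i).card
      ≤ ∑ κ : Fin b → Fin n, (q ^ k * (k * (q * n ^ (a - 1)))
        + n ^ a * (univ.filter fun ρ : Fin k → Fin n =>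
            StrictMono ρ ∧ ∀ j, ρ j ∈ Uof G A κ (φ j)).card) :=
        Finset.sum_le_sum fun κ _ => count_point q φ hφ (Uof G A κ)
    _ = _ := by
        rw [Finset.sum_add_distrib]
        simp only [Finset.sum_const, Finset.card_univ, Fintype.card_fun, Fintype.card_fin, smul_eq_mul,
          hU]

/-- The transposed count. -/
lemma rCount_transpose (G : Fin a → Fin b → Bool) (A : Fin n → Fin n → Bool) :
    rCount (fun j i => G i j) (fun c r => A r c) = rCount G A := by
  classical
  unfold rCount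
  apply Finset.card_bij (fun p _ => (p.2, p.1))
  · rintro ⟨κ, ρ⟩ hp
    simp only [mem_filter, mem_univ, true_and] at hp ⊢
    exact ⟨hp.2.1, hp.1, fun i j => hp.2.2 j i⟩
  · rintro ⟨κ, ρ⟩ _ ⟨κ', ρ'⟩ _ h
    simp only [Prod.mk.injEq] at h ⊢
    exact ⟨h.2, h.1⟩
  · rintro ⟨ρ, κ⟩ hp
    refine ⟨(κ, ρ), ?_, rfl⟩
    simp only [mem_filter, mem_univ, true_and] at hp ⊢
    exact ⟨hp.2.1, hp.1, fun j i => hp.2.2 i j⟩

lemma hamming_transpose (A B : Fin n → Fin n → Bool) :
    hammingDist (fun c r => A r c) (fun c r => B r c) = hammingDist A B := by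
  unfold hammingDist
  apply Finset.card_bij (fun p _ => (p.2, p.1))
  · rintro ⟨c, r⟩ hp
    simpa using hp
  · rintro ⟨c, r⟩ _ ⟨c', r'⟩ _ h
    simp only [Prod.mk.injEq] at h ⊢
    exact ⟨h.2, h.1⟩
  · rintro ⟨r, c⟩ hp
    exact ⟨(c, r), by simpa using hp, rfl⟩

/-- Polynomial removal passes to the transpose. -/
theorem Poly.transpose {G : Fin a → Fin b → Bool} (h : Poly G) : Poly (fun j i => G i j) := by
  obtain ⟨c, C, hc, hmain⟩ := h
  refine ⟨c, C, hc, fun n hn ε hε hε1 A hfar => ?_⟩
  have hfar' : RFar G (fun c r => A r c) ε := by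
    intro B hB
    have hB' : RFree (fun j i => G i j) (fun c r => B r c) := by
      intro κ ρ hcopy
      exact hB ρ κ ⟨hcopy.2.1, hcopy.1, fun i j => hcopy.2.2 j i⟩
    have := hfar _ hB'
    rw [← hamming_transpose A (fun c r => B r c)] at this
    exact this
  have := hmain n hn ε hε hε1 _ hfar'
  rw [show rCount (fun j i => G i j) A = rCount G (fun c r => A r c) from ?_]
  · rw [add_comm b a]
    exact this
  · rw [← rCount_transpose G (fun c r => A r c)]

/-- One blow-up step with densities. -/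
lemma density_step (hk : 0 < k) (ha : 0 < a) (G : Fin a → Fin b → Bool) (φ : Fin k → Fin a)
    (hφ : Monotone φ) (A : Fin n → Fin n → Bool) (δ : ℝ) (hδ : 0 < δ)
    (hn : 2 * (k : ℝ) ≤ δ * n) (hN : δ * (n : ℝ) ^ (a + b) ≤ rCount G A) :
    (δ / (4 * k)) ^ k * (δ / 2) * (n : ℝ) ^ (k + b) ≤ rCount (fun i j => G (φ i) j) A := by
  have hkR : (0 : ℝ) < k := by exact_mod_cast hk
  have hnpos : (0 : ℝ) < n := by
    by_contra hcon
    have : (n : ℝ) = 0 := le_antisymm (not_lt.mp hcon) (Nat.cast_nonneg _)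
    rw [this] at hn
    nlinarith
  set x : ℝ := δ * n / (2 * k) with hx
  have hx1 : 1 ≤ x := by
    rw [hx, le_div_iff₀ (by positivity)]
    linarith
  set q : ℕ := ⌊x⌋₊ with hq
  have hqle : (q : ℝ) ≤ x := Nat.floor_le (by linarith)
  have hqlt : x < q + 1 := Nat.lt_floor_add_one x
  have hq1 : (1 : ℝ) ≤ q := by
    have : 1 ≤ q := Nat.le_floor (by simpa using hx1)
    exact_mod_cast this
  have hqge : δ * n / (4 * k) ≤ q := by
    have : δ * n / (4 * k) = x / 2 := by
      rw [hx]
      field_simp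
      ring
    rw [this]
    linarith
  have hqk : (k : ℝ) * q ≤ δ * n / 2 := by
    have : (k : ℝ) * x = δ * n / 2 := by
      rw [hx]
      field_simp
    rw [← this]
    exact mul_le_mul_of_nonneg_left hqle hkR.le
  have hb := rows_blow hk ha G φ hφ A q
  have hbR : (q : ℝ) ^ k * rCount G A ≤ (n : ℝ) ^ b * ((q : ℝ) ^ k * (k * (q * (n : ℝ) ^ (a - 1))))
      + (n : ℝ) ^ a * rCount (fun i j => G (φ i) j) A := by
    exact_mod_cast hb
  have ha1 : (n : ℝ) ^ a = n * (n : ℝ) ^ (a - 1) := by
    rw [← pow_succ']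
    congr 1
    omega
  have h1 : (n : ℝ) ^ b * ((k : ℝ) * (q * (n : ℝ) ^ (a - 1))) ≤ δ / 2 * (n : ℝ) ^ (a + b) := by
    have e : (n : ℝ) ^ b * ((k : ℝ) * (q * (n : ℝ) ^ (a - 1)))
        = ((k : ℝ) * q) * ((n : ℝ) ^ b * (n : ℝ) ^ (a - 1)) := by ring
    rw [e]
    calc ((k : ℝ) * q) * ((n : ℝ) ^ b * (n : ℝ) ^ (a - 1))
        ≤ (δ * n / 2) * ((n : ℝ) ^ b * (n : ℝ) ^ (a - 1)) :=
          mul_le_mul_of_nonneg_right hqk (by positivity)
      _ = δ / 2 * (n : ℝ) ^ (a + b) := by
          rw [pow_add, ha1]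
          ring
  have hqkpos : (0 : ℝ) < (q : ℝ) ^ k := by positivity
  have h2 : (q : ℝ) ^ k * (δ / 2 * (n : ℝ) ^ (a + b))
      ≤ (n : ℝ) ^ a * rCount (fun i j => G (φ i) j) A := by
    have h3 : (q : ℝ) ^ k * (δ * (n : ℝ) ^ (a + b)) ≤ (q : ℝ) ^ k * rCount G A :=
      mul_le_mul_of_nonneg_left hN hqkpos.le
    have h4 : (n : ℝ) ^ b * ((q : ℝ) ^ k * (k * (q * (n : ℝ) ^ (a - 1))))
        = (q : ℝ) ^ k * ((n : ℝ) ^ b * ((k : ℝ) * (q * (n : ℝ) ^ (a - 1)))) := by ring
    have h5 := mul_le_mul_of_nonneg_left h1 hqkpos.le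
    have h6 : (q : ℝ) ^ k * (δ * (n : ℝ) ^ (a + b))
        = (q : ℝ) ^ k * (δ / 2 * (n : ℝ) ^ (a + b)) + (q : ℝ) ^ k * (δ / 2 * (n : ℝ) ^ (a + b)) := by
      ring
    rw [h4] at hbR
    linarith
  have h3 : (q : ℝ) ^ k * (δ / 2 * (n : ℝ) ^ b) ≤ rCount (fun i j => G (φ i) j) A := by
    have hapos : (0 : ℝ) < (n : ℝ) ^ a := by positivity
    have e : (q : ℝ) ^ k * (δ / 2 * (n : ℝ) ^ (a + b))
        = (n : ℝ) ^ a * ((q : ℝ) ^ k * (δ / 2 * (n : ℝ) ^ b)) := by
      rw [pow_add]
      ring
    rw [e] at h2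
    exact le_of_mul_le_mul_left h2 hapos
  have h4 : (δ * n / (4 * k)) ^ k ≤ (q : ℝ) ^ k :=
    pow_le_pow_left₀ (by positivity) hqge k
  calc (δ / (4 * k)) ^ k * (δ / 2) * (n : ℝ) ^ (k + b)
      = (δ * n / (4 * k)) ^ k * (δ / 2 * (n : ℝ) ^ b) := by
        rw [pow_add, show δ * n / (4 * k) = δ / (4 * k) * n by ring, mul_pow]
        ring
    _ ≤ (q : ℝ) ^ k * (δ / 2 * (n : ℝ) ^ b) :=
        mul_le_mul_of_nonneg_right h4 (by positivity)
    _ ≤ _ := h3

/-- A copy of a blow-up contains a copy of the pattern. -/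
lemma rfree_blow {G : Fin a → Fin b → Bool} {φ : Fin k → Fin a} {ψ : Fin k → Fin b}
    (hφ : Monotone φ) (hφs : Function.Surjective φ) (hψ : Monotone ψ)
    (hψs : Function.Surjective ψ) {B : Fin n → Fin n → Bool} (hB : RFree G B) :
    RFree (fun i j => G (φ i) (ψ j)) B := by
  intro ρ κ hcopy
  choose σ hσ using hφs
  choose τ hτ using hψs
  have hσm : StrictMono σ := by
    intro i i' hii
    by_contra hcon
    have := hφ (not_lt.mp hcon)
    rw [hσ, hσ] at this
    exact absurd hii (not_lt.mpr this)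
  have hτm : StrictMono τ := by
    intro i i' hii
    by_contra hcon
    have := hψ (not_lt.mp hcon)
    rw [hτ, hτ] at this
    exact absurd hii (not_lt.mpr this)
  refine hB (ρ ∘ σ) (κ ∘ τ) ⟨hcopy.1.comp hσm, hcopy.2.1.comp hτm, fun i j => ?_⟩
  have := hcopy.2.2 (σ i) (τ j)
  simp only [hσ, hτ] at this
  exact this

/-- Polynomial removal passes to blow-ups. -/
theorem Poly.blow {G : Fin a → Fin b → Bool} (h : Poly G) (hk : 0 < k) (φ : Fin k → Fin a)
    (ψ : Fin k → Fin b) (hφ : Monotone φ) (hφs : Function.Surjective φ) (hψ : Monotone ψ)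
    (hψs : Function.Surjective ψ) : Poly (fun i j => G (φ i) (ψ j)) := by
  obtain ⟨c0, C, hc0, hmain⟩ := h
  have ha : 0 < a := lt_of_le_of_lt (Nat.zero_le _) (φ ⟨0, hk⟩).isLt
  have hb : 0 < b := lt_of_le_of_lt (Nat.zero_le _) (ψ ⟨0, hk⟩).isLt
  have hkR : (0 : ℝ) < k := by exact_mod_cast hk
  set c : ℝ := min c0 1 with hc
  have hcpos : 0 < c := lt_min hc0 one_pos
  have hc1 : c ≤ 1 := min_le_right _ _
  set c1 : ℝ := (c / (4 * k)) ^ k * (c / 2) with hc1def
  have hc1pos : 0 < c1 := by positivity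
  set c2 : ℝ := (c1 / (4 * k)) ^ k * (c1 / 2) with hc2def
  have hc2pos : 0 < c2 := by positivity
  set c3 : ℝ := (c1 / (2 * k)) ^ (2 * k) with hc3def
  have hc3pos : 0 < c3 := by positivity
  refine ⟨min c2 c3, C * (k + 1) * (k + 1) + C * (k + 1) * (2 * k), lt_min hc2pos hc3pos,
    fun n hn ε hε hε1 A hfar => ?_⟩
  have hnpos : (0 : ℝ) < n := by exact_mod_cast hn
  have hn1 : (1 : ℝ) ≤ n := by exact_mod_cast hn
  -- far from the pattern
  have hfarG : RFar G A ε := fun B hB => hfar B (rfree_blow hφ hφs hψ hψs hB)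
  have hNG := hmain n hn ε hε hε1 A hfarG
  -- at least one copy
  have hone : (1 : ℝ) ≤ rCount (fun i j => G (φ i) (ψ j)) A := by
    by_contra hcon
    have h0 : rCount (fun i j => G (φ i) (ψ j)) A = 0 := by
      have : rCount (fun i j => G (φ i) (ψ j)) A < 1 := by
        have := not_le.mp hcon
        exact_mod_cast this
      omega
    have hfree : RFree (fun i j => G (φ i) (ψ j)) A := by
      intro ρ κ hcopy
      classical
      unfold rCount at h0
      rw [Finset.card_eq_zero, Finset.filter_eq_empty_iff] at h0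
      exact h0 (mem_univ (ρ, κ)) hcopy
    have h1 := hfar A hfree
    have h2 : hammingDist A A = 0 := by
      unfold hammingDist
      simp
    rw [h2] at h1
    have : 0 < ε * (n : ℝ) ^ 2 := by positivity
    simp at h1
    linarith
  have hεC : 0 < ε ^ C := by positivity
  have hεC1 : ε ^ C ≤ 1 := pow_le_one₀ hε.le hε1.le
  set δ0 : ℝ := c * ε ^ C with hδ0
  have hδ0pos : 0 < δ0 := by positivity
  have hδ01 : δ0 ≤ 1 := by
    calc δ0 ≤ 1 * 1 := mul_le_mul hc1 hεC1 hεC.le (by norm_num)
      _ = 1 := by norm_num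
  have hNG0 : δ0 * (n : ℝ) ^ (a + b) ≤ rCount G A := by
    refine le_trans ?_ hNG
    apply mul_le_mul_of_nonneg_right _ (by positivity)
    exact mul_le_mul_of_nonneg_right (min_le_left _ _) hεC.le
  set δ1 : ℝ := (δ0 / (4 * k)) ^ k * (δ0 / 2) with hδ1
  have hδ1pos : 0 < δ1 := by positivity
  have hk1 : (1 : ℝ) ≤ k := by exact_mod_cast hk
  have hfrac : ∀ x : ℝ, 0 < x → x ≤ 1 → (x / (4 * k)) ^ k ≤ 1 := by
    intro x hx hx1
    apply pow_le_one₀ (by positivity)
    rw [div_le_one (by positivity)]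
    linarith
  have hδ10 : δ1 ≤ δ0 := by
    calc δ1 ≤ 1 * (δ0 / 2) :=
          mul_le_mul_of_nonneg_right (hfrac δ0 hδ0pos hδ01) (by positivity)
      _ ≤ δ0 := by linarith
  have hδ11 : δ1 ≤ 1 := hδ10.trans hδ01
  set δ2 : ℝ := (δ1 / (4 * k)) ^ k * (δ1 / 2) with hδ2
  have hε1pow : ∀ s t : ℕ, s ≤ t → ε ^ t ≤ ε ^ s := fun s t hst =>
    pow_le_pow_of_le_one hε.le hε1.le hst
  -- monomials
  have hδ1mon : δ1 = c1 * ε ^ (C * (k + 1)) := by
    rw [hδ1, hδ0, hc1def]
    have e1 : c * ε ^ C / (4 * k) = c / (4 * k) * ε ^ C := by ring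
    rw [e1, mul_pow, ← pow_mul, mul_add, pow_add, mul_one]
    ring
  have hδ2mon : δ2 = c2 * ε ^ (C * (k + 1) * (k + 1)) := by
    rw [hδ2, hδ1mon, hc2def]
    have e1 : c1 * ε ^ (C * (k + 1)) / (4 * k) = c1 / (4 * k) * ε ^ (C * (k + 1)) := by ring
    rw [e1, mul_pow, ← pow_mul, mul_add (C * (k + 1)), pow_add, mul_one]
    ring
  set Cf := C * (k + 1) * (k + 1) + C * (k + 1) * (2 * k) with hCf
  have hεf : 0 < ε ^ Cf := by positivity
  by_cases hcase : 2 * (k : ℝ) ≤ δ1 * n
  · have h0 : 2 * (k : ℝ) ≤ δ0 * n :=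
      hcase.trans (mul_le_mul_of_nonneg_right hδ10 hnpos.le)
    have hstep1 := density_step hk ha G φ hφ A δ0 hδ0pos h0 hNG0
    have hstep1' : δ1 * (n : ℝ) ^ (b + k) ≤
        rCount (fun j i => G (φ i) j) (fun c r => A r c) := by
      rw [rCount_transpose (fun i j => G (φ i) j) A, add_comm b k]
      exact hstep1
    have hstep2 := density_step hk hb (fun j i => G (φ i) j) ψ hψ (fun c r => A r c) δ1 hδ1pos
      hcase hstep1'
    have e : rCount (fun i j => (fun j i => G (φ i) j) (ψ i) j) (fun c r => A r c)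
        = rCount (fun i j => G (φ i) (ψ j)) A := by
      exact rCount_transpose (fun i j => G (φ i) (ψ j)) A
    rw [e] at hstep2
    refine le_trans ?_ hstep2
    apply mul_le_mul_of_nonneg_right _ (by positivity)
    rw [← hδ2, hδ2mon]
    calc min c2 c3 * ε ^ Cf ≤ c2 * ε ^ Cf :=
          mul_le_mul_of_nonneg_right (min_le_left _ _) hεf.le
      _ ≤ c2 * ε ^ (C * (k + 1) * (k + 1)) :=
          mul_le_mul_of_nonneg_left (hε1pow _ _ (Nat.le_add_right _ _)) hc2pos.le
  · refine le_trans ?_ hone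
    have hlt : δ1 * n < 2 * k := not_le.mp hcase
    have hbase : δ1 / (2 * k) * n ≤ 1 := by
      have : δ1 / (2 * k) * n = δ1 * n / (2 * k) := by ring
      rw [this, div_le_one (by positivity)]
      exact hlt.le
    have hpow : (δ1 / (2 * k) * n) ^ (2 * k) ≤ 1 :=
      pow_le_one₀ (by positivity) hbase
    have hmon : (δ1 / (2 * k)) ^ (2 * k) = c3 * ε ^ (C * (k + 1) * (2 * k)) := by
      rw [hδ1mon, hc3def]
      have e1 : c1 * ε ^ (C * (k + 1)) / (2 * k) = c1 / (2 * k) * ε ^ (C * (k + 1)) := by ring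
      rw [e1, mul_pow, ← pow_mul]
    have hnexp : (n : ℝ) ^ (k + k) = (n : ℝ) ^ (2 * k) := by
      rw [two_mul]
    rw [hnexp]
    calc min c2 c3 * ε ^ Cf * (n : ℝ) ^ (2 * k)
        ≤ (c3 * ε ^ (C * (k + 1) * (2 * k))) * (n : ℝ) ^ (2 * k) := by
          apply mul_le_mul_of_nonneg_right _ (by positivity)
          exact mul_le_mul (min_le_right _ _) (hε1pow _ _ (Nat.le_add_left _ _)) hεf.le hc3pos.le
      _ = (δ1 / (2 * k)) ^ (2 * k) * (n : ℝ) ^ (2 * k) := by rw [hmon]
      _ = (δ1 / (2 * k) * n) ^ (2 * k) := by rw [mul_pow]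
      _ ≤ 1 := hpow

end Vale.Agent.P037.Block
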