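import Vale.Agent.P037.Abstract

/-! Construction of a pattern-free matrix for the 2×2 diagonal pattern. -/

namespace Vale.Agent.P037

open Finset

variable {n : ℕ}

/-- An ordered copy of the diagonal pattern on rows `a < b` and columns `c < d`. -/
def IsCopy (A : Fin n → Fin n → Bool) (a b c d : Fin n) : Prop :=
  a < b ∧ c < d ∧ A a c = true ∧ A a d = false ∧ A b c = false ∧ A b d = true

instance (A : Fin n → Fin n → Bool) (a b c d : Fin n) : Decidable (IsCopy A a b c d) := by
  unfold IsCopy; infer_instance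

/-- The number of ordered copies of the diagonal pattern. -/
def numCopies (A : Fin n → Fin n → Bool) : ℕ :=
  ∑ a, ∑ b, ∑ c, ∑ d, if IsCopy A a b c d then 1 else 0

/-- Copies with prescribed columns. -/
def numFor (A : Fin n → Fin n → Bool) (c d : Fin n) : ℕ :=
  ∑ a, ∑ b, if IsCopy A a b c d then 1 else 0

lemma sum_numFor (A : Fin n → Fin n → Bool) : ∑ c, ∑ d, numFor A c d = numCopies A := by
  unfold numFor numCopies
  rw [show (∑ c, ∑ d, ∑ a, ∑ b, if IsCopy A a b c d then 1 else 0)
      = ∑ c, ∑ a, ∑ b, ∑ d, (if IsCopy A a b c d then 1 else 0) from ?_]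
  · rw [Finset.sum_comm]
    refine Finset.sum_congr rfl fun a _ => ?_
    rw [Finset.sum_comm]
  · refine Finset.sum_congr rfl fun c _ => ?_
    rw [Finset.sum_comm]
    refine Finset.sum_congr rfl fun a _ => ?_
    rw [Finset.sum_comm]

section Windows

variable (A : Fin n → Fin n → Bool) (win : Fin n → ℕ)

/-- Rows of window `t` of type one-zero on the columns `c, d`. -/
def X (t : ℕ) (c d : Fin n) : ℕ :=
  (univ.filter fun r => win r = t ∧ A r c = true ∧ A r d = false).card

/-- Number of ones of column `c` in window `t`. -/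
def cnt (t : ℕ) (c : Fin n) : ℕ :=
  (univ.filter fun r => win r = t ∧ A r c = true).card

lemma cnt_add_X (t : ℕ) (c d : Fin n) :
    cnt A win t c + X A win t d c = cnt A win t d + X A win t c d := by
  simp only [cnt, X, Finset.card_filter]
  rw [← Finset.sum_add_distrib, ← Finset.sum_add_distrib]
  refine Finset.sum_congr rfl fun r _ => ?_
  cases hc : A r c <;> cases hd : A r d <;> simp

lemma X_le_of_window (t : ℕ) (c d : Fin n) {w : ℕ}
    (hw : (univ.filter fun r => win r = t).card ≤ w) : X A win t c d ≤ w := by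
  refine le_trans (Finset.card_le_card ?_) hw
  intro r hr
  simp only [mem_filter, mem_univ, true_and] at hr ⊢
  exact hr.1

lemma sum_X_range (j : ℕ) (c d : Fin n) :
    ∑ i ∈ range j, X A win i c d
      = (univ.filter fun r => win r < j ∧ A r c = true ∧ A r d = false).card := by
  rw [Finset.card_eq_sum_card_fiberwise (f := win) (t := range j)]
  · refine Finset.sum_congr rfl fun i hi => ?_
    unfold X
    congr 1
    ext r
    simp only [mem_filter, mem_univ, true_and, mem_range] at hi ⊢
    constructor
    · rintro ⟨h1, h2, h3⟩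
      exact ⟨⟨by omega, h2, h3⟩, h1⟩
    · rintro ⟨⟨_, h2, h3⟩, h1⟩
      exact ⟨h1, h2, h3⟩
  · intro r hr
    simp only [coe_filter, mem_univ, true_and, Set.mem_ofPred_eq] at hr
    simpa using hr.1

variable {A win} {L w : ℕ} (hL : ∀ r, win r < L) (hmono : ∀ r r', win r < win r' → r < r')
  (hsize : ∀ t, (univ.filter fun r => win r = t).card ≤ w)

include hL hmono in
lemma T_le_numFor {c d : Fin n} (hcd : c < d) :
    ∑ j ∈ range L, (∑ i ∈ range j, X A win i c d) * X A win j d c ≤ numFor A c d := by
  have hswap : numFor A c d = ∑ b, ∑ a, if IsCopy A a b c d then 1 else 0 := by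
    unfold numFor
    rw [Finset.sum_comm]
  rw [hswap]
  set g : Fin n → ℕ := fun b => ∑ a, if IsCopy A a b c d then 1 else 0 with hg
  have h1 : ∀ j ∈ range L, (∑ i ∈ range j, X A win i c d) * X A win j d c
      ≤ ∑ b ∈ (univ.filter fun b => A b d = true ∧ A b c = false).filter (fun b => win b = j), g b := by
    intro j _
    rw [mul_comm]
    have hcard : X A win j d c
        = ((univ.filter fun b => A b d = true ∧ A b c = false).filter (fun b => win b = j)).card := by
      unfold X
      congr 1
      ext r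
      simp only [mem_filter, mem_univ, true_and]
      tauto
    rw [hcard, ← smul_eq_mul]
    apply Finset.card_nsmul_le_sum
    intro b hb
    simp only [mem_filter, mem_univ, true_and] at hb
    rw [sum_X_range, hg]
    simp only
    rw [← Finset.card_filter]
    apply Finset.card_le_card
    intro r hr
    simp only [mem_filter, mem_univ, true_and] at hr ⊢
    refine ⟨hmono r b (by omega), hcd, hr.2.1, hr.2.2, hb.1.2, hb.1.1⟩
  refine (Finset.sum_le_sum h1).trans ?_
  rw [Finset.sum_fiberwise_of_maps_to (g := win)]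
  · exact Finset.sum_le_sum_of_subset (Finset.filter_subset _ _)
  · intro b _
    exact mem_range.mpr (hL b)

include hL hmono hsize in
lemma pair_bound {c d : Fin n} (hcd : c < d) (a : ℕ) (ha : 0 < a) :
    a * ∑ t ∈ range L, min (X A win t c d) (X A win t d c) ≤ a * (a + w) + numFor A c d := by
  refine (min_sum_bound (fun t => X A win t c d) (fun t => X A win t d c) a w ha ?_ L).trans ?_
  · intro t
    exact (min_le_left _ _).trans (X_le_of_window A win t c d (hsize t))
  · exact Nat.add_le_add_left (T_le_numFor hL hmono hcd) _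

end Windows

section Heavy

variable (A : Fin n → Fin n → Bool)

/-- Number of one-zero columns before `c` for the row pair `a, b`. -/
def predCount (a b c : Fin n) : ℕ :=
  (univ.filter fun e => e < c ∧ A a e = true ∧ A b e = false).card

/-- Row pairs for which `c` is among the first few one-zero columns. -/
def alphaSet (h : ℕ) (c : Fin n) : Finset (Fin n × Fin n) :=
  univ.filter fun p => p.1 < p.2 ∧ A p.1 c = true ∧ A p.2 c = false ∧ predCount A p.1 p.2 c < h

/-- Row pairs for which `c` is a zero-one column with many one-zero columns before it. -/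
def betaSet (h : ℕ) (c : Fin n) : Finset (Fin n × Fin n) :=
  univ.filter fun p => p.1 < p.2 ∧ A p.1 c = false ∧ A p.2 c = true ∧ h ≤ predCount A p.1 p.2 c

lemma sum_alpha (h : ℕ) : ∑ c, (alphaSet A h c).card ≤ n ^ 2 * h := by
  unfold alphaSet
  simp only [Finset.card_filter]
  rw [Finset.sum_comm]
  have key : ∀ p : Fin n × Fin n, (∑ c, if p.1 < p.2 ∧ A p.1 c = true ∧ A p.2 c = false ∧
      predCount A p.1 p.2 c < h then 1 else 0) ≤ h := by
    intro p
    rw [← Finset.card_filter]
    set P := univ.filter fun e => A p.1 e = true ∧ A p.2 e = false with hP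
    refine le_trans (Finset.card_le_card ?_) (card_small_pred P h)
    intro c hc
    simp only [mem_filter, mem_univ, true_and] at hc ⊢
    refine ⟨by simp [hP, hc.2.1, hc.2.2.1], ?_⟩
    have : (P.filter (· < c)) = univ.filter fun e => e < c ∧ A p.1 e = true ∧ A p.2 e = false := by
      ext e
      simp only [hP, mem_filter, mem_univ, true_and]
      tauto
    rw [this]
    exact hc.2.2.2
  refine (Finset.sum_le_sum fun p _ => key p).trans ?_
  simp [Finset.card_univ, pow_two]

lemma sum_beta (h : ℕ) : h * ∑ c, (betaSet A h c).card ≤ numCopies A := by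
  unfold betaSet
  simp only [Finset.card_filter]
  rw [Finset.sum_comm, Finset.mul_sum]
  have hN : numCopies A = ∑ p : Fin n × Fin n, ∑ e, ∑ c,
      if IsCopy A p.1 p.2 e c then 1 else 0 := by
    unfold numCopies
    rw [Fintype.sum_prod_type]
  rw [hN]
  refine Finset.sum_le_sum fun p _ => ?_
  rw [Finset.sum_comm]
  rw [Finset.mul_sum]
  refine Finset.sum_le_sum fun c _ => ?_
  by_cases hc : p.1 < p.2 ∧ A p.1 c = false ∧ A p.2 c = true ∧ h ≤ predCount A p.1 p.2 c
  · rw [if_pos hc, mul_one]
    refine le_trans hc.2.2.2 ?_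
    unfold predCount
    rw [Finset.card_filter]
    refine Finset.sum_le_sum fun e _ => ?_
    by_cases he : e < c ∧ A p.1 e = true ∧ A p.2 e = false
    · rw [if_pos he, if_pos]
      exact ⟨hc.1, he.1, he.2.1, hc.2.1, he.2.2, hc.2.2.1⟩
    · rw [if_neg he]
      exact Nat.zero_le _
  · rw [if_neg hc, mul_zero]
    exact Nat.zero_le _

variable {A} {win : Fin n → ℕ} (hmono : ∀ r r', win r < win r' → r < r')

include hmono in
lemma heavy_le {c₁ c₂ : Fin n} (hc : c₁ < c₂) {t₁ t₂ : ℕ} (ht : t₁ < t₂) (h : ℕ) :
    X A win t₁ c₁ c₂ * X A win t₂ c₂ c₁ ≤ (alphaSet A h c₁).card + (betaSet A h c₂).card := by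
  unfold X
  rw [← Finset.card_product]
  refine le_trans (Finset.card_le_card ?_) (Finset.card_union_le _ _)
  intro p hp
  simp only [mem_product, mem_filter, mem_univ, true_and] at hp
  obtain ⟨⟨h1, h2, h3⟩, h4, h5, h6⟩ := hp
  have hlt : p.1 < p.2 := hmono _ _ (by omega)
  simp only [mem_union, alphaSet, betaSet, mem_filter, mem_univ, true_and]
  by_cases hsmall : predCount A p.1 p.2 c₁ < h
  · exact Or.inl ⟨hlt, h2, h6, hsmall⟩
  · refine Or.inr ⟨hlt, h3, h5, ?_⟩
    refine le_trans (not_lt.mp hsmall) (Finset.card_le_card ?_)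
    intro e he
    simp only [mem_filter, mem_univ, true_and] at he ⊢
    exact ⟨he.1.trans hc, he.2⟩

end Heavy

section Construction

variable {A : Fin n → Fin n → Bool} {win : Fin n → ℕ} {L w : ℕ}

/-- Number of pairs `(c,d)` with `A r c = 1`, `A r d = 0`, level of `c` at most level of `d`. -/
def inv (A : Fin n → Fin n → Bool) (lev : Fin n → ℕ) (r : Fin n) : ℕ :=
  (univ.filter fun p : Fin n × Fin n =>
    A r p.1 = true ∧ A r p.2 = false ∧ lev p.1 ≤ lev p.2).card

/-- The sum of all inversions over the rows is controlled by sums of minima. -/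
lemma sum_inv_le (hL : ∀ r, win r < L) (lev : ℕ → Fin n → ℕ) (s : ℕ)
    (hlev : ∀ t c d, lev t c ≤ lev t d → cnt A win t c ≤ cnt A win t d + s) :
    ∑ r, inv A (lev (win r)) r
      ≤ ∑ p : Fin n × Fin n, ∑ t ∈ range L,
          (min (X A win t p.1 p.2) (X A win t p.2 p.1) + s) := by
  unfold inv
  simp only [Finset.card_filter]
  rw [Finset.sum_comm]
  refine Finset.sum_le_sum fun p _ => ?_
  rw [← Finset.sum_fiberwise_of_maps_to (g := win) (t := range L)
    (fun r _ => mem_range.mpr (hL r))]
  refine Finset.sum_le_sum fun t _ => ?_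
  have h1 : ∑ r ∈ univ with win r = t,
      (if A r p.1 = true ∧ A r p.2 = false ∧ lev (win r) p.1 ≤ lev (win r) p.2 then 1 else 0)
      = if lev t p.1 ≤ lev t p.2 then X A win t p.1 p.2 else 0 := by
    split_ifs with hle
    · unfold X
      rw [Finset.card_filter, Finset.sum_filter]
      refine Finset.sum_congr rfl fun r _ => ?_
      by_cases hr : win r = t
      · subst hr
        simp [hle]
      · simp [hr]
    · rw [Finset.sum_filter]
      refine Finset.sum_eq_zero fun r _ => ?_
      by_cases hr : win r = t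
      · subst hr
        simp [hle]
      · simp [hr]
  rw [h1]
  split_ifs with hle
  · have h2 := hlev t p.1 p.2 hle
    have h3 := cnt_add_X A win t p.1 p.2
    rcases le_total (X A win t p.1 p.2) (X A win t p.2 p.1) with h4 | h4
    · rw [min_eq_left h4]; omega
    · rw [min_eq_right h4]; omega
  · exact Nat.zero_le _

/-- Double sum of minima, bounded through copies. -/
lemma sum_min_le (hL : ∀ r, win r < L) (hmono : ∀ r r', win r < win r' → r < r')
    (hsize : ∀ t, (univ.filter fun r => win r = t).card ≤ w) (a : ℕ) (ha : 0 < a) :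
    a * ∑ p : Fin n × Fin n, ∑ t ∈ range L, min (X A win t p.1 p.2) (X A win t p.2 p.1)
      ≤ n ^ 2 * (a * (a + w)) + 2 * numCopies A := by
  rw [Finset.mul_sum]
  have key : ∀ p : Fin n × Fin n,
      a * ∑ t ∈ range L, min (X A win t p.1 p.2) (X A win t p.2 p.1)
        ≤ a * (a + w) + (numFor A p.1 p.2 + numFor A p.2 p.1) := by
    intro p
    rcases lt_trichotomy p.1 p.2 with h | h | h
    · have := pair_bound (A := A) hL hmono hsize h a ha
      omega
    · have h0 : ∀ t, X A win t p.1 p.2 = 0 := by
        intro t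
        unfold X
        rw [Finset.card_eq_zero, Finset.filter_eq_empty_iff]
        intro r _ hr
        rw [h] at hr
        simp [hr.2.1] at hr
      have hz : ∑ t ∈ range L, min (X A win t p.1 p.2) (X A win t p.2 p.1) = 0 :=
        Finset.sum_eq_zero fun t _ => by rw [h0 t]; simp
      rw [hz]
      simp
    · have := pair_bound (A := A) hL hmono hsize h a ha
      have h2 : ∑ t ∈ range L, min (X A win t p.1 p.2) (X A win t p.2 p.1)
          = ∑ t ∈ range L, min (X A win t p.2 p.1) (X A win t p.1 p.2) :=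
        Finset.sum_congr rfl fun t _ => min_comm _ _
      rw [h2]
      omega
  refine (Finset.sum_le_sum fun p _ => key p).trans ?_
  rw [Finset.sum_add_distrib, Finset.sum_add_distrib]
  have h1 : ∑ p : Fin n × Fin n, numFor A p.1 p.2 = numCopies A := by
    rw [Fintype.sum_prod_type]
    exact sum_numFor A
  have h2 : ∑ p : Fin n × Fin n, numFor A p.2 p.1 = numCopies A := by
    rw [Fintype.sum_prod_type]
    simp only
    rw [Finset.sum_comm]
    exact sum_numFor A
  rw [h1, h2]
  simp [Finset.card_univ, pow_two]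
  omega

/-- A matrix produced from level functions is free of the pattern. -/
lemma free_of_levels (hmono : ∀ r r', win r < win r' → r < r')
    (lev : ℕ → Fin n → ℕ) (Z : Finset (Fin n)) (j : Fin n → ℕ) (g h : ℕ) (hg : 0 < g)
    (hgap : ∀ r c d, d ∉ Z → lev (win r) c < lev (win r) d →
      cnt A win (win r) c + 2 * g ≤ cnt A win (win r) d)
    (hα : ∀ c, c ∉ Z → (alphaSet A h c).card < 2 * g ^ 2)
    (hβ : ∀ c, c ∉ Z → (betaSet A h c).card < 2 * g ^ 2)
    (B : Fin n → Fin n → Bool)
    (hB : ∀ r c, B r c = true ↔ (c ∉ Z ∧ j r ≤ lev (win r) c))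
    (a b c d : Fin n) : ¬ IsCopy B a b c d := by
  rintro ⟨hab, hcd, h1, h2, h3, h4⟩
  have h1' := (hB a c).1 h1
  have h4' := (hB b d).1 h4
  have h2' : ¬ (d ∉ Z ∧ j a ≤ lev (win a) d) := fun hh => by
    have := (hB a d).2 hh
    simp [h2] at this
  have h3' : ¬ (c ∉ Z ∧ j b ≤ lev (win b) c) := fun hh => by
    have := (hB b c).2 hh
    simp [h3] at this
  have hcZ := h1'.1
  have hdZ := h4'.1
  have l1 : lev (win a) d < lev (win a) c := by
    by_contra hh
    exact h2' ⟨hdZ, by omega⟩
  have l2 : lev (win b) c < lev (win b) d := by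
    by_contra hh
    exact h3' ⟨hcZ, by omega⟩
  have hwin : win a ≤ win b := by
    by_contra hh
    have := hmono b a (by omega)
    exact absurd hab (not_lt.mpr this.le)
  rcases hwin.lt_or_eq with hlt | heq
  · have g1 := hgap a d c hcZ l1
    have g2 := hgap b c d hdZ l2
    have x1 := cnt_add_X A win (win a) c d
    have x2 := cnt_add_X A win (win b) c d
    have y1 : 2 * g ≤ X A win (win a) c d := by omega
    have y2 : 2 * g ≤ X A win (win b) d c := by omega
    have hh := heavy_le (A := A) (win := win) hmono hcd hlt h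
    have hprod : 2 * g * (2 * g) ≤ X A win (win a) c d * X A win (win b) d c :=
      Nat.mul_le_mul y1 y2
    have ha := hα c hcZ
    have hb := hβ d hdZ
    nlinarith
  · rw [heq] at l1
    omega

/-- Main construction. -/
theorem core_construction (hL : ∀ r, win r < L) (hmono : ∀ r r', win r < win r' → r < r')
    (hsize : ∀ t, (univ.filter fun r => win r = t).card ≤ w)
    (g q τ h a : ℕ) (hg : 0 < g) (hq : 0 < q) (ha : 0 < a) :
    ∃ (B : Fin n → Fin n → Bool) (z₁ z₂ z₃ I : ℕ),
      (∀ x y u v, ¬ IsCopy B x y u v) ∧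
      q * z₁ ≤ L * n ∧
      2 * g ^ 2 * z₂ ≤ n ^ 2 * h ∧
      h * (2 * g ^ 2 * z₃) ≤ numCopies A ∧
      a * I ≤ n ^ 2 * (a * (a + w)) + 2 * numCopies A + a * (n ^ 2 * (L * (2 * g * q))) ∧
      τ ^ 2 * (univ.filter fun p : Fin n × Fin n => A p.1 p.2 ≠ B p.1 p.2).card
        ≤ τ ^ 2 * (n * (z₁ + z₂ + z₃)) + n * (τ ^ 2 * (4 * τ)) + n * I := by
  classical
  -- levels in each window
  have hlevels := fun t : ℕ => exists_levels (fun c : Fin n => cnt A win t c) g q hg hq
  choose lev Zt hZt hlev hgap using hlevels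
  set Z₁ : Finset (Fin n) := (range L).biUnion Zt with hZ₁
  set Z₂ : Finset (Fin n) := univ.filter fun c => 2 * g ^ 2 ≤ (alphaSet A h c).card with hZ₂
  set Z₃ : Finset (Fin n) := univ.filter fun c => 2 * g ^ 2 ≤ (betaSet A h c).card with hZ₃
  set Z : Finset (Fin n) := Z₁ ∪ Z₂ ∪ Z₃ with hZ
  -- choice of thresholds
  have hrow : ∀ r : Fin n, ∃ j : ℕ,
      (univ.filter fun c => A r c ≠ decide (j ≤ lev (win r) c)).card ≤ 4 * τ ∨
        τ ^ 2 ≤ inv A (lev (win r)) r := by
    intro r
    rcases exists_threshold (lev (win r)) (A r) τ with ⟨j, hj⟩ | hinv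
    · exact ⟨j, Or.inl hj⟩
    · exact ⟨0, Or.inr hinv⟩
  choose j hj using hrow
  set B : Fin n → Fin n → Bool := fun r c => decide (c ∉ Z ∧ j r ≤ lev (win r) c) with hBdef
  have hB : ∀ r c, B r c = true ↔ (c ∉ Z ∧ j r ≤ lev (win r) c) := by
    intro r c
    simp [hBdef]
  refine ⟨B, Z₁.card, Z₂.card, Z₃.card, ∑ r, inv A (lev (win r)) r, ?_, ?_, ?_, ?_, ?_, ?_⟩
  · -- pattern free
    refine free_of_levels (A := A) hmono lev Z j g h hg ?_ ?_ ?_ B hB
    · intro r c d hd hlt
      refine hgap (win r) c d ?_ hlt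
      intro hmem
      apply hd
      simp only [hZ, hZ₁, mem_union, mem_biUnion, mem_range]
      exact Or.inl (Or.inl ⟨win r, hL r, hmem⟩)
    · intro c hc
      by_contra hcon
      apply hc
      simp only [hZ, hZ₂, mem_union, mem_filter, mem_univ, true_and]
      exact Or.inl (Or.inr (not_lt.mp hcon))
    · intro c hc
      by_contra hcon
      apply hc
      simp only [hZ, hZ₃, mem_union, mem_filter, mem_univ, true_and]
      exact Or.inr (not_lt.mp hcon)
  · -- size of Z₁
    calc q * Z₁.card ≤ q * ∑ t ∈ range L, (Zt t).card :=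
          Nat.mul_le_mul_left _ Finset.card_biUnion_le
      _ = ∑ t ∈ range L, q * (Zt t).card := Finset.mul_sum _ _ _
      _ ≤ ∑ _t ∈ range L, n := Finset.sum_le_sum fun t _ => by
          have := hZt t
          simpa using this
      _ = L * n := by simp
  · -- size of Z₂
    calc 2 * g ^ 2 * Z₂.card = Z₂.card • (2 * g ^ 2) := by rw [smul_eq_mul, mul_comm]
      _ ≤ ∑ c ∈ Z₂, (alphaSet A h c).card :=
          Finset.card_nsmul_le_sum _ _ _ (fun c hc => by simpa [hZ₂] using hc)
      _ ≤ ∑ c, (alphaSet A h c).card := Finset.sum_le_sum_of_subset (subset_univ _)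
      _ ≤ n ^ 2 * h := sum_alpha A h
  · -- size of Z₃
    refine le_trans ?_ (sum_beta A h)
    apply Nat.mul_le_mul_left
    calc 2 * g ^ 2 * Z₃.card = Z₃.card • (2 * g ^ 2) := by rw [smul_eq_mul, mul_comm]
      _ ≤ ∑ c ∈ Z₃, (betaSet A h c).card :=
          Finset.card_nsmul_le_sum _ _ _ (fun c hc => by simpa [hZ₃] using hc)
      _ ≤ ∑ c, (betaSet A h c).card := Finset.sum_le_sum_of_subset (subset_univ _)
  · -- inversions
    have h1 := sum_inv_le (A := A) hL lev (2 * g * q) hlev
    have h2 := sum_min_le (A := A) hL hmono hsize a ha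
    have h3 : ∑ p : Fin n × Fin n, ∑ t ∈ range L,
          (min (X A win t p.1 p.2) (X A win t p.2 p.1) + 2 * g * q)
        = ∑ p : Fin n × Fin n, ∑ t ∈ range L, min (X A win t p.1 p.2) (X A win t p.2 p.1)
          + n ^ 2 * (L * (2 * g * q)) := by
      simp only [Finset.sum_add_distrib]
      simp [Finset.card_univ, pow_two]
    rw [h3] at h1
    calc a * ∑ r, inv A (lev (win r)) r
        ≤ a * (∑ p : Fin n × Fin n, ∑ t ∈ range L, min (X A win t p.1 p.2) (X A win t p.2 p.1)
          + n ^ 2 * (L * (2 * g * q))) := Nat.mul_le_mul_left _ h1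
      _ = a * (∑ p : Fin n × Fin n, ∑ t ∈ range L, min (X A win t p.1 p.2) (X A win t p.2 p.1))
          + a * (n ^ 2 * (L * (2 * g * q))) := by ring
      _ ≤ _ := Nat.add_le_add_right h2 _
  · -- cost
    have hHam : (univ.filter fun p : Fin n × Fin n => A p.1 p.2 ≠ B p.1 p.2).card
        ≤ ∑ r, (Z.card + (univ.filter fun c => A r c ≠ decide (j r ≤ lev (win r) c)).card) := by
      rw [Finset.card_filter, Fintype.sum_prod_type]
      refine Finset.sum_le_sum fun r _ => ?_
      simp only
      rw [← Finset.card_filter]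
      refine le_trans (Finset.card_le_card ?_) (Finset.card_union_le _ _)
      intro c hc
      simp only [mem_filter, mem_univ, true_and, mem_union] at hc ⊢
      by_cases hcZ : c ∈ Z
      · exact Or.inl hcZ
      · refine Or.inr ?_
        have : B r c = decide (j r ≤ lev (win r) c) := by
          simp [hBdef, hcZ]
        rw [← this]
        exact hc
    have hrowcost : ∀ r : Fin n,
        τ ^ 2 * (univ.filter fun c => A r c ≠ decide (j r ≤ lev (win r) c)).card
          ≤ τ ^ 2 * (4 * τ) + n * inv A (lev (win r)) r := by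
      intro r
      rcases hj r with h1 | h1
      · have := Nat.mul_le_mul_left (τ ^ 2) h1
        omega
      · have h2 : (univ.filter fun c => A r c ≠ decide (j r ≤ lev (win r) c)).card ≤ n := by
          simpa using Finset.card_le_univ (univ.filter fun c => A r c ≠ decide (j r ≤ lev (win r) c))
        have h3 : τ ^ 2 * (univ.filter fun c => A r c ≠ decide (j r ≤ lev (win r) c)).card
            ≤ inv A (lev (win r)) r * n := Nat.mul_le_mul h1 h2
        rw [mul_comm n]
        omega
    have hZcard : Z.card ≤ Z₁.card + Z₂.card + Z₃.card := by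
      refine (Finset.card_union_le _ _).trans ?_
      exact Nat.add_le_add_right (Finset.card_union_le _ _) _
    calc τ ^ 2 * (univ.filter fun p : Fin n × Fin n => A p.1 p.2 ≠ B p.1 p.2).card
        ≤ τ ^ 2 * ∑ r, (Z.card + (univ.filter fun c => A r c ≠ decide (j r ≤ lev (win r) c)).card) :=
          Nat.mul_le_mul_left _ hHam
      _ = ∑ r, (τ ^ 2 * Z.card
            + τ ^ 2 * (univ.filter fun c => A r c ≠ decide (j r ≤ lev (win r) c)).card) := by
          rw [Finset.mul_sum]
          exact Finset.sum_congr rfl fun r _ => by ring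
      _ ≤ ∑ r : Fin n, (τ ^ 2 * (Z₁.card + Z₂.card + Z₃.card)
            + (τ ^ 2 * (4 * τ) + n * inv A (lev (win r)) r)) :=
          Finset.sum_le_sum fun r _ =>
            Nat.add_le_add (Nat.mul_le_mul_left _ hZcard) (hrowcost r)
      _ = τ ^ 2 * (n * (Z₁.card + Z₂.card + Z₃.card)) + n * (τ ^ 2 * (4 * τ))
            + n * ∑ r, inv A (lev (win r)) r := by
          simp only [Finset.sum_add_distrib, Finset.mul_sum]
          simp [Finset.card_univ]
          ring

end Construction

end Vale.Agent.P037
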