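import Vale.Agent.P037.Params
import Vale.Agent.P037.Statement

/-! Polynomial removal for the 2×2 diagonal pattern: real parameter form and its row reversal. -/

namespace Vale.Agent.P037

open Finset

variable {n : ℕ}

/-- The pattern `[[1,0],[0,1]]`. -/
def diagPattern : Fin 2 → Fin 2 → Bool := ![![true, false], ![false, true]]

/-- The pattern `[[0,1],[1,0]]`. -/
def antiPattern : Fin 2 → Fin 2 → Bool := ![![false, true], ![true, false]]

lemma strictMono_vec2 {a b : Fin n} (h : a < b) : StrictMono ![a, b] := by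
  intro i j hij
  fin_cases i <;> fin_cases j <;> first | exact h | (exact absurd hij (by decide))

lemma numCopies_eq_card (A : Fin n → Fin n → Bool) :
    numCopies A = (univ.filter fun p : Fin n × Fin n × Fin n × Fin n =>
      IsCopy A p.1 p.2.1 p.2.2.1 p.2.2.2).card := by
  rw [Finset.card_filter]
  simp only [Fintype.sum_prod_type]
  rfl

/-- Real form of the bound, in terms of the concrete copy predicate. -/
theorem main_real (hn : 1 ≤ n) (ε : ℝ) (hε : 0 < ε) (hε1 : ε < 1) (A : Fin n → Fin n → Bool)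
    (hfar : ∀ B : Fin n → Fin n → Bool, (∀ x y u v, ¬ IsCopy B x y u v) →
      ε * (n : ℝ) ^ 2 ≤ (univ.filter fun p : Fin n × Fin n => A p.1 p.2 ≠ B p.1 p.2).card) :
    1 / ((2 ^ 114) ^ 4 * 3 ^ 84 : ℝ) * ε ^ 84 * (n : ℝ) ^ 4 ≤ numCopies A := by
  set N := numCopies A with hNdef
  set m : ℕ := ⌈2 / ε⌉₊ with hm
  have hmge : 2 / ε ≤ m := Nat.le_ceil _
  have hmlt : (m : ℝ) < 2 / ε + 1 := Nat.ceil_lt_add_one (by positivity)
  have h2 : 2 ≤ (m : ℝ) * ε := by
    rw [div_le_iff₀ hε] at hmge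
    exact hmge
  have h3 : (m : ℝ) * ε ≤ 3 := by
    have h4 : (2 / ε + 1) * ε = 2 + ε := by field_simp
    have h5 : (m : ℝ) * ε ≤ (2 / ε + 1) * ε := by
      exact mul_le_mul_of_nonneg_right hmlt.le hε.le
    linarith
  have hmpos : 0 < m := by
    rcases Nat.eq_zero_or_pos m with h0 | h0
    · rw [h0] at h2
      norm_num at h2
    · exact h0
  have hnR : (1 : ℝ) ≤ n := by exact_mod_cast hn
  have hnsq : 0 < (n : ℝ) ^ 2 := by positivity
  have hmε0 : 0 ≤ (m : ℝ) * ε := by positivity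
  have hpowle : ∀ k : ℕ, ((m : ℝ) * ε) ^ k ≤ 3 ^ k := fun k => pow_le_pow_left₀ hmε0 h3 k
  by_cases hcase : n < 2 ^ 114 * m ^ 21
  · -- small `n`: at least one copy exists
    have hN1 : 1 ≤ N := by
      by_contra hcon
      have hN0 : N = 0 := by omega
      have hfree : ∀ x y u v, ¬ IsCopy A x y u v := by
        intro x y u v hc
        have hpos : 0 < N := by
          rw [hNdef, numCopies_eq_card]
          apply Finset.card_pos.mpr
          exact ⟨(x, y, u, v), by simpa using hc⟩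
        omega
      have := hfar A hfree
      have h0 : (univ.filter fun p : Fin n × Fin n => A p.1 p.2 ≠ A p.1 p.2).card = 0 := by
        simp
      rw [h0] at this
      have hpos : 0 < ε * (n : ℝ) ^ 2 := by positivity
      simp at this
      linarith
    have hnlt : (n : ℝ) ≤ 2 ^ 114 * (m : ℝ) ^ 21 := by
      exact_mod_cast hcase.le
    have hn4 : (n : ℝ) ^ 4 ≤ (2 ^ 114 * (m : ℝ) ^ 21) ^ 4 :=
      pow_le_pow_left₀ (by positivity) hnlt 4
    have hmain : ε ^ 84 * (n : ℝ) ^ 4 ≤ (2 ^ 114) ^ 4 * 3 ^ 84 := by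
      calc ε ^ 84 * (n : ℝ) ^ 4 ≤ ε ^ 84 * (2 ^ 114 * (m : ℝ) ^ 21) ^ 4 :=
            mul_le_mul_of_nonneg_left hn4 (by positivity)
        _ = (2 ^ 114) ^ 4 * ((m : ℝ) * ε) ^ 84 := by ring
        _ ≤ (2 ^ 114) ^ 4 * 3 ^ 84 :=
            mul_le_mul_of_nonneg_left (hpowle 84) (by positivity)
    have hN1R : (1 : ℝ) ≤ N := by exact_mod_cast hN1
    rw [one_div, inv_mul_eq_div, div_mul_eq_mul_div, div_le_iff₀ (by positivity)]
    calc ε ^ 84 * (n : ℝ) ^ 4 ≤ (2 ^ 114) ^ 4 * 3 ^ 84 := hmain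
      _ ≤ (N : ℝ) * ((2 ^ 114) ^ 4 * 3 ^ 84) := by
          have hp : (0 : ℝ) ≤ (2 ^ 114) ^ 4 * 3 ^ 84 := by positivity
          nlinarith
  · -- large `n`
    have hlarge : 2 ^ 114 * m ^ 21 ≤ n := not_lt.mp hcase
    have hNlt : n ^ 4 < 2 ^ 229 * m ^ 42 * N := by
      by_contra hcon
      obtain ⟨B, hB, hHam⟩ := close_of_few m hmpos hlarge A (not_lt.mp hcon)
      have h1 := hfar B hB
      have h4 : (m : ℝ) * ((univ.filter fun p : Fin n × Fin n => A p.1 p.2 ≠ B p.1 p.2).card : ℝ)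
          ≤ (n : ℝ) ^ 2 := by
        exact_mod_cast hHam
      have h5 : (m : ℝ) * (ε * (n : ℝ) ^ 2) ≤ (n : ℝ) ^ 2 :=
        le_trans (mul_le_mul_of_nonneg_left h1 (by positivity)) h4
      have h6 : 2 * (n : ℝ) ^ 2 ≤ (m : ℝ) * ε * (n : ℝ) ^ 2 :=
        mul_le_mul_of_nonneg_right h2 hnsq.le
      nlinarith
    have hNltR : (n : ℝ) ^ 4 ≤ 2 ^ 229 * (m : ℝ) ^ 42 * N := by
      have h := (Nat.cast_le (α := ℝ)).mpr hNlt.le
      simpa only [Nat.cast_mul, Nat.cast_pow, Nat.cast_ofNat] using h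
    have hε42 : ε ^ 42 ≤ 1 := pow_le_one₀ hε.le hε1.le
    have hmain : ε ^ 84 * (n : ℝ) ^ 4 ≤ 2 ^ 229 * 3 ^ 42 * (N : ℝ) := by
      have hNnn : (0 : ℝ) ≤ N := by positivity
      calc ε ^ 84 * (n : ℝ) ^ 4 ≤ ε ^ 84 * (2 ^ 229 * (m : ℝ) ^ 42 * N) :=
            mul_le_mul_of_nonneg_left hNltR (by positivity)
        _ = ε ^ 42 * (2 ^ 229 * (((m : ℝ) * ε) ^ 42 * N)) := by ring
        _ ≤ 1 * (2 ^ 229 * (3 ^ 42 * N)) := by
            have h20 : (0 : ℝ) ≤ 2 ^ 229 := pow_nonneg (by norm_num) _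
            apply mul_le_mul hε42 _ (mul_nonneg h20 (mul_nonneg (pow_nonneg hmε0 42) hNnn))
              (by norm_num)
            apply mul_le_mul_of_nonneg_left _ h20
            exact mul_le_mul_of_nonneg_right (hpowle 42) hNnn
        _ = 2 ^ 229 * 3 ^ 42 * (N : ℝ) := by ring
    rw [one_div, inv_mul_eq_div, div_mul_eq_mul_div, div_le_iff₀ (by positivity)]
    refine hmain.trans ?_
    have hNnn : (0 : ℝ) ≤ N := by positivity
    rw [mul_comm]
    apply mul_le_mul_of_nonneg_left _ hNnn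
    norm_num

lemma isCopy_of_ordered {A : Fin n → Fin n → Bool} {ρ κ : Fin 2 → Fin n}
    (h : IsOrderedCopy diagPattern A ρ κ) : IsCopy A (ρ 0) (ρ 1) (κ 0) (κ 1) := by
  obtain ⟨h1, h2, h3⟩ := h
  refine ⟨h1 (by decide), h2 (by decide), ?_, ?_, ?_, ?_⟩
  · simpa [diagPattern] using h3 0 0
  · simpa [diagPattern] using h3 0 1
  · simpa [diagPattern] using h3 1 0
  · simpa [diagPattern] using h3 1 1

lemma numCopies_le_ordered (A : Fin n → Fin n → Bool) :
    numCopies A ≤ numOrderedCopies diagPattern A := by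
  rw [numCopies_eq_card]
  unfold numOrderedCopies
  set T := univ.filter fun p : Fin n × Fin n × Fin n × Fin n =>
      IsCopy A p.1 p.2.1 p.2.2.1 p.2.2.2 with hT
  set f : Fin n × Fin n × Fin n × Fin n → (Fin 2 → Fin n) × (Fin 2 → Fin n) :=
    fun p => (![p.1, p.2.1], ![p.2.2.1, p.2.2.2]) with hf
  have hinj : Set.InjOn f T := by
    intro p _ p' _ heq
    have h1 := congrFun (congrArg Prod.fst heq) 0
    have h2 := congrFun (congrArg Prod.fst heq) 1
    have h3 := congrFun (congrArg Prod.snd heq) 0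
    have h4 := congrFun (congrArg Prod.snd heq) 1
    simp [hf] at h1 h2 h3 h4
    ext <;> simp [h1, h2, h3, h4]
  rw [← Finset.card_image_of_injOn hinj, ← Set.ncard_coe_finset]
  apply Set.ncard_le_ncard _ (Set.toFinite _)
  intro q hq
  simp only [coe_image, Set.mem_image, mem_coe, hT, mem_filter, mem_univ, true_and] at hq
  obtain ⟨p, hp, rfl⟩ := hq
  obtain ⟨h1, h2, h3, h4, h5, h6⟩ := hp
  refine ⟨strictMono_vec2 h1, strictMono_vec2 h2, ?_⟩
  intro i j
  fin_cases i <;> fin_cases j <;> simp [hf, diagPattern, h3, h4, h5, h6]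

/-- Reversal of the row order. -/
def rowRev (A : Fin n → Fin n → Bool) : Fin n → Fin n → Bool := fun r c => A (Fin.rev r) c

lemma numCopies_rev_le_ordered (A : Fin n → Fin n → Bool) :
    numCopies (rowRev A) ≤ numOrderedCopies antiPattern A := by
  rw [numCopies_eq_card]
  unfold numOrderedCopies
  set T := univ.filter fun p : Fin n × Fin n × Fin n × Fin n =>
      IsCopy (rowRev A) p.1 p.2.1 p.2.2.1 p.2.2.2 with hT
  set f : Fin n × Fin n × Fin n × Fin n → (Fin 2 → Fin n) × (Fin 2 → Fin n) :=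
    fun p => (![Fin.rev p.2.1, Fin.rev p.1], ![p.2.2.1, p.2.2.2]) with hf
  have hinj : Set.InjOn f T := by
    intro p _ p' _ heq
    have h1 := congrFun (congrArg Prod.fst heq) 0
    have h2 := congrFun (congrArg Prod.fst heq) 1
    have h3 := congrFun (congrArg Prod.snd heq) 0
    have h4 := congrFun (congrArg Prod.snd heq) 1
    simp [hf] at h1 h2 h3 h4
    ext <;> simp [h1, h2, h3, h4]
  rw [← Finset.card_image_of_injOn hinj, ← Set.ncard_coe_finset]
  apply Set.ncard_le_ncard _ (Set.toFinite _)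
  intro q hq
  simp only [coe_image, Set.mem_image, mem_coe, hT, mem_filter, mem_univ, true_and] at hq
  obtain ⟨p, hp, rfl⟩ := hq
  obtain ⟨h1, h2, h3, h4, h5, h6⟩ := hp
  refine ⟨strictMono_vec2 (Fin.rev_lt_rev.mpr h1), strictMono_vec2 h2, ?_⟩
  simp only [rowRev] at h3 h4 h5 h6
  intro i j
  fin_cases i <;> fin_cases j <;> simp [hf, antiPattern, h3, h4, h5, h6]

/-- Both patterns at once. -/
theorem main_both (H : Fin 2 → Fin 2 → Bool) (hH : H = diagPattern ∨ H = antiPattern)
    (hn : 1 ≤ n) (ε : ℝ) (hε : 0 < ε) (hε1 : ε < 1) (A : Fin n → Fin n → Bool)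
    (hfar : IsFarFrom H A ε) :
    1 / ((2 ^ 114) ^ 4 * 3 ^ 84 : ℝ) * ε ^ 84 * (n : ℝ) ^ 4 ≤ numOrderedCopies H A := by
  rcases hH with rfl | rfl
  · have h1 := main_real hn ε hε hε1 A (fun B hB => by
      have : IsPatternFree diagPattern B := fun ρ κ hc =>
        hB _ _ _ _ (isCopy_of_ordered hc)
      exact hfar B this)
    refine h1.trans ?_
    exact_mod_cast numCopies_le_ordered A
  · have h1 := main_real hn ε hε hε1 (rowRev A) (fun B hB => by
      have hfree : IsPatternFree antiPattern (rowRev B) := by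
        rintro ρ κ ⟨h1, h2, h3⟩
        refine hB (Fin.rev (ρ 1)) (Fin.rev (ρ 0)) (κ 0) (κ 1)
          ⟨Fin.rev_lt_rev.mpr (h1 (by decide)), h2 (by decide), ?_, ?_, ?_, ?_⟩
        · simpa [rowRev, antiPattern] using h3 1 0
        · simpa [rowRev, antiPattern] using h3 1 1
        · simpa [rowRev, antiPattern] using h3 0 0
        · simpa [rowRev, antiPattern] using h3 0 1
      have h2 := hfar (rowRev B) hfree
      have h3 : hammingDist A (rowRev B)
          = (univ.filter fun p : Fin n × Fin n => rowRev A p.1 p.2 ≠ B p.1 p.2).card := by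
        unfold hammingDist
        apply Finset.card_bij (fun p _ => (Fin.rev p.1, p.2))
        · intro p hp
          simp only [mem_filter, mem_univ, true_and] at hp ⊢
          simpa [rowRev] using hp
        · intro p _ p' _ heq
          have h1 := congrArg Prod.fst heq
          have h2 := congrArg Prod.snd heq
          simp at h1 h2
          exact Prod.ext h1 h2
        · intro p hp
          refine ⟨(Fin.rev p.1, p.2), ?_, by simp⟩
          simp only [mem_filter, mem_univ, true_and] at hp ⊢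
          simpa [rowRev] using hp
      rw [h3] at h2
      exact h2)
    refine h1.trans ?_
    exact_mod_cast numCopies_rev_le_ordered A

end Vale.Agent.P037
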