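import Vale.Agent.P037.GammaPath
import Vale.Agent.P037.Abstract

/-! Construction of a pattern-free matrix for the 2×2 pattern `[[1,1],[1,0]]`. -/

namespace Vale.Agent.P037.Gamma

open Finset

variable {n : ℕ}

/-- An ordered copy of `[[1,1],[1,0]]` on rows `a < b` and columns `c < d`. -/
def IsCopy (A : Fin n → Fin n → Bool) (a b c d : Fin n) : Prop :=
  a < b ∧ c < d ∧ A a c = true ∧ A a d = true ∧ A b c = true ∧ A b d = false

instance (A : Fin n → Fin n → Bool) (a b c d : Fin n) : Decidable (IsCopy A a b c d) := by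
  unfold IsCopy; infer_instance

/-- The number of ordered copies of the pattern. -/
def numCopies (A : Fin n → Fin n → Bool) : ℕ :=
  ∑ a, ∑ b, ∑ c, ∑ d, if IsCopy A a b c d then 1 else 0

section Heavy

variable (A : Fin n → Fin n → Bool)

/-- Number of columns before `c` that contain ones in both rows `a, b`. -/
def predCount (a b c : Fin n) : ℕ :=
  (univ.filter fun e => e < c ∧ A a e = true ∧ A b e = true).card

/-- Row pairs for which `c` is among the first few one-one columns. -/
def alphaSet (h : ℕ) (c : Fin n) : Finset (Fin n × Fin n) :=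
  univ.filter fun p => p.1 < p.2 ∧ A p.1 c = true ∧ A p.2 c = true ∧ predCount A p.1 p.2 c < h

/-- Row pairs for which `c` is a one-zero column with many one-one columns before it. -/
def betaSet (h : ℕ) (c : Fin n) : Finset (Fin n × Fin n) :=
  univ.filter fun p => p.1 < p.2 ∧ A p.1 c = true ∧ A p.2 c = false ∧ h ≤ predCount A p.1 p.2 c

lemma sum_alpha (h : ℕ) : ∑ c, (alphaSet A h c).card ≤ n ^ 2 * h := by
  unfold alphaSet
  simp only [Finset.card_filter]
  rw [Finset.sum_comm]
  have key : ∀ p : Fin n × Fin n, (∑ c, if p.1 < p.2 ∧ A p.1 c = true ∧ A p.2 c = true ∧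
      predCount A p.1 p.2 c < h then 1 else 0) ≤ h := by
    intro p
    rw [← Finset.card_filter]
    set P := univ.filter fun e => A p.1 e = true ∧ A p.2 e = true with hP
    refine le_trans (Finset.card_le_card ?_) (card_small_pred P h)
    intro c hc
    simp only [mem_filter, mem_univ, true_and] at hc ⊢
    refine ⟨by simp [hP, hc.2.1, hc.2.2.1], ?_⟩
    have : (P.filter (· < c)) = univ.filter fun e => e < c ∧ A p.1 e = true ∧ A p.2 e = true := by
      ext e
      simp only [hP, mem_filter, mem_univ, true_and]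
      tauto
    rw [this]
    exact hc.2.2.2
  refine (Finset.sum_le_sum fun p _ => key p).trans ?_
  simp [Finset.card_univ, pow_two]

lemma sum_beta (h : ℕ) : h * ∑ c, (betaSet A h c).card ≤ numCopies A := by
  unfold betaSet
  simp only [Finset.card_filter]
  rw [Finset.sum_comm, Finset.mul_sum]
  have hN : numCopies A = ∑ p : Fin n × Fin n, ∑ e, ∑ c,
      if IsCopy A p.1 p.2 e c then 1 else 0 := by
    unfold numCopies
    rw [Fintype.sum_prod_type]
  rw [hN]
  refine Finset.sum_le_sum fun p _ => ?_
  rw [Finset.sum_comm]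
  rw [Finset.mul_sum]
  refine Finset.sum_le_sum fun c _ => ?_
  by_cases hc : p.1 < p.2 ∧ A p.1 c = true ∧ A p.2 c = false ∧ h ≤ predCount A p.1 p.2 c
  · rw [if_pos hc, mul_one]
    refine le_trans hc.2.2.2 ?_
    unfold predCount
    rw [Finset.card_filter]
    refine Finset.sum_le_sum fun e _ => ?_
    by_cases he : e < c ∧ A p.1 e = true ∧ A p.2 e = true
    · rw [if_pos he, if_pos]
      exact ⟨hc.1, he.1, he.2.1, hc.2.1, he.2.2, hc.2.2.1⟩
    · rw [if_neg he]
      exact Nat.zero_le _
  · rw [if_neg hc, mul_zero]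
    exact Nat.zero_le _

lemma heavy_le {c₁ c₂ : Fin n} (hc : c₁ < c₂) (h : ℕ) (F G : Finset (Fin n))
    (hF : ∀ a ∈ F, A a c₁ = true ∧ A a c₂ = true) (hG : ∀ b ∈ G, A b c₁ = true ∧ A b c₂ = false)
    (hFG : ∀ a ∈ F, ∀ b ∈ G, a < b) :
    F.card * G.card ≤ (alphaSet A h c₁).card + (betaSet A h c₂).card := by
  rw [← Finset.card_product]
  refine le_trans (Finset.card_le_card ?_) (Finset.card_union_le _ _)
  intro p hp
  simp only [mem_product] at hp
  obtain ⟨hpF, hpG⟩ := hp
  have hlt := hFG _ hpF _ hpG
  obtain ⟨h1, h2⟩ := hF _ hpF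
  obtain ⟨h3, h4⟩ := hG _ hpG
  simp only [mem_union, alphaSet, betaSet, mem_filter, mem_univ, true_and]
  by_cases hsmall : predCount A p.1 p.2 c₁ < h
  · exact Or.inl ⟨hlt, h1, h3, hsmall⟩
  · refine Or.inr ⟨hlt, h2, h4, ?_⟩
    refine le_trans (not_lt.mp hsmall) (Finset.card_le_card ?_)
    intro e he
    simp only [mem_filter, mem_univ, true_and] at he ⊢
    exact ⟨he.1.trans hc, he.2⟩

end Heavy

section Forest

variable (A : Fin n → Fin n → Bool) (Z : Finset (Fin n)) (Θ : ℕ)

/-- Graph of frequently co-occurring columns outside `Z`, among the rows of `S`. -/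
def Edge (S : Finset (Fin n)) (u v : Fin n) : Prop :=
  u ≠ v ∧ u ∉ Z ∧ v ∉ Z ∧ Θ ≤ cooc A S u v

/-- `x` lies below `y` and both are connected using only columns up to `y`. -/
def Reach (S : Finset (Fin n)) (x y : Fin n) : Prop :=
  x < y ∧ Relation.ReflTransGen (fun u v => Edge A Z Θ S u v ∧ u ≤ y ∧ v ≤ y) x y

variable {A Z Θ} {S S' : Finset (Fin n)}

lemma rtg_symm {α : Type*} {r : α → α → Prop} (hr : ∀ a b, r a b → r b a) {a b : α}
    (h : Relation.ReflTransGen r a b) : Relation.ReflTransGen r b a := by
  induction h with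
  | refl => exact Relation.ReflTransGen.refl
  | tail _ hbc ih => exact Relation.ReflTransGen.head (hr _ _ hbc) ih

lemma edge_symm {u v : Fin n} (h : Edge A Z Θ S u v) : Edge A Z Θ S v u :=
  ⟨h.1.symm, h.2.2.1, h.2.1, by rw [cooc_comm]; exact h.2.2.2⟩

lemma rtg_mono_top {x y y' : Fin n} (hy : y ≤ y')
    (h : Relation.ReflTransGen (fun u v => Edge A Z Θ S u v ∧ u ≤ y ∧ v ≤ y) x y) :
    Relation.ReflTransGen (fun u v => Edge A Z Θ S u v ∧ u ≤ y' ∧ v ≤ y') x y := by
  refine Relation.ReflTransGen.mono (p := fun u v => Edge A Z Θ S u v ∧ u ≤ y' ∧ v ≤ y') ?_ x y h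
  rintro u v ⟨h1, h2, h3⟩
  exact ⟨h1, h2.trans hy, h3.trans hy⟩

/-- Transitivity of the relation `Reach`. -/
lemma Reach.trans {x y z : Fin n} (h1 : Reach A Z Θ S x y) (h2 : Reach A Z Θ S y z) :
    Reach A Z Θ S x z :=
  ⟨h1.1.trans h2.1, (rtg_mono_top h2.1.le h1.2).trans h2.2⟩

/-- Forest property of the relation `Reach`. -/
lemma Reach.forest {x y z : Fin n} (h1 : Reach A Z Θ S x y) (h2 : Reach A Z Θ S x z)
    (hyz : y < z) : Reach A Z Θ S y z := by
  refine ⟨hyz, ?_⟩
  have h3 := rtg_mono_top hyz.le h1.2
  have h4 := rtg_symm (r := fun u v => Edge A Z Θ S u v ∧ u ≤ z ∧ v ≤ z)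
    (fun a b hab => ⟨edge_symm hab.1, hab.2.2, hab.2.1⟩) h3
  exact h4.trans h2.2

/-- Monotonicity of `Reach` in the set of rows. -/
lemma Reach.mono (hS : S ⊆ S') {x y : Fin n} (h : Reach A Z Θ S x y) : Reach A Z Θ S' x y := by
  refine ⟨h.1, ?_⟩
  refine Relation.ReflTransGen.mono (p := fun u v => Edge A Z Θ S' u v ∧ u ≤ y ∧ v ≤ y) ?_ x y h.2
  rintro u v ⟨⟨h1, h2, h3, h4⟩, h5, h6⟩
  refine ⟨⟨h1, h2, h3, h4.trans ?_⟩, h5, h6⟩
  unfold cooc
  exact Finset.card_le_card (Finset.filter_subset_filter _ hS)

lemma Reach.of_edge {x y : Fin n} (hxy : x < y) (hx : x ∉ Z) (hy : y ∉ Z)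
    (h : Θ ≤ cooc A S x y) : Reach A Z Θ S x y :=
  ⟨hxy, Relation.ReflTransGen.single ⟨⟨hxy.ne, hx, hy, h⟩, hxy.le, le_rfl⟩⟩

lemma Reach.not_mem_left {x y : Fin n} (h : Reach A Z Θ S x y) : x ∉ Z := by
  rcases Relation.ReflTransGen.cases_head h.2 with h0 | ⟨c, hc, _⟩
  · exact absurd h0 h.1.ne
  · exact hc.1.2.1

end Forest

section Construction

variable {A : Fin n → Fin n → Bool} {win : Fin n → ℕ} {L w : ℕ}

/-- Rows in windows before `t`. -/
def before (win : Fin n → ℕ) (t : ℕ) : Finset (Fin n) := univ.filter fun r => win r < t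

/-- Rows in windows from `t` on. -/
def after (win : Fin n → ℕ) (t : ℕ) : Finset (Fin n) := univ.filter fun r => t ≤ win r

lemma before_mono {t t' : ℕ} (h : t ≤ t') : before win t ⊆ before win t' := by
  intro r hr
  simp only [before, mem_filter, mem_univ, true_and] at hr ⊢
  omega

/-- The row built from a base column. -/
def rowOf (A : Fin n → Fin n → Bool) (Z : Finset (Fin n)) (Θ : ℕ) (win : Fin n → ℕ)
    (base : Fin n → Option (Fin n)) (r c : Fin n) : Prop :=
  ∃ p, base r = some p ∧ (c = p ∨ Reach A Z Θ (before win (win r)) p c)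

/-- A matrix whose rows are built from base columns is free of the pattern. -/
lemma free_of_rows (hmono : ∀ r r', win r < win r' → r < r') (Z : Finset (Fin n)) (Θ : ℕ)
    (base : Fin n → Option (Fin n)) (B : Fin n → Fin n → Bool)
    (hB : ∀ r c, B r c = true ↔ rowOf A Z Θ win base r c) (a b c d : Fin n) :
    ¬ IsCopy B a b c d := by
  rintro ⟨hab, hcd, h1, h2, h3, h4⟩
  obtain ⟨p, hp, hpc⟩ := (hB a c).1 h1
  obtain ⟨p', hp', hpd⟩ := (hB a d).1 h2
  rw [hp] at hp'
  obtain rfl : p = p' := Option.some.inj hp'
  obtain ⟨q, hq, hqc⟩ := (hB b c).1 h3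
  have hwin : win a ≤ win b := by
    by_contra hh
    have := hmono b a (by omega)
    exact absurd hab (not_lt.mpr this.le)
  -- `Reach` from `c` to `d` in the window of `a`
  have hcdR : Reach A Z Θ (before win (win a)) c d := by
    rcases hpd with rfl | hpd
    · rcases hpc with rfl | hpc
      · exact absurd hcd (lt_irrefl _)
      · exact absurd (hpc.1.trans hcd) (lt_irrefl _)
    · rcases hpc with rfl | hpc
      · exact hpd
      · exact Reach.forest hpc hpd hcd
  have hcdR' := hcdR.mono (before_mono hwin)
  have hd : B b d = true := by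
    rw [hB]
    refine ⟨q, hq, Or.inr ?_⟩
    rcases hqc with rfl | hqc
    · exact hcdR'
    · exact hqc.trans hcdR'
  rw [h4] at hd
  exact absurd hd (by simp)

/-- Few rows contain a pair that is not yet frequent. -/
lemma card_not_thick (hsize : ∀ t, (univ.filter fun r => win r = t).card ≤ w) (Θ : ℕ)
    (c y : Fin n) :
    (univ.filter fun r => A r c = true ∧ A r y = true ∧
      cooc A (before win (win r)) c y < Θ).card ≤ Θ + w := by
  classical
  set F := univ.filter fun r => A r c = true ∧ A r y = true ∧
      cooc A (before win (win r)) c y < Θ with hF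
  rcases F.eq_empty_or_nonempty with h0 | hne
  · rw [h0]; simp
  obtain ⟨r₀, hr₀, hmax⟩ := Finset.exists_max_image F win hne
  have hr₀' := (mem_filter.mp hr₀).2
  have hsub : F ⊆ ((before win (win r₀)).filter fun r => A r c = true ∧ A r y = true) ∪
      (univ.filter fun r => win r = win r₀) := by
    intro r hr
    have hle := hmax r hr
    have hr' := (mem_filter.mp hr).2
    simp only [mem_union, mem_filter, before, mem_univ, true_and]
    rcases hle.lt_or_eq with hlt | heq
    · exact Or.inl ⟨hlt, hr'.1, hr'.2.1⟩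
    · exact Or.inr heq
  refine (Finset.card_le_card hsub).trans ((Finset.card_union_le _ _).trans ?_)
  have h1 := hr₀'.2.2
  have h2 := hsize (win r₀)
  unfold cooc at h1
  omega

open scoped Classical in
/-- Few rows contain `c` without `y` after `c` reaches `y`. -/
lemma card_reach_bad {Z : Finset (Fin n)} {g : ℕ} (hg : 0 < g) (hH : NonHeavy A Z (g ^ 2))
    (hmono : ∀ r r', win r < win r' → r < r') {Θ Λ₁ Λ₃ M : ℕ}
    (hMΘ : n + M ^ 2 * Λ₁ < M * Θ) (hΛ : Λ₁ ≤ Θ)
    (hloss : Λ₃ + (2 * M) * (2 * M) * (2 * g) ≤ Λ₁) (x y : Fin n) :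
    (univ.filter fun r => A r x = true ∧ A r y = false ∧
      Reach A Z Θ (before win (win r)) x y).card * Λ₃ ≤ (2 * M) * g ^ 2 := by
  classical
  set F := univ.filter fun r => A r x = true ∧ A r y = false ∧
      Reach A Z Θ (before win (win r)) x y with hF
  rcases F.eq_empty_or_nonempty with h0 | hne
  · rw [h0]; simp
  obtain ⟨r₀, hr₀, hmin⟩ := Finset.exists_min_image F win hne
  have hr₀' := (mem_filter.mp hr₀).2
  have hreach := hr₀'.2.2
  have hcard : (before win (win r₀)).card ≤ n := by
    simpa using Finset.card_le_univ (before win (win r₀))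
  have hb := reach_bound (A := A) (Z := Z) (g := g) hg hH (S := before win (win r₀))
    (After := after win (win r₀))
    (fun a ha b hb => by
      simp only [before, after, mem_filter, mem_univ, true_and] at ha hb
      exact hmono a b (by omega))
    (Θ := Θ) (Λ₁ := Λ₁) (Λ₃ := Λ₃) (M := M) (by omega) hΛ hloss hreach.1 hreach.2
  refine le_trans (Nat.mul_le_mul_right _ (Finset.card_le_card ?_)) hb
  intro r hr
  have hle := hmin r hr
  have hr' := (mem_filter.mp hr).2
  simp only [after, mem_filter, mem_univ, true_and]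
  exact ⟨hle, hr'.1, hr'.2.1⟩

/-- Exchange of summation order for the row sums. -/
lemma sum_row_swap (P : Fin n → Fin n → Prop) [∀ r c, Decidable (P r c)]
    (Q : Fin n → Fin n → Fin n → Prop) [∀ r c y, Decidable (Q r c y)] :
    (∑ r, ∑ c, if P r c then (univ.filter fun y => Q r c y).card else 0)
      = ∑ c, ∑ y, (univ.filter fun r => P r c ∧ Q r c y).card := by
  rw [Finset.sum_comm]
  refine Finset.sum_congr rfl fun c _ => ?_
  simp only [Finset.card_filter]
  rw [Finset.sum_comm]
  refine Finset.sum_congr rfl fun r _ => ?_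
  by_cases h : P r c
  · simp [h]
  · simp [h]

/-- Main construction for the pattern. -/
theorem core_construction (hL : ∀ r, win r < L) (hmono : ∀ r r', win r < win r' → r < r')
    (hsize : ∀ t, (univ.filter fun r => win r = t).card ≤ w)
    (g τ h Θ Λ₁ Λ₃ M : ℕ) (hg : 0 < g)
    (hMΘ : n + M ^ 2 * Λ₁ < M * Θ) (hΛ : Λ₁ ≤ Θ)
    (hloss : Λ₃ + (2 * M) * (2 * M) * (2 * (2 * g)) ≤ Λ₁) :
    ∃ (B : Fin n → Fin n → Bool) (z₂ z₃ I₁ I₂ : ℕ),
      (∀ x y u v, ¬ IsCopy B x y u v) ∧
      2 * g ^ 2 * z₂ ≤ n ^ 2 * h ∧
      h * (2 * g ^ 2 * z₃) ≤ numCopies A ∧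
      I₁ ≤ n ^ 2 * (Θ + w) ∧
      I₂ * Λ₃ ≤ n ^ 2 * ((2 * M) * (2 * g) ^ 2) ∧
      τ * (univ.filter fun p : Fin n × Fin n => A p.1 p.2 ≠ B p.1 p.2).card
        ≤ τ * (n * (z₂ + z₃)) + (I₁ + I₂) + n * τ ^ 2 := by
  classical
  -- the exceptional columns
  set Z₂ : Finset (Fin n) := univ.filter fun c => 2 * g ^ 2 ≤ (alphaSet A h c).card with hZ₂
  set Z₃ : Finset (Fin n) := univ.filter fun c => 2 * g ^ 2 ≤ (betaSet A h c).card with hZ₃
  set Z : Finset (Fin n) := Z₂ ∪ Z₃ with hZ
  have hH : NonHeavy A Z ((2 * g) ^ 2) := by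
    intro c₁ c₂ hc₁ hc₂ hc F G hF hG hFG
    have h1 := heavy_le A hc h F G hF hG hFG
    have h2 : (alphaSet A h c₁).card < 2 * g ^ 2 := by
      by_contra hcon
      apply hc₁
      simp only [hZ, hZ₂, mem_union, mem_filter, mem_univ, true_and]
      exact Or.inl (not_lt.mp hcon)
    have h3 : (betaSet A h c₂).card < 2 * g ^ 2 := by
      by_contra hcon
      apply hc₂
      simp only [hZ, hZ₃, mem_union, mem_filter, mem_univ, true_and]
      exact Or.inr (not_lt.mp hcon)
    have h4 : (2 * g) ^ 2 = 2 * g ^ 2 + 2 * g ^ 2 := by ring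
    omega
  -- errors of a column in a row
  let bad₁ : Fin n → Fin n → Finset (Fin n) := fun r c => univ.filter fun y =>
    c < y ∧ A r y = true ∧ cooc A (before win (win r)) c y < Θ
  let bad₂ : Fin n → Fin n → Finset (Fin n) := fun r c => univ.filter fun y =>
    A r y = false ∧ Reach A Z Θ (before win (win r)) c y
  let err : Fin n → Fin n → ℕ := fun r c => (bad₁ r c).card + (bad₂ r c).card
  let good : Fin n → Finset (Fin n) := fun r => univ.filter fun c =>
    A r c = true ∧ c ∉ Z ∧ err r c < τ
  -- the base column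
  have hbase : ∀ r, ∃ o : Option (Fin n),
      (∀ p, o = some p → p ∈ good r ∧ ∀ y ∈ good r, p ≤ y) ∧ (o = none → good r = ∅) := by
    intro r
    rcases (good r).eq_empty_or_nonempty with h0 | hne
    · exact ⟨none, fun p hp => by simp at hp, fun _ => h0⟩
    · exact ⟨some ((good r).min' hne), fun p hp => by
        obtain rfl : (good r).min' hne = p := Option.some.inj hp
        exact ⟨Finset.min'_mem _ _, fun y hy => Finset.min'_le _ _ hy⟩,
        fun hp => by simp at hp⟩
  choose base hbase₁ hbase₂ using hbase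
  let B : Fin n → Fin n → Bool := fun r c => decide (rowOf A Z Θ win base r c)
  have hB : ∀ r c, B r c = true ↔ rowOf A Z Θ win base r c := by
    intro r c
    simp [B]
  -- the row sums
  set I₁ := ∑ r, ∑ c, if A r c = true then (bad₁ r c).card else 0 with hI₁
  set I₂ := ∑ r, ∑ c, if A r c = true then (bad₂ r c).card else 0 with hI₂
  have hZcard : Z.card ≤ Z₂.card + Z₃.card := Finset.card_union_le _ _
  refine ⟨B, Z₂.card, Z₃.card, I₁, I₂, free_of_rows hmono Z Θ base B hB, ?_, ?_, ?_, ?_, ?_⟩
  · -- size of Z₂
    calc 2 * g ^ 2 * Z₂.card = Z₂.card • (2 * g ^ 2) := by rw [smul_eq_mul, mul_comm]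
      _ ≤ ∑ c ∈ Z₂, (alphaSet A h c).card :=
          Finset.card_nsmul_le_sum _ _ _ (fun c hc => by simpa [hZ₂] using hc)
      _ ≤ ∑ c, (alphaSet A h c).card := Finset.sum_le_sum_of_subset (subset_univ _)
      _ ≤ n ^ 2 * h := sum_alpha A h
  · -- size of Z₃
    refine le_trans ?_ (sum_beta A h)
    apply Nat.mul_le_mul_left
    calc 2 * g ^ 2 * Z₃.card = Z₃.card • (2 * g ^ 2) := by rw [smul_eq_mul, mul_comm]
      _ ≤ ∑ c ∈ Z₃, (betaSet A h c).card :=
          Finset.card_nsmul_le_sum _ _ _ (fun c hc => by simpa [hZ₃] using hc)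
      _ ≤ ∑ c, (betaSet A h c).card := Finset.sum_le_sum_of_subset (subset_univ _)
  · -- bound for I₁
    rw [hI₁, sum_row_swap]
    calc ∑ c, ∑ y, (univ.filter fun r => A r c = true ∧ (c < y ∧ A r y = true ∧
          cooc A (before win (win r)) c y < Θ)).card
        ≤ ∑ _c : Fin n, ∑ _y : Fin n, (Θ + w) := by
          refine Finset.sum_le_sum fun c _ => Finset.sum_le_sum fun y _ => ?_
          refine le_trans (Finset.card_le_card ?_) (card_not_thick (A := A) hsize Θ c y)
          intro r hr
          simp only [mem_filter, mem_univ, true_and] at hr ⊢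
          exact ⟨hr.1, hr.2.2.1, hr.2.2.2⟩
      _ = n ^ 2 * (Θ + w) := by
          simp [Finset.card_univ, pow_two]
          ring
  · -- bound for I₂
    rw [hI₂, sum_row_swap, Finset.sum_mul]
    calc ∑ c, (∑ y, (univ.filter fun r => A r c = true ∧ (A r y = false ∧
          Reach A Z Θ (before win (win r)) c y)).card) * Λ₃
        ≤ ∑ _c : Fin n, ∑ _y : Fin n, ((2 * M) * (2 * g) ^ 2) := by
          refine Finset.sum_le_sum fun c _ => ?_
          rw [Finset.sum_mul]
          refine Finset.sum_le_sum fun y _ => ?_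
          have := card_reach_bad (A := A) (win := win) (Z := Z) (g := 2 * g) (by omega) hH hmono
            (Θ := Θ) (Λ₁ := Λ₁) (Λ₃ := Λ₃) (M := M) hMΘ hΛ hloss c y
          convert this using 4
      _ = n ^ 2 * ((2 * M) * (2 * g) ^ 2) := by
          simp [Finset.card_univ, pow_two]
          ring
  · -- cost
    let Ex : Fin n → Finset (Fin n) := fun r => univ.filter fun c =>
      A r c = true ∧ c ∉ Z ∧ τ ≤ err r c
    have hHam : (univ.filter fun p : Fin n × Fin n => A p.1 p.2 ≠ B p.1 p.2).card
        = ∑ r, (univ.filter fun c => A r c ≠ B r c).card := by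
      rw [Finset.card_filter, Fintype.sum_prod_type]
      refine Finset.sum_congr rfl fun r _ => ?_
      rw [Finset.card_filter]
    have hrow : ∀ r, (univ.filter fun c => A r c ≠ B r c).card ≤ Z.card + (Ex r).card + τ := by
      intro r
      rcases hbo : base r with _ | p
      · -- no base column
        have hgood := hbase₂ r hbo
        have hsubs : (univ.filter fun c => A r c ≠ B r c) ⊆ Z ∪ Ex r := by
          intro c hc
          simp only [mem_filter, mem_univ, true_and] at hc
          have hBc : B r c = false := by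
            cases hh : B r c
            · rfl
            · exfalso
              obtain ⟨q, hq, _⟩ := (hB r c).1 hh
              rw [hbo] at hq
              simp at hq
          have hAc : A r c = true := by
            rw [hBc] at hc
            simpa using hc
          simp only [mem_union]
          by_cases hcZ : c ∈ Z
          · exact Or.inl hcZ
          · refine Or.inr ?_
            simp only [Ex, mem_filter, mem_univ, true_and]
            refine ⟨hAc, hcZ, ?_⟩
            by_contra hlt
            have : c ∈ good r := by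
              simp only [good, mem_filter, mem_univ, true_and]
              exact ⟨hAc, hcZ, not_le.mp hlt⟩
            rw [hgood] at this
            simp at this
        have := (Finset.card_le_card hsubs).trans (Finset.card_union_le _ _)
        omega
      · -- base column `p`
        obtain ⟨hpg, hpmin⟩ := hbase₁ r p hbo
        have hpg' : A r p = true ∧ p ∉ Z ∧ err r p < τ := by
          simpa [good] using hpg
        have hsubs : (univ.filter fun c => A r c ≠ B r c) ⊆
            Z ∪ Ex r ∪ bad₁ r p ∪ bad₂ r p := by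
          intro c hc
          simp only [mem_filter, mem_univ, true_and] at hc
          simp only [mem_union]
          cases hAc : A r c
          · -- zero in `A`, one in `B`
            have hBc : B r c = true := by
              cases hh : B r c
              · rw [hAc, hh] at hc
                exact absurd rfl hc
              · rfl
            obtain ⟨q, hq, hqc⟩ := (hB r c).1 hBc
            rw [hbo] at hq
            obtain rfl : p = q := Option.some.inj hq
            rcases hqc with rfl | hqc
            · rw [hAc] at hpg'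
              simp at hpg'
            · refine Or.inr ?_
              simp only [bad₂, mem_filter, mem_univ, true_and]
              exact ⟨hAc, hqc⟩
          · -- one in `A`, zero in `B`
            have hBc : B r c = false := by
              cases hh : B r c
              · rfl
              · rw [hAc, hh] at hc
                exact absurd rfl hc
            have hnot : ¬ rowOf A Z Θ win base r c := by
              intro hh
              have := (hB r c).2 hh
              rw [hBc] at this
              simp at this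
            by_cases hcZ : c ∈ Z
            · exact Or.inl (Or.inl (Or.inl hcZ))
            · rcases lt_trichotomy c p with hlt | heq | hgt
              · refine Or.inl (Or.inl (Or.inr ?_))
                simp only [Ex, mem_filter, mem_univ, true_and]
                refine ⟨hAc, hcZ, ?_⟩
                by_contra hcon
                have hcg : c ∈ good r := by
                  simp only [good, mem_filter, mem_univ, true_and]
                  exact ⟨hAc, hcZ, not_le.mp hcon⟩
                exact absurd (hpmin c hcg) (not_le.mpr hlt)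
              · exfalso
                exact hnot ⟨p, hbo, Or.inl heq⟩
              · refine Or.inl (Or.inr ?_)
                simp only [bad₁, mem_filter, mem_univ, true_and]
                refine ⟨hgt, hAc, ?_⟩
                by_contra hcon
                exact hnot ⟨p, hbo, Or.inr (Reach.of_edge hgt hpg'.2.1 hcZ (not_lt.mp hcon))⟩
        have hc1 := Finset.card_le_card hsubs
        have hc2 := Finset.card_union_le (Z ∪ Ex r ∪ bad₁ r p) (bad₂ r p)
        have hc3 := Finset.card_union_le (Z ∪ Ex r) (bad₁ r p)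
        have hc4 := Finset.card_union_le Z (Ex r)
        have hc5 : (bad₁ r p).card + (bad₂ r p).card < τ := hpg'.2.2
        omega
    have hEx : τ * ∑ r, (Ex r).card ≤ I₁ + I₂ := by
      rw [hI₁, hI₂, ← Finset.sum_add_distrib, Finset.mul_sum]
      refine Finset.sum_le_sum fun r _ => ?_
      rw [← Finset.sum_add_distrib]
      have h1 : τ * (Ex r).card = (Ex r).card • τ := by rw [smul_eq_mul, mul_comm]
      rw [h1]
      have hle : ∀ c ∈ Ex r, τ ≤ (if A r c = true then (bad₁ r c).card else 0) +
          (if A r c = true then (bad₂ r c).card else 0) := by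
        intro c hc
        simp only [Ex, mem_filter, mem_univ, true_and] at hc
        rw [if_pos hc.1, if_pos hc.1]
        exact hc.2.2
      refine (Finset.card_nsmul_le_sum _ _ _ hle).trans ?_
      exact Finset.sum_le_sum_of_subset (subset_univ _)
    rw [hHam]
    calc τ * ∑ r, (univ.filter fun c => A r c ≠ B r c).card
        ≤ τ * ∑ r, (Z.card + (Ex r).card + τ) :=
          Nat.mul_le_mul_left _ (Finset.sum_le_sum fun r _ => hrow r)
      _ = τ * (n * Z.card) + τ * ∑ r, (Ex r).card + n * τ ^ 2 := by
          simp only [Finset.sum_add_distrib, Finset.sum_const, card_univ, Fintype.card_fin,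
            smul_eq_mul]
          ring
      _ ≤ τ * (n * (Z₂.card + Z₃.card)) + (I₁ + I₂) + n * τ ^ 2 := by
          have h2 : τ * (n * Z.card) ≤ τ * (n * (Z₂.card + Z₃.card)) :=
            Nat.mul_le_mul_left _ (Nat.mul_le_mul_left _ hZcard)
          omega

end Construction

end Vale.Agent.P037.Gamma
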