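import Vale.Agent.P037.GammaCore

/-! Choice of parameters for the 2×2 pattern `[[1,1],[1,0]]`. -/

namespace Vale.Agent.P037.Gamma

open Finset

variable {n : ℕ}

/-- Few copies imply closeness to a pattern-free matrix. -/
theorem close_of_few (m : ℕ) (hm : 0 < m) (hn : 2 ^ 101 * m ^ 17 ≤ n)
    (A : Fin n → Fin n → Bool) (hN : 2 ^ 204 * m ^ 34 * numCopies A ≤ n ^ 4) :
    ∃ B : Fin n → Fin n → Bool, (∀ x y u v, ¬ IsCopy B x y u v) ∧
      m * (univ.filter fun p : Fin n × Fin n => A p.1 p.2 ≠ B p.1 p.2).card ≤ n ^ 2 := by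
  have hm1 : 1 ≤ m := hm
  set X : ℕ := 2 ^ 101 * m ^ 17 with hX
  have hXpos : 0 < X := by positivity
  set b : ℕ := n / X with hb
  have hbpos : 0 < b := Nat.div_pos hn hXpos
  have hbX : X * b ≤ n := Nat.mul_div_le _ _
  have hbX2 : n < X * (b + 1) := Nat.lt_mul_div_succ _ hXpos
  have hbX3 : n < 2 * X * b := by
    have : X * (b + 1) ≤ 2 * X * b := by nlinarith
    omega
  set L : ℕ := 2 ^ 9 * m ^ 2 with hLdef
  have hLpos : 0 < L := by positivity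
  set w : ℕ := n / L + 1 with hw
  have hwpos : 0 < w := Nat.succ_pos _
  have hLw : n < L * w := Nat.lt_mul_div_succ _ hLpos
  have hLn : L ≤ n := by
    refine le_trans ?_ hn
    have h1 : m ^ 2 ≤ m ^ 17 := Nat.pow_le_pow_right hm1 (by norm_num)
    exact Nat.mul_le_mul (by norm_num) h1
  have hLw2 : L * w ≤ 2 * n := by
    have h1 : L * (n / L) ≤ n := Nat.mul_div_le _ _
    have h2 : L * w = L * (n / L) + L := by rw [hw]; ring
    omega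
  set win : Fin n → ℕ := fun r => r.val / w with hwin
  have hL : ∀ r, win r < L := by
    intro r
    apply Nat.div_lt_of_lt_mul
    have := r.isLt
    rw [mul_comm]
    omega
  have hmono : ∀ r r', win r < win r' → r < r' := by
    intro r r' hlt
    by_contra hcon
    have h1 : r'.val ≤ r.val := by
      simpa using not_lt.mp hcon
    have h2 : win r' ≤ win r := Nat.div_le_div_right h1
    omega
  have hsize : ∀ t, (univ.filter fun r => win r = t).card ≤ w := by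
    intro t
    have := Finset.card_le_card_of_injOn (s := univ.filter fun r => win r = t)
      (t := range w) (fun r : Fin n => r.val % w) ?_ ?_
    · simpa using this
    · intro r _
      simpa using Nat.mod_lt _ hwpos
    · intro r hr r' hr' heq
      simp only [coe_filter, mem_univ, true_and, Set.mem_ofPred_eq] at hr hr'
      apply Fin.ext
      have h1 := Nat.div_add_mod r.val w
      have h2 := Nat.div_add_mod r'.val w
      simp only at heq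
      have h3 : r.val / w = r'.val / w := by
        have e1 : win r = r.val / w := rfl
        have e2 : win r' = r'.val / w := rfl
        omega
      rw [h3, heq] at h1
      omega
  have hXb : X * b = 2 ^ 101 * m ^ 17 * b := by rw [hX]
  have h2Xb : 2 * X * b = 2 ^ 102 * m ^ 17 * b := by rw [hX]; ring
  rw [h2Xb] at hbX3
  rw [hXb] at hbX
  set g : ℕ := 2 ^ 52 * m ^ 9 * b with hg
  have hgpos : 0 < g := by positivity
  set τ : ℕ := 2 ^ 98 * m ^ 16 * b with hτ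
  have hτpos : 0 < τ := by positivity
  set Θ : ℕ := 2 ^ 93 * m ^ 15 * b with hΘ
  set Λ₁ : ℕ := 2 ^ 79 * m ^ 13 * b with hΛ₁
  set Λ₃ : ℕ := 2 ^ 78 * m ^ 13 * b with hΛ₃
  have hΛ₃pos : 0 < Λ₃ := by positivity
  set M : ℕ := 2 ^ 11 * m ^ 2 with hM
  have hMΘ : n + M ^ 2 * Λ₁ < M * Θ := by
    have e1 : M ^ 2 * Λ₁ = 2 ^ 101 * m ^ 17 * b := by rw [hM, hΛ₁]; ring
    have e2 : M * Θ = 4 * (2 ^ 102 * m ^ 17 * b) := by rw [hM, hΘ]; ring
    rw [e1, e2]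
    omega
  have hΛ : Λ₁ ≤ Θ := by
    rw [hΛ₁, hΘ]
    have h1 : m ^ 13 ≤ m ^ 15 := Nat.pow_le_pow_right hm1 (by norm_num)
    exact Nat.mul_le_mul_right _ (Nat.mul_le_mul (by norm_num) h1)
  have hloss : Λ₃ + (2 * M) * (2 * M) * (2 * (2 * g)) ≤ Λ₁ := by
    have e1 : (2 * M) * (2 * M) * (2 * (2 * g)) = 2 ^ 78 * m ^ 13 * b := by
      rw [hM, hg]; ring
    rw [e1, hΛ₃, hΛ₁]
    have e2 : 2 ^ 79 * m ^ 13 * b = 2 ^ 78 * m ^ 13 * b + 2 ^ 78 * m ^ 13 * b := by ring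
    omega
  obtain ⟨B, z₂, z₃, I₁, I₂, hfree, h2, h3, h4, h5, h6⟩ :=
    core_construction (A := A) hL hmono hsize g τ b Θ Λ₁ Λ₃ M hgpos hMΘ hΛ hloss
  refine ⟨B, hfree, ?_⟩
  set Ham := (univ.filter fun p : Fin n × Fin n => A p.1 p.2 ≠ B p.1 p.2).card with hHam
  set N := numCopies A with hNdef
  -- z₂
  have hz2 : 8 * m * z₂ ≤ n := by
    have e1 : 2 * g ^ 2 * z₂ = b * (2 ^ 105 * m ^ 18 * b * z₂) := by rw [hg]; ring
    rw [e1, mul_comm (n ^ 2) b] at h2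
    have h2' := Nat.le_of_mul_le_mul_left h2 hbpos
    have hpos : 0 < 2 ^ 102 * m ^ 17 * b := by positivity
    apply Nat.le_of_mul_le_mul_left _ hpos
    calc 2 ^ 102 * m ^ 17 * b * (8 * m * z₂) = 2 ^ 105 * m ^ 18 * b * z₂ := by ring
      _ ≤ n ^ 2 := h2'
      _ = n * n := by ring
      _ ≤ (2 ^ 102 * m ^ 17 * b) * n := Nat.mul_le_mul_right _ hbX3.le
  -- z₃
  have hz3 : 8 * m * z₃ ≤ n := by
    have hpos : 0 < (2 ^ 102) ^ 3 * m ^ 51 * b ^ 3 := by positivity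
    have h3' : 2 ^ 105 * m ^ 18 * b ^ 3 * z₃ ≤ N := by
      calc 2 ^ 105 * m ^ 18 * b ^ 3 * z₃ = b * (2 * g ^ 2 * z₃) := by rw [hg]; ring
        _ ≤ N := h3
    have hn3 : n ^ 3 ≤ (2 ^ 102 * m ^ 17 * b) ^ 3 := Nat.pow_le_pow_left hbX3.le 3
    apply Nat.le_of_mul_le_mul_left _ hpos
    calc (2 ^ 102) ^ 3 * m ^ 51 * b ^ 3 * (8 * m * z₃)
        = 2 ^ 204 * m ^ 34 * (2 ^ 105 * m ^ 18 * b ^ 3 * z₃) := by ring
      _ ≤ 2 ^ 204 * m ^ 34 * N := Nat.mul_le_mul_left _ h3'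
      _ ≤ n ^ 4 := hN
      _ = n ^ 3 * n := by ring
      _ ≤ (2 ^ 102 * m ^ 17 * b) ^ 3 * n := Nat.mul_le_mul_right _ hn3
      _ = (2 ^ 102) ^ 3 * m ^ 51 * b ^ 3 * n := by ring
  -- I₁
  have hI1 : 2 ^ 7 * m ^ 2 * I₁ ≤ n ^ 3 := by
    have e1 : 2 ^ 8 * m ^ 2 * Θ ≤ n := by
      have : 2 ^ 8 * m ^ 2 * Θ = 2 ^ 101 * m ^ 17 * b := by rw [hΘ]; ring
      omega
    have e2 : 2 ^ 8 * m ^ 2 * w ≤ n := by
      have : L * w = 2 * (2 ^ 8 * m ^ 2 * w) := by rw [hLdef]; ring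
      omega
    have e3 : 2 ^ 7 * m ^ 2 * (Θ + w) ≤ n := by
      have : 2 * (2 ^ 7 * m ^ 2 * (Θ + w)) = 2 ^ 8 * m ^ 2 * Θ + 2 ^ 8 * m ^ 2 * w := by ring
      omega
    calc 2 ^ 7 * m ^ 2 * I₁ ≤ 2 ^ 7 * m ^ 2 * (n ^ 2 * (Θ + w)) := Nat.mul_le_mul_left _ h4
      _ = n ^ 2 * (2 ^ 7 * m ^ 2 * (Θ + w)) := by ring
      _ ≤ n ^ 2 * n := Nat.mul_le_mul_left _ e3
      _ = n ^ 3 := by ring
  -- I₂
  have hI2 : 2 ^ 7 * m ^ 2 * I₂ ≤ n ^ 3 := by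
    have e1 : I₂ ≤ n ^ 2 * (2 ^ 40 * m ^ 7 * b) := by
      apply Nat.le_of_mul_le_mul_left _ hΛ₃pos
      calc Λ₃ * I₂ = I₂ * Λ₃ := by ring
        _ ≤ n ^ 2 * ((2 * M) * (2 * g) ^ 2) := h5
        _ = Λ₃ * (n ^ 2 * (2 ^ 40 * m ^ 7 * b)) := by rw [hM, hg, hΛ₃]; ring
    have e2 : 2 ^ 47 * m ^ 9 * b ≤ n := by
      refine le_trans ?_ hbX
      apply Nat.mul_le_mul_right
      exact Nat.mul_le_mul (by norm_num) (Nat.pow_le_pow_right hm1 (by norm_num))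
    calc 2 ^ 7 * m ^ 2 * I₂ ≤ 2 ^ 7 * m ^ 2 * (n ^ 2 * (2 ^ 40 * m ^ 7 * b)) :=
          Nat.mul_le_mul_left _ e1
      _ = n ^ 2 * (2 ^ 47 * m ^ 9 * b) := by ring
      _ ≤ n ^ 2 * n := Nat.mul_le_mul_left _ e2
      _ = n ^ 3 := by ring
  have hnτ : n ≤ 16 * m * τ := by
    have e : 16 * m * τ = 2 ^ 102 * m ^ 17 * b := by rw [hτ]; ring
    omega
  have hτn : 8 * m * τ ≤ n := by
    have e : 8 * m * τ = 2 ^ 101 * m ^ 17 * b := by rw [hτ]; ring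
    omega
  have hI0 : 2 ^ 6 * m ^ 2 * (I₁ + I₂) ≤ n ^ 3 := by
    have : 2 * (2 ^ 6 * m ^ 2 * (I₁ + I₂)) = 2 ^ 7 * m ^ 2 * I₁ + 2 ^ 7 * m ^ 2 * I₂ := by ring
    omega
  have hI : 8 * m * (I₁ + I₂) ≤ 2 * (τ * n ^ 2) := by
    have hmpos : 0 < 8 * m := by positivity
    apply Nat.le_of_mul_le_mul_left _ hmpos
    calc 8 * m * (8 * m * (I₁ + I₂)) = 2 ^ 6 * m ^ 2 * (I₁ + I₂) := by ring
      _ ≤ n ^ 3 := hI0
      _ = n ^ 2 * n := by ring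
      _ ≤ n ^ 2 * (16 * m * τ) := Nat.mul_le_mul_left _ hnτ
      _ = 8 * m * (2 * (τ * n ^ 2)) := by ring
  -- conclusion
  have hpos : 0 < 8 * τ := by positivity
  apply Nat.le_of_mul_le_mul_left _ hpos
  have hsum : 8 * m * (z₂ + z₃) ≤ 2 * n := by
    have e : 8 * m * (z₂ + z₃) = 8 * m * z₂ + 8 * m * z₃ := by ring
    omega
  calc 8 * τ * (m * Ham) = 8 * m * (τ * Ham) := by ring
    _ ≤ 8 * m * (τ * (n * (z₂ + z₃)) + (I₁ + I₂) + n * τ ^ 2) := Nat.mul_le_mul_left _ h6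
    _ = (τ * n) * (8 * m * (z₂ + z₃)) + 8 * m * (I₁ + I₂) + (n * τ) * (8 * m * τ) := by ring
    _ ≤ (τ * n) * (2 * n) + 2 * (τ * n ^ 2) + (n * τ) * n :=
        Nat.add_le_add (Nat.add_le_add (Nat.mul_le_mul_left _ hsum) hI)
          (Nat.mul_le_mul_left _ hτn)
    _ = 5 * τ * n ^ 2 := by ring
    _ ≤ 8 * τ * n ^ 2 := Nat.mul_le_mul_right _ (Nat.mul_le_mul_right _ (by norm_num))

end Vale.Agent.P037.Gamma
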