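import Mathlib

/-! Path lemmas for the 2×2 pattern `[[1,1],[1,0]]`: a connected pair in a graph of frequently
co-occurring columns is linked by a short increasing path. -/

namespace Vale.Agent.P037.Gamma

open Finset

variable {n : ℕ}

/-- Staircase lemma: two large disjoint sets of rows contain two large sets, one entirely before
the other. -/
lemma staircase (X Y : Finset (Fin n)) (g : ℕ) (hg : 0 < g)
    (hX : 2 * g ≤ X.card) (hY : 2 * g ≤ Y.card) :
    ∃ F G : Finset (Fin n), g ≤ F.card ∧ g ≤ G.card ∧ (∀ a ∈ F, ∀ b ∈ G, a < b) ∧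
      ((F ⊆ X ∧ G ⊆ Y) ∨ (F ⊆ Y ∧ G ⊆ X)) := by
  classical
  let f : ℕ → ℕ := fun s => (X.filter fun r => r.val < s).card
  let f' : ℕ → ℕ := fun s => (Y.filter fun r => r.val < s).card
  have hsucc : ∀ (W : Finset (Fin n)) (s : ℕ),
      (W.filter fun r => r.val < s + 1).card ≤ (W.filter fun r => r.val < s).card + 1 := by
    intro W s
    have h1 : (W.filter fun r => r.val < s + 1) ⊆
        (W.filter fun r => r.val < s) ∪ (W.filter fun r => r.val = s) := by
      intro r hr
      simp only [mem_filter, mem_union] at hr ⊢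
      by_cases h : r.val < s
      · exact Or.inl ⟨hr.1, h⟩
      · exact Or.inr ⟨hr.1, by omega⟩
    have h2 : (W.filter fun r => r.val = s).card ≤ 1 := by
      apply Finset.card_le_one.mpr
      intro a ha b hb
      simp only [mem_filter] at ha hb
      exact Fin.ext (by omega)
    have h3 := Finset.card_le_card h1
    have h4 := Finset.card_union_le (W.filter fun r => r.val < s) (W.filter fun r => r.val = s)
    omega
  have hall : ∀ (W : Finset (Fin n)), (W.filter fun r => r.val < n).card = W.card := by
    intro W
    congr 1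
    apply Finset.filter_true_of_mem
    intro r _
    exact r.isLt
  have hex : ∃ s, g ≤ f s ∨ g ≤ f' s := by
    refine ⟨n, Or.inl ?_⟩
    have : f n = X.card := hall X
    omega
  have hspec := Nat.find_spec hex
  have hmin := fun k => Nat.find_min (m := k) hex
  set s := Nat.find hex with hs
  have hs0 : s ≠ 0 := by
    intro h0
    rw [h0] at hspec
    simp [f, f'] at hspec
    omega
  obtain ⟨s', hs'⟩ : ∃ s', s = s' + 1 := ⟨s - 1, by omega⟩
  have hprev := hmin s' (by omega)
  push Not at hprev
  have hfs : f s ≤ g := by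
    rw [hs']
    have := hsucc X s'
    simp only [f] at hprev ⊢
    omega
  have hfs' : f' s ≤ g := by
    rw [hs']
    have := hsucc Y s'
    simp only [f'] at hprev ⊢
    omega
  have hcompl : ∀ (W : Finset (Fin n)) (t : ℕ),
      (W.filter fun r => r.val < t).card + (W.filter fun r => ¬ r.val < t).card = W.card :=
    fun W t => Finset.card_filter_add_card_filter_not _
  rcases hspec with h | h
  · refine ⟨X.filter fun r => r.val < s, Y.filter fun r => ¬ r.val < s, h, ?_, ?_,
      Or.inl ⟨Finset.filter_subset _ _, Finset.filter_subset _ _⟩⟩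
    · have := hcompl Y s
      simp only [f'] at hfs'
      omega
    · intro a ha b hb
      simp only [mem_filter] at ha hb
      exact Fin.lt_def.mpr (by omega)
  · refine ⟨Y.filter fun r => r.val < s, X.filter fun r => ¬ r.val < s, h, ?_, ?_,
      Or.inr ⟨Finset.filter_subset _ _, Finset.filter_subset _ _⟩⟩
    · have := hcompl X s
      simp only [f] at hfs
      omega
    · intro a ha b hb
      simp only [mem_filter] at ha hb
      exact Fin.lt_def.mpr (by omega)

/-- Every pair of columns outside `Z` has few copies across every row split. -/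
def NonHeavy (A : Fin n → Fin n → Bool) (Z : Finset (Fin n)) (K : ℕ) : Prop :=
  ∀ c₁ c₂, c₁ ∉ Z → c₂ ∉ Z → c₁ < c₂ → ∀ F G : Finset (Fin n),
    (∀ a ∈ F, A a c₁ = true ∧ A a c₂ = true) → (∀ b ∈ G, A b c₁ = true ∧ A b c₂ = false) →
    (∀ a ∈ F, ∀ b ∈ G, a < b) → F.card * G.card < K

/-- Number of rows of `S` containing both columns. -/
def cooc (A : Fin n → Fin n → Bool) (S : Finset (Fin n)) (u v : Fin n) : ℕ :=
  (S.filter fun r => A r u = true ∧ A r v = true).card

lemma cooc_comm (A : Fin n → Fin n → Bool) (S : Finset (Fin n)) (u v : Fin n) :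
    cooc A S u v = cooc A S v u := by
  unfold cooc
  congr 1
  ext r
  simp only [mem_filter]
  tauto

/-- Number of rows of `S` containing the column. -/
def occ (A : Fin n → Fin n → Bool) (S : Finset (Fin n)) (u : Fin n) : ℕ :=
  (S.filter fun r => A r u = true).card

lemma cooc_le_occ (A : Fin n → Fin n → Bool) (S : Finset (Fin n)) (u v : Fin n) :
    cooc A S u v ≤ occ A S u := by
  unfold cooc occ
  apply Finset.card_le_card
  intro r hr
  simp only [mem_filter] at hr ⊢
  exact ⟨hr.1, hr.2.1⟩

section Valley

variable {A : Fin n → Fin n → Bool} {Z : Finset (Fin n)} {g : ℕ}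

/-- Valley rule: two frequent partners of a lower column are frequent partners of each other. -/
lemma valley (hg : 0 < g) (hH : NonHeavy A Z (g ^ 2)) (S : Finset (Fin n)) {z u v : Fin n}
    (hz : z ∉ Z) (hu : u ∉ Z) (hv : v ∉ Z) (hzu : z < u) (hzv : z < v) {Λ : ℕ}
    (h1 : Λ ≤ cooc A S z u) (h2 : Λ ≤ cooc A S z v) : Λ ≤ cooc A S u v + 2 * g := by
  classical
  set Fu := S.filter fun r => A r z = true ∧ A r u = true with hFu
  set Fv := S.filter fun r => A r z = true ∧ A r v = true with hFv
  have hinter : (Fu ∩ Fv).card ≤ cooc A S u v := by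
    apply Finset.card_le_card
    intro r hr
    simp only [hFu, hFv, mem_inter, mem_filter] at hr ⊢
    exact ⟨hr.1.1, hr.1.2.2, hr.2.2.2⟩
  have hu1 : Fu.card = (Fu ∩ Fv).card + (Fu \ Fv).card := by
    rw [Finset.card_inter_add_card_sdiff]
  have hv1 : Fv.card = (Fu ∩ Fv).card + (Fv \ Fu).card := by
    rw [Finset.inter_comm, Finset.card_inter_add_card_sdiff]
  have h1' : Λ ≤ Fu.card := h1
  have h2' : Λ ≤ Fv.card := h2
  by_contra hcon
  push Not at hcon
  obtain ⟨F, G, hF, hG, hlt, hsub⟩ := staircase (Fu \ Fv) (Fv \ Fu) g hg (by omega) (by omega)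
  have hprod : g ^ 2 ≤ F.card * G.card := by
    rw [pow_two]
    exact Nat.mul_le_mul hF hG
  rcases hsub with ⟨hs1, hs2⟩ | ⟨hs1, hs2⟩
  · -- `F` contains `z, u` and `G` contains `z` without `u`
    have := hH z u hz hu hzu F G
      (fun a ha => by
        have := hs1 ha
        simp only [hFu, mem_sdiff, mem_filter] at this
        exact this.1.2)
      (fun b hb => by
        have := hs2 hb
        simp only [hFu, hFv, mem_sdiff, mem_filter, not_and] at this
        refine ⟨this.1.2.1, ?_⟩
        have h3 := this.2 this.1.1 this.1.2.1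
        simpa using h3)
      hlt
    omega
  · -- `F` contains `z, v` and `G` contains `z` without `v`
    have := hH z v hz hv hzv F G
      (fun a ha => by
        have := hs1 ha
        simp only [hFv, mem_sdiff, mem_filter] at this
        exact this.1.2)
      (fun b hb => by
        have := hs2 hb
        simp only [hFu, hFv, mem_sdiff, mem_filter, not_and] at this
        refine ⟨this.1.2.1, ?_⟩
        have h3 := this.2 this.1.1 this.1.2.1
        simpa using h3)
      hlt
    omega

/-- Edge at a given level. -/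
def Lv (A : Fin n → Fin n → Bool) (Z S : Finset (Fin n)) (Λ : ℕ) (u v : Fin n) : Prop :=
  u ∉ Z ∧ v ∉ Z ∧ Λ ≤ cooc A S u v

/-- Increasing path with at most `q` edges. -/
def IncPath (A : Fin n → Fin n → Bool) (Z S : Finset (Fin n)) (Λ : ℕ) : ℕ → Fin n → Fin n → Prop
  | 0, a, b => a = b
  | q + 1, a, b => a = b ∨ ∃ c, a < c ∧ Lv A Z S Λ a c ∧ IncPath A Z S Λ q c b

variable {S : Finset (Fin n)}

lemma IncPath.mono {Λ Λ' : ℕ} (hΛ : Λ' ≤ Λ) {q : ℕ} {a b : Fin n}
    (h : IncPath A Z S Λ q a b) : IncPath A Z S Λ' q a b := by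
  induction q generalizing a with
  | zero => exact h
  | succ q ih =>
    rcases h with h | ⟨c, hac, hL, hp⟩
    · exact Or.inl h
    · exact Or.inr ⟨c, hac, ⟨hL.1, hL.2.1, hΛ.trans hL.2.2⟩, ih hp⟩

lemma IncPath.mono_len {Λ : ℕ} {q q' : ℕ} (hq : q ≤ q') {a b : Fin n}
    (h : IncPath A Z S Λ q a b) : IncPath A Z S Λ q' a b := by
  induction q generalizing a q' with
  | zero =>
    cases q' with
    | zero => exact h
    | succ q' => exact Or.inl h
  | succ q ih =>
    cases q' with
    | zero => omega
    | succ q' =>
      rcases h with h | ⟨c, hac, hL, hp⟩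
      · exact Or.inl h
      · exact Or.inr ⟨c, hac, hL, ih (by omega) hp⟩

/-- Insertion of a vertex at the start of an increasing path. -/
lemma insert_path (hg : 0 < g) (hH : NonHeavy A Z (g ^ 2)) {y : Fin n} :
    ∀ (q : ℕ) (w u : Fin n) (Λ Λ' : ℕ), Λ' + q * (2 * g) ≤ Λ → u ∉ Z → u ≤ y →
      IncPath A Z S Λ q w y → (u = w ∨ Lv A Z S Λ u w) → IncPath A Z S Λ' (q + 1) u y := by
  intro q
  induction q with
  | zero =>
    intro w u Λ Λ' hΛ hu huy hp he
    have hwy : w = y := hp
    subst hwy
    rcases he with rfl | he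
    · exact Or.inl rfl
    · rcases huy.lt_or_eq with hlt | heq
      · refine Or.inr ⟨w, hlt, ⟨he.1, he.2.1, ?_⟩, rfl⟩
        have := he.2.2
        omega
      · exact Or.inl heq
  | succ q ih =>
    intro w u Λ Λ' hΛ hu huy hp he
    have hΛ1 : Λ' ≤ Λ := by
      have : 0 ≤ (q + 1) * (2 * g) := Nat.zero_le _
      omega
    -- reduce to the trivial cases
    rcases he with rfl | he
    · exact IncPath.mono_len (Nat.le_succ _) (IncPath.mono hΛ1 hp)
    rcases lt_trichotomy u w with hlt | heq | hgt
    · exact Or.inr ⟨w, hlt, ⟨he.1, he.2.1, hΛ1.trans he.2.2⟩, IncPath.mono hΛ1 hp⟩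
    · subst heq
      exact IncPath.mono_len (Nat.le_succ _) (IncPath.mono hΛ1 hp)
    · rcases hp with hwy | ⟨w', hww', hL, hp'⟩
      · subst hwy
        exact absurd hgt (not_lt.mpr huy)
      · by_cases huw' : u = w'
        · subst huw'
          exact IncPath.mono_len (by omega) (IncPath.mono hΛ1 hp')
        · -- valley at `w`
          have hv := valley hg hH S he.2.1 hu hL.2.1 hgt hww'
            (Λ := Λ) (by rw [cooc_comm]; exact he.2.2) hL.2.2
          have hexp : (q + 1) * (2 * g) = q * (2 * g) + 2 * g := by ring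
          have hp2 : IncPath A Z S (Λ - 2 * g) q w' y :=
            IncPath.mono (Nat.sub_le _ _) hp'
          have := ih w' u (Λ - 2 * g) Λ' (by omega) hu huy hp2
            (Or.inr ⟨hu, hL.2.1, by omega⟩)
          exact IncPath.mono_len (Nat.le_succ _) this

/-- Bound on the number of later rows that contain the start of an increasing path but not
its end. -/
lemma incpath_bound {K : ℕ} (hH : NonHeavy A Z K) {After : Finset (Fin n)}
    (hsep : ∀ a ∈ S, ∀ b ∈ After, a < b) {Λ : ℕ} {y : Fin n} :
    ∀ (q : ℕ) (x : Fin n), IncPath A Z S Λ q x y →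
      (After.filter fun r => A r x = true ∧ A r y = false).card * Λ ≤ q * K := by
  intro q
  induction q with
  | zero =>
    intro x hp
    have hxy : x = y := hp
    subst hxy
    have : (After.filter fun r => A r x = true ∧ A r x = false) = ∅ := by
      apply Finset.filter_eq_empty_iff.mpr
      intro r _ h
      simp [h.1] at h
    simp only [this, card_empty, zero_mul, Nat.zero_le]
  | succ q ih =>
    intro x hp
    rcases hp with hxy | ⟨c, hxc, hL, hp'⟩
    · subst hxy
      have : (After.filter fun r => A r x = true ∧ A r x = false) = ∅ := by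
        apply Finset.filter_eq_empty_iff.mpr
        intro r _ h
        simp [h.1] at h
      simp only [this, card_empty, zero_mul, Nat.zero_le]
    · have h1 := ih c hp'
      classical
      have hsub : (After.filter fun r => A r x = true ∧ A r y = false) ⊆
          (After.filter fun r => A r x = true ∧ A r c = false) ∪
            (After.filter fun r => A r c = true ∧ A r y = false) := by
        intro r hr
        simp only [mem_filter, mem_union] at hr ⊢
        cases hc : A r c
        · exact Or.inl ⟨hr.1, hr.2.1, rfl⟩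
        · exact Or.inr ⟨hr.1, rfl, hr.2.2⟩
      have hcard := (Finset.card_le_card hsub).trans (Finset.card_union_le _ _)
      have h2 : (After.filter fun r => A r x = true ∧ A r c = false).card * Λ < K := by
        have h3 := hH x c hL.1 hL.2.1 hxc
          (S.filter fun r => A r x = true ∧ A r c = true)
          (After.filter fun r => A r x = true ∧ A r c = false)
          (fun a ha => (mem_filter.mp ha).2) (fun b hb => (mem_filter.mp hb).2)
          (fun a ha b hb => hsep a (mem_filter.mp ha).1 b (mem_filter.mp hb).1)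
        have h4 : Λ ≤ (S.filter fun r => A r x = true ∧ A r c = true).card := hL.2.2
        calc (After.filter fun r => A r x = true ∧ A r c = false).card * Λ
            ≤ (After.filter fun r => A r x = true ∧ A r c = false).card *
              (S.filter fun r => A r x = true ∧ A r c = true).card := Nat.mul_le_mul_left _ h4
          _ = (S.filter fun r => A r x = true ∧ A r c = true).card *
              (After.filter fun r => A r x = true ∧ A r c = false).card := Nat.mul_comm _ _
          _ < K := h3
      calc (After.filter fun r => A r x = true ∧ A r y = false).card * Λ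
          ≤ ((After.filter fun r => A r x = true ∧ A r c = false).card +
              (After.filter fun r => A r c = true ∧ A r y = false).card) * Λ :=
            Nat.mul_le_mul_right _ hcard
        _ = (After.filter fun r => A r x = true ∧ A r c = false).card * Λ +
              (After.filter fun r => A r c = true ∧ A r y = false).card * Λ := by ring
        _ ≤ K + q * K := Nat.add_le_add h2.le h1
        _ = (q + 1) * K := by ring

end Valley

section BFS

variable {V : Type*} (G : V → V → Prop) (x : V)

/-- Walks with exactly `m` edges from `x`. -/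
def WalkN : ℕ → V → Prop
  | 0, b => b = x
  | m + 1, b => ∃ c, WalkN m c ∧ G c b

/-- `i` is the distance from `x` to `b`. -/
def IsDist (b : V) (i : ℕ) : Prop := WalkN G x i b ∧ ∀ j < i, ¬ WalkN G x j b

lemma exists_walk {y : V} (h : Relation.ReflTransGen G x y) : ∃ m, WalkN G x m y := by
  induction h with
  | refl => exact ⟨0, rfl⟩
  | tail _ hbc ih =>
    obtain ⟨m, hm⟩ := ih
    exact ⟨m + 1, _, hm, hbc⟩

lemma exists_isDist {y : V} (h : ∃ m, WalkN G x m y) : ∃ k, IsDist G x y k := by
  classical
  exact ⟨Nat.find h, Nat.find_spec h, fun j hj => Nat.find_min h hj⟩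

lemma isDist_pred {c : V} {i : ℕ} (h : IsDist G x c (i + 1)) : ∃ b, G b c ∧ IsDist G x b i := by
  obtain ⟨⟨b, hb, hbc⟩, hmin⟩ := h
  refine ⟨b, hbc, hb, fun j hj hw => ?_⟩
  exact hmin (j + 1) (by omega) ⟨b, hw, hbc⟩

lemma chain_of_isDist : ∀ (k : ℕ) (c : V), IsDist G x c k →
    ∃ v : ℕ → V, v k = c ∧ (∀ i ≤ k, IsDist G x (v i) i) ∧ (∀ i < k, G (v i) (v (i + 1))) := by
  intro k
  induction k with
  | zero =>
    intro c hc
    exact ⟨fun _ => c, rfl, fun i hi => by
      have : i = 0 := by omega
      subst this
      exact hc, fun i hi => by omega⟩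
  | succ k ih =>
    intro c hc
    obtain ⟨b, hbc, hb⟩ := isDist_pred G x hc
    obtain ⟨v, hvk, hvd, hvG⟩ := ih b hb
    classical
    refine ⟨fun i => if i ≤ k then v i else c, by simp, ?_, ?_⟩
    · intro i hi
      by_cases h : i ≤ k
      · simp only [h, if_true]
        exact hvd i h
      · have : i = k + 1 := by omega
        subst this
        simpa using hc
    · intro i hi
      by_cases h : i + 1 ≤ k
      · have h' : i ≤ k := by omega
        simp only [h, h', if_true]
        exact hvG i (by omega)
      · have : i = k := by omega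
        subst this
        simp only [le_refl, if_true, Nat.not_succ_le_self, if_false]
        rw [hvk]
        exact hbc

lemma not_adj_of_isDist {b c : V} {i j : ℕ} (hb : IsDist G x b i) (hc : IsDist G x c j)
    (hij : i + 2 ≤ j) : ¬ G b c := by
  intro hG
  exact hc.2 (i + 1) (by omega) ⟨b, hb.1, hG⟩

end BFS

section Union

/-- Union growth for sets with small pairwise intersections. -/
lemma union_growth {α : Type*} [DecidableEq α] (T : ℕ → Finset α) (Θ Λ : ℕ) (m : ℕ)
    (hT : ∀ i < m, Θ ≤ (T i).card) (hI : ∀ i j, i < j → j < m → (T i ∩ T j).card ≤ Λ) :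
    m * Θ ≤ ((range m).biUnion T).card + m ^ 2 * Λ := by
  induction m with
  | zero => simp
  | succ m ih =>
    have h1 := ih (fun i hi => hT i (by omega)) (fun i j hij hj => hI i j hij (by omega))
    rw [Finset.range_add_one, Finset.biUnion_insert]
    set U := (range m).biUnion T with hU
    have h2 : (T m ∩ U).card ≤ m * Λ := by
      have hsub : T m ∩ U ⊆ (range m).biUnion fun i => T i ∩ T m := by
        intro a ha
        simp only [hU, mem_inter, mem_biUnion, mem_range] at ha ⊢
        obtain ⟨h3, i, hi, h4⟩ := ha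
        exact ⟨i, hi, h4, h3⟩
      refine (Finset.card_le_card hsub).trans (Finset.card_biUnion_le.trans ?_)
      calc ∑ i ∈ range m, (T i ∩ T m).card ≤ ∑ _i ∈ range m, Λ :=
            Finset.sum_le_sum fun i hi => hI i m (mem_range.mp hi) (by omega)
        _ = m * Λ := by simp
    have h3 : (T m ∪ U).card + (T m ∩ U).card = (T m).card + U.card :=
      Finset.card_union_add_card_inter _ _
    have h4 := hT m (by omega)
    have h5 : (m + 1) * Θ = m * Θ + Θ := by ring
    have h6 : (m + 1) ^ 2 * Λ = m ^ 2 * Λ + m * Λ + (m * Λ + Λ) := by ring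
    omega

end Union

section Reach

variable {A : Fin n → Fin n → Bool} {Z : Finset (Fin n)} {g : ℕ}

/-- Main path estimate: connected in the graph of frequently co-occurring columns below `y`
implies few later rows contain `x` without `y`. -/
theorem reach_bound (hg : 0 < g) (hH : NonHeavy A Z (g ^ 2)) {S After : Finset (Fin n)}
    (hsep : ∀ a ∈ S, ∀ b ∈ After, a < b) {Θ Λ₁ Λ₃ M : ℕ}
    (hMΘ : S.card + M ^ 2 * Λ₁ < M * Θ) (hΛ : Λ₁ ≤ Θ)
    (hloss : Λ₃ + (2 * M) * (2 * M) * (2 * g) ≤ Λ₁) {x y : Fin n} (hxy : x < y)
    (hreach : Relation.ReflTransGen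
      (fun u v => (u ≠ v ∧ u ∉ Z ∧ v ∉ Z ∧ Θ ≤ cooc A S u v) ∧ u ≤ y ∧ v ≤ y) x y) :
    (After.filter fun r => A r x = true ∧ A r y = false).card * Λ₃ ≤ (2 * M) * g ^ 2 := by
  classical
  -- the auxiliary graph
  let Good : Fin n → Prop := fun u => u ∉ Z ∧ u ≤ y ∧ Θ ≤ occ A S u
  let G : Fin n → Fin n → Prop := fun u v => u ≠ v ∧ Good u ∧ Good v ∧ Λ₁ ≤ cooc A S u v
  have hsub : Relation.ReflTransGen G x y := by
    refine Relation.ReflTransGen.mono (p := G) ?_ x y hreach
    rintro u v ⟨⟨h1, h2, h3, h4⟩, h5, h6⟩
    refine ⟨h1, ⟨h2, h5, h4.trans (cooc_le_occ A S u v)⟩, ⟨h3, h6, ?_⟩, hΛ.trans h4⟩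
    rw [cooc_comm] at h4
    exact h4.trans (cooc_le_occ A S v u)
  obtain ⟨k, hk⟩ := exists_isDist G x (exists_walk G x hsub)
  obtain ⟨v, hvk, hvd, hvG⟩ := chain_of_isDist G x k y hk
  have hv0 : v 0 = x := (hvd 0 (Nat.zero_le _)).1
  have hkpos : 0 < k := by
    rcases Nat.eq_zero_or_pos k with h0 | h0
    · subst h0
      rw [hv0] at hvk
      exact absurd hvk hxy.ne
    · exact h0
  have hGood : ∀ i ≤ k, Good (v i) := by
    intro i hi
    by_cases h : i < k
    · exact (hvG i h).2.1
    · have : i = k := by omega
      subst this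
      exact (hvG (i - 1) (by omega)).2.2.1 |> fun hh => by
        have e : i - 1 + 1 = i := by omega
        rwa [e] at hh
  -- bound on `k`
  have hkM : k < 2 * M := by
    by_contra hcon
    push Not at hcon
    have hTcard : ∀ i < M, Θ ≤ (S.filter fun r => A r (v (2 * i)) = true).card := by
      intro i hi
      exact (hGood (2 * i) (by omega)).2.2
    have hTinter : ∀ i j, i < j → j < M →
        ((S.filter fun r => A r (v (2 * i)) = true) ∩
          (S.filter fun r => A r (v (2 * j)) = true)).card ≤ Λ₁ := by
      intro i j hij hj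
      have hna := not_adj_of_isDist G x (hvd (2 * i) (by omega)) (hvd (2 * j) (by omega))
        (by omega)
      have hne : v (2 * i) ≠ v (2 * j) := by
        intro heq
        have h1 := hvd (2 * i) (by omega)
        have h2 := hvd (2 * j) (by omega)
        rw [heq] at h1
        exact h2.2 (2 * i) (by omega) h1.1
      have hlt : ¬ Λ₁ ≤ cooc A S (v (2 * i)) (v (2 * j)) := fun h =>
        hna ⟨hne, hGood _ (by omega), hGood _ (by omega), h⟩
      have heq : ((S.filter fun r => A r (v (2 * i)) = true) ∩
          (S.filter fun r => A r (v (2 * j)) = true)).card = cooc A S (v (2 * i)) (v (2 * j)) := by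
        unfold cooc
        congr 1
        ext r
        simp only [mem_inter, mem_filter]
        tauto
      rw [heq]
      omega
    have hgrow := union_growth (fun i => S.filter fun r => A r (v (2 * i)) = true) Θ Λ₁ M
      hTcard hTinter
    have hUcard : ((range M).biUnion fun i => S.filter fun r => A r (v (2 * i)) = true).card
        ≤ S.card := by
      apply Finset.card_le_card
      intro r hr
      simp only [mem_biUnion, mem_filter] at hr
      obtain ⟨_, _, h, _⟩ := hr
      exact h
    omega
  -- increasing path by backward induction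
  have hpath : ∀ j ≤ k, IncPath A Z S (Λ₁ - j * (k * (2 * g))) j (v (k - j)) y := by
    intro j
    induction j with
    | zero =>
      intro _
      simp only [Nat.sub_zero]
      exact hvk
    | succ j ih =>
      intro hj
      have hp := ih (by omega)
      have hi : k - (j + 1) + 1 = k - j := by omega
      have hadj := hvG (k - (j + 1)) (by omega)
      rw [hi] at hadj
      have hgu := hGood (k - (j + 1)) (by omega)
      have hbig : (j + 1) * (k * (2 * g)) ≤ Λ₁ := by
        have h1 : (j + 1) * (k * (2 * g)) ≤ (2 * M) * ((2 * M) * (2 * g)) :=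
          Nat.mul_le_mul (by omega) (Nat.mul_le_mul_right _ (by omega))
        have h2 : (2 * M) * ((2 * M) * (2 * g)) = (2 * M) * (2 * M) * (2 * g) := by ring
        omega
      have hlevel : (Λ₁ - (j + 1) * (k * (2 * g))) + j * (2 * g) ≤ Λ₁ - j * (k * (2 * g)) := by
        have h1 : (j + 1) * (k * (2 * g)) = j * (k * (2 * g)) + k * (2 * g) := by ring
        have h2 : j * (2 * g) ≤ k * (2 * g) := Nat.mul_le_mul_right _ (by omega)
        omega
      refine insert_path hg hH (j) (v (k - j)) (v (k - (j + 1))) _ _ hlevel hgu.1 hgu.2.1 hp ?_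
      refine Or.inr ⟨hgu.1, (hGood (k - j) (by omega)).1, ?_⟩
      exact le_trans (Nat.sub_le _ _) hadj.2.2.2
  have hfull := hpath k le_rfl
  rw [Nat.sub_self, hv0] at hfull
  have hlevel : Λ₃ ≤ Λ₁ - k * (k * (2 * g)) := by
    have h1 : k * (k * (2 * g)) ≤ (2 * M) * ((2 * M) * (2 * g)) :=
      Nat.mul_le_mul (by omega) (Nat.mul_le_mul_right _ (by omega))
    have h2 : (2 * M) * ((2 * M) * (2 * g)) = (2 * M) * (2 * M) * (2 * g) := by ring
    omega
  have hb := incpath_bound hH hsep k x (IncPath.mono hlevel hfull)
  calc _ ≤ k * g ^ 2 := hb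
    _ ≤ (2 * M) * g ^ 2 := Nat.mul_le_mul_right _ (by omega)

end Reach

end Vale.Agent.P037.Gamma
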