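import Vale.Agent.P037.Core

/-! Choice of parameters for the 2×2 diagonal pattern. -/

namespace Vale.Agent.P037

open Finset

variable {n : ℕ}

/-- Few copies imply closeness to a pattern-free matrix. -/
theorem close_of_few (m : ℕ) (hm : 0 < m) (hn : 2 ^ 114 * m ^ 21 ≤ n)
    (A : Fin n → Fin n → Bool) (hN : 2 ^ 229 * m ^ 42 * numCopies A ≤ n ^ 4) :
    ∃ B : Fin n → Fin n → Bool, (∀ x y u v, ¬ IsCopy B x y u v) ∧
      m * (univ.filter fun p : Fin n × Fin n => A p.1 p.2 ≠ B p.1 p.2).card ≤ n ^ 2 := by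
  have hm1 : 1 ≤ m := hm
  set X : ℕ := 2 ^ 114 * m ^ 21 with hX
  have hXpos : 0 < X := by positivity
  set b : ℕ := n / X with hb
  have hbpos : 0 < b := Nat.div_pos hn hXpos
  have hbX : X * b ≤ n := Nat.mul_div_le _ _
  have hbX2 : n < X * (b + 1) := Nat.lt_mul_div_succ _ hXpos
  have hbX3 : n < 2 * X * b := by
    have : X * (b + 1) ≤ 2 * X * b := by nlinarith
    omega
  set L : ℕ := 2 ^ 18 * m ^ 3 with hLdef
  have hLpos : 0 < L := by positivity
  set w : ℕ := n / L + 1 with hw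
  have hwpos : 0 < w := Nat.succ_pos _
  have hLw : n < L * w := Nat.lt_mul_div_succ _ hLpos
  have hLn : L ≤ n := by
    refine le_trans ?_ hn
    have h1 : m ^ 3 ≤ m ^ 21 := Nat.pow_le_pow_right hm1 (by norm_num)
    exact Nat.mul_le_mul (by norm_num) h1
  have hLw2 : L * w ≤ 2 * n := by
    have h1 : L * (n / L) ≤ n := Nat.mul_div_le _ _
    have h2 : L * w = L * (n / L) + L := by rw [hw]; ring
    omega
  set win : Fin n → ℕ := fun r => r.val / w with hwin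
  have hL : ∀ r, win r < L := by
    intro r
    apply Nat.div_lt_of_lt_mul
    have := r.isLt
    rw [mul_comm]
    omega
  have hmono : ∀ r r', win r < win r' → r < r' := by
    intro r r' hlt
    by_contra hcon
    have h1 : r'.val ≤ r.val := by
      simpa using not_lt.mp hcon
    have h2 : win r' ≤ win r := Nat.div_le_div_right h1
    omega
  have hsize : ∀ t, (univ.filter fun r => win r = t).card ≤ w := by
    intro t
    have := Finset.card_le_card_of_injOn (s := univ.filter fun r => win r = t)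
      (t := range w) (fun r : Fin n => r.val % w) ?_ ?_
    · simpa using this
    · intro r _
      simpa using Nat.mod_lt _ hwpos
    · intro r hr r' hr' heq
      simp only [coe_filter, mem_univ, true_and, Set.mem_ofPred_eq] at hr hr'
      apply Fin.ext
      have h1 := Nat.div_add_mod r.val w
      have h2 := Nat.div_add_mod r'.val w
      simp only at heq
      have h3 : r.val / w = r'.val / w := by
        have e1 : win r = r.val / w := rfl
        have e2 : win r' = r'.val / w := rfl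
        omega
      rw [h3, heq] at h1
      omega
  set g : ℕ := 2 ^ 59 * m ^ 11 * b with hg
  have hgpos : 0 < g := by positivity
  set q : ℕ := 2 ^ 20 * m ^ 4 with hq
  have hqpos : 0 < q := by positivity
  set τ : ℕ := 2 ^ 109 * m ^ 20 * b with hτ
  have hτpos : 0 < τ := by positivity
  obtain ⟨B, z₁, z₂, z₃, I, hfree, h1, h2, h3, h4, h5⟩ :=
    core_construction (A := A) hL hmono hsize g q τ b w hgpos hqpos hwpos
  refine ⟨B, hfree, ?_⟩
  set Ham := (univ.filter fun p : Fin n × Fin n => A p.1 p.2 ≠ B p.1 p.2).card with hHam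
  set N := numCopies A with hNdef
  -- useful facts
  have hn1 : 2 * X * b = 2 ^ 115 * m ^ 21 * b := by rw [hX]; ring
  rw [hn1] at hbX3
  have hbX' : 2 ^ 114 * m ^ 21 * b ≤ n := hbX
  -- z₁
  have hz1 : 4 * m * z₁ ≤ n := by
    have e : q * z₁ = L * (4 * m * z₁) := by rw [hq, hLdef]; ring
    rw [e] at h1
    exact Nat.le_of_mul_le_mul_left h1 hLpos
  -- z₂
  have hz2 : 16 * m * z₂ ≤ n := by
    have e1 : 2 * g ^ 2 * z₂ = b * (2 ^ 119 * m ^ 22 * b * z₂) := by rw [hg]; ring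
    rw [e1, mul_comm (n ^ 2) b] at h2
    have h2' := Nat.le_of_mul_le_mul_left h2 hbpos
    have hpos : 0 < 2 ^ 115 * m ^ 21 * b := by positivity
    apply Nat.le_of_mul_le_mul_left _ hpos
    calc 2 ^ 115 * m ^ 21 * b * (16 * m * z₂) = 2 ^ 119 * m ^ 22 * b * z₂ := by ring
      _ ≤ n ^ 2 := h2'
      _ = n * n := by ring
      _ ≤ (2 ^ 115 * m ^ 21 * b) * n := Nat.mul_le_mul_right _ hbX3.le
  -- z₃
  have hz3 : 8 * m * z₃ ≤ n := by
    have hpos : 0 < (2 ^ 115) ^ 3 * m ^ 63 * b ^ 3 := by positivity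
    have h3' : 2 ^ 119 * m ^ 22 * b ^ 3 * z₃ ≤ N := by
      calc 2 ^ 119 * m ^ 22 * b ^ 3 * z₃ = b * (2 * g ^ 2 * z₃) := by rw [hg]; ring
        _ ≤ N := h3
    have hn3 : n ^ 3 ≤ (2 ^ 115 * m ^ 21 * b) ^ 3 := Nat.pow_le_pow_left hbX3.le 3
    apply Nat.le_of_mul_le_mul_left _ hpos
    calc (2 ^ 115) ^ 3 * m ^ 63 * b ^ 3 * (8 * m * z₃)
        = 2 ^ 229 * m ^ 42 * (2 ^ 119 * m ^ 22 * b ^ 3 * z₃) := by ring
      _ ≤ 2 ^ 229 * m ^ 42 * N := Nat.mul_le_mul_left _ h3'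
      _ ≤ n ^ 4 := hN
      _ = n ^ 3 * n := by ring
      _ ≤ (2 ^ 115 * m ^ 21 * b) ^ 3 * n := Nat.mul_le_mul_right _ hn3
      _ = (2 ^ 115) ^ 3 * m ^ 63 * b ^ 3 * n := by ring
  -- inversions
  have hI : 65536 * m ^ 3 * I ≤ 3 * n ^ 3 := by
    apply Nat.le_of_mul_le_mul_left _ hwpos
    have hA : 65536 * m ^ 3 * (n ^ 2 * (w * (w + w))) ≤ n ^ 3 * w := by
      have e1 : 2 ^ 17 * m ^ 3 * w ≤ n := by
        have e2 : L * w = 2 * (2 ^ 17 * m ^ 3 * w) := by rw [hLdef]; ring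
        omega
      calc 65536 * m ^ 3 * (n ^ 2 * (w * (w + w)))
          = (n ^ 2 * w) * (2 ^ 17 * m ^ 3 * w) := by ring
        _ ≤ (n ^ 2 * w) * n := Nat.mul_le_mul_left _ e1
        _ = n ^ 3 * w := by ring
    have hB : 65536 * m ^ 3 * (2 * N) ≤ n ^ 3 * w := by
      have e1 : 2 ^ 18 * m ^ 3 * (2 ^ 211 * m ^ 39 * N) ≤ 2 ^ 18 * m ^ 3 * (n ^ 3 * w) := by
        calc 2 ^ 18 * m ^ 3 * (2 ^ 211 * m ^ 39 * N) = 2 ^ 229 * m ^ 42 * N := by ring
          _ ≤ n ^ 4 := hN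
          _ = n ^ 3 * n := by ring
          _ ≤ n ^ 3 * (L * w) := Nat.mul_le_mul_left _ hLw.le
          _ = 2 ^ 18 * m ^ 3 * (n ^ 3 * w) := by rw [hLdef]; ring
      have e2 := Nat.le_of_mul_le_mul_left e1 (by positivity)
      refine le_trans ?_ e2
      calc 65536 * m ^ 3 * (2 * N) = 2 ^ 17 * m ^ 3 * N := by ring
        _ ≤ 2 ^ 211 * m ^ 39 * N := Nat.mul_le_mul_right _
            (Nat.mul_le_mul (by norm_num) (Nat.pow_le_pow_right hm1 (by norm_num)))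
    have hC : 65536 * m ^ 3 * (w * (n ^ 2 * (L * (2 * g * q)))) ≤ n ^ 3 * w := by
      calc 65536 * m ^ 3 * (w * (n ^ 2 * (L * (2 * g * q))))
          = (w * n ^ 2) * (2 ^ 114 * m ^ 21 * b) := by
            rw [hLdef, hg, hq]; ring
        _ ≤ (w * n ^ 2) * n := Nat.mul_le_mul_left _ hbX'
        _ = n ^ 3 * w := by ring
    calc w * (65536 * m ^ 3 * I) = 65536 * m ^ 3 * (w * I) := by ring
      _ ≤ 65536 * m ^ 3 * (n ^ 2 * (w * (w + w)) + 2 * N + w * (n ^ 2 * (L * (2 * g * q)))) :=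
          Nat.mul_le_mul_left _ h4
      _ = 65536 * m ^ 3 * (n ^ 2 * (w * (w + w))) + 65536 * m ^ 3 * (2 * N)
          + 65536 * m ^ 3 * (w * (n ^ 2 * (L * (2 * g * q)))) := by ring
      _ ≤ n ^ 3 * w + n ^ 3 * w + n ^ 3 * w := Nat.add_le_add (Nat.add_le_add hA hB) hC
      _ = w * (3 * n ^ 3) := by ring
  have hnτ : n ≤ 64 * m * τ := by
    have e : 64 * m * τ = 2 ^ 115 * m ^ 21 * b := by rw [hτ]; ring
    omega
  have hnτ2 : 32 * m * τ ≤ n := by
    have e : 32 * m * τ = 2 ^ 114 * m ^ 21 * b := by rw [hτ]; ring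
    omega
  have hI2 : 16 * m * I ≤ 3 * τ ^ 2 * n := by
    have hpos : 0 < 4096 * m ^ 2 := by positivity
    apply Nat.le_of_mul_le_mul_left _ hpos
    have hsq : n ^ 2 ≤ (64 * m * τ) ^ 2 := Nat.pow_le_pow_left hnτ 2
    calc 4096 * m ^ 2 * (16 * m * I) = 65536 * m ^ 3 * I := by ring
      _ ≤ 3 * n ^ 3 := hI
      _ = 3 * n * n ^ 2 := by ring
      _ ≤ 3 * n * (64 * m * τ) ^ 2 := Nat.mul_le_mul_left _ hsq
      _ = 4096 * m ^ 2 * (3 * τ ^ 2 * n) := by ring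
  -- conclusion
  have hpos : 0 < 16 * τ ^ 2 := by positivity
  apply Nat.le_of_mul_le_mul_left _ hpos
  have hsum : 16 * m * (z₁ + z₂ + z₃) ≤ 7 * n := by
    have e : 16 * m * (z₁ + z₂ + z₃) = 4 * (4 * m * z₁) + 16 * m * z₂ + 2 * (8 * m * z₃) := by ring
    omega
  calc 16 * τ ^ 2 * (m * Ham) = 16 * m * (τ ^ 2 * Ham) := by ring
    _ ≤ 16 * m * (τ ^ 2 * (n * (z₁ + z₂ + z₃)) + n * (τ ^ 2 * (4 * τ)) + n * I) :=
        Nat.mul_le_mul_left _ h5
    _ = (τ ^ 2 * n) * (16 * m * (z₁ + z₂ + z₃)) + (τ ^ 2 * n) * (2 * (32 * m * τ))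
        + n * (16 * m * I) := by ring
    _ ≤ (τ ^ 2 * n) * (7 * n) + (τ ^ 2 * n) * (2 * n) + n * (3 * τ ^ 2 * n) :=
        Nat.add_le_add (Nat.add_le_add (Nat.mul_le_mul_left _ hsum)
          (Nat.mul_le_mul_left _ (Nat.mul_le_mul_left _ hnτ2)))
          (Nat.mul_le_mul_left _ hI2)
    _ = 12 * τ ^ 2 * n ^ 2 := by ring
    _ ≤ 16 * τ ^ 2 * n ^ 2 := Nat.mul_le_mul_right _ (Nat.mul_le_mul_right _ (by norm_num))

end Vale.Agent.P037
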